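import Vale.Agent.Lib.P329.Coding

/-!
# Languages recognized by finite aperiodic monoids are star-free

The proof follows the local divisor method.
-/

namespace Vale.Agent.Lib.P329

open Computability

section Step

variable {α M : Type} [Monoid M] [DecidableEq α] (φ : α → M) (c : α)

/-- the words without `c` of a given value -/
def freeVal (t : M) : Language α := langOf fun u => c ∉ u ∧ (u.map φ).prod = t

/-- the words ending with `c` (or empty) whose code lies in a given language -/
def codeLang (K : Language M) : Language α :=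
  langOf fun y => y ∈ endLang c ∧ codeAux φ c 1 y ∈ K

theorem mem_codeLang {K : Language M} {y : List α} :
    y ∈ codeLang φ c K ↔ y ∈ endLang c ∧ codeAux φ c 1 y ∈ K := Iff.rfl

theorem hasHeight_codeLang (hP : ∀ t : M, HasHeight 0 (freeVal φ c t)) (E : GRE M)
    (hE : E.height = 0) : HasHeight 0 (codeLang φ c E.lang) := by
  induction E with
  | zero =>
    refine HasHeight.zero.congr ?_
    intro y
    rw [mem_codeLang]
    constructor
    · rintro ⟨-, h⟩; exact h
    · intro h; exact absurd h (by simp)
  | one =>
    refine HasHeight.one.congr ?_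
    intro y
    rw [mem_codeLang, Language.mem_one]
    constructor
    · rintro ⟨h1, h2⟩
      exact code_eq_nil φ c h1 h2
    · rintro rfl
      exact ⟨endLang_nil c, rfl⟩
  | letter t =>
    refine ((hP t).mul (HasHeight.letter c)).congr ?_
    intro y
    rw [mem_codeLang, Language.mem_mul]
    constructor
    · rintro ⟨h1, h2⟩
      have h2' : codeAux φ c 1 y = [t] := h2
      obtain ⟨u, y', rfl, hu, ht, hk⟩ := codeAux_cons_split φ c y 1 t [] h2'
      have hy' : y' ∈ endLang c := by
        have : (u ++ [c]) ++ y' ∈ endLang c := by simpa using h1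
        exact endLang_suffix' this
      have hnil := code_eq_nil φ c hy' hk
      subst hnil
      exact ⟨u, ⟨hu, by simpa using ht⟩, [c], rfl, rfl⟩
    · rintro ⟨u, ⟨hu, ht⟩, s, hs, rfl⟩
      have hs' : s = [c] := hs
      subst hs'
      refine ⟨endLang_concat c u, ?_⟩
      show codeAux φ c 1 (u ++ [c]) = [t]
      rw [codeAux_single φ c u 1 hu, one_mul, ht]
  | union p q ihp ihq =>
    have hp : p.height = 0 := by
      have : max p.height q.height = 0 := hE
      omega
    have hq : q.height = 0 := by
      have : max p.height q.height = 0 := hE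
      omega
    refine ((ihp hp).add (ihq hq)).congr ?_
    intro y
    rw [Language.mem_add, mem_codeLang, mem_codeLang, mem_codeLang]
    show _ ∧ _ ∈ p.lang + q.lang ↔ _
    rw [Language.mem_add]
    tauto
  | concat p q ihp ihq =>
    have hp : p.height = 0 := by
      have : max p.height q.height = 0 := hE
      omega
    have hq : q.height = 0 := by
      have : max p.height q.height = 0 := hE
      omega
    refine ((ihp hp).mul (ihq hq)).congr ?_
    intro y
    rw [mem_codeLang, Language.mem_mul]
    show _ ∧ _ ∈ p.lang * q.lang ↔ _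
    rw [Language.mem_mul]
    constructor
    · rintro ⟨h1, k₁, hk₁, k₂, hk₂, h2⟩
      obtain ⟨y₁, y₂, rfl, e1, e2, c1, c2⟩ := code_split φ c k₁ y k₂ h1 h2.symm
      exact ⟨y₁, ⟨e1, by rw [c1]; exact hk₁⟩, y₂, ⟨e2, by rw [c2]; exact hk₂⟩, rfl⟩
    · rintro ⟨y₁, ⟨e1, c1⟩, y₂, ⟨e2, c2⟩, rfl⟩
      exact ⟨endLang_append e1 e2, _, c1, _, c2, (code_append φ c e1).symm⟩
  | compl p ih =>
    have hp : p.height = 0 := hE
    refine ((hasHeight_endLang c 0).inf (ih hp).compl).congr ?_
    intro y
    rw [mem_codeLang, Language.mem_inf, mem_compl_lang, mem_codeLang]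
    show _ ∧ _ ∈ (p.lang)ᶜ ↔ _
    rw [mem_compl_lang]
    tauto
  | star p _ =>
    have : p.height + 1 = 0 := hE
    omega

theorem split_last (r : List α) : ∃ y v, r = y ++ v ∧ y ∈ endLang c ∧ c ∉ v := by
  induction r using List.reverseRecOn with
  | nil => exact ⟨[], [], rfl, endLang_nil c, by simp⟩
  | append_singleton r a ih =>
    by_cases hac : a = c
    · subst hac
      exact ⟨r ++ [a], [], by simp, endLang_concat a r, by simp⟩
    · obtain ⟨y, v, rfl, hy, hv⟩ := ih
      refine ⟨y, v ++ [a], by simp, hy, ?_⟩
      simp only [List.mem_append, List.mem_singleton, not_or]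
      exact ⟨hv, fun e => hac e.symm⟩

/-- the inductive step: one letter `c` is singled out -/
theorem step_lemma [Fintype M] (hP : ∀ t : M, HasHeight 0 (freeVal φ c t))
    (hLD : ∀ n : LD (φ c),
      HasHeight 0 (langOf fun ts : List M => (ts.map (LD.psi (φ c))).prod = n))
    (m : M) : HasHeight 0 (langOf fun w : List α => (w.map φ).prod = m) := by
  classical
  haveI : Fintype (LD (φ c)) := Fintype.ofFinite _
  have hS : ∀ n : LD (φ c), HasHeight 0
      (codeLang φ c (langOf fun ts : List M => (ts.map (LD.psi (φ c))).prod = n)) := by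
    intro n
    obtain ⟨E, hE, hl⟩ := hLD n
    rw [← hl]
    exact hasHeight_codeLang φ c hP E (by omega)
  let F : M × LD (φ c) × M → Language α := fun d =>
    freeVal φ c d.1 * (({[c]} : Language α) *
      codeLang φ c (langOf fun ts : List M => (ts.map (LD.psi (φ c))).prod = d.2.1)) *
      freeVal φ c d.2.2
  have hF : ∀ d, HasHeight 0 (F d) := fun d =>
    ((hP d.1).mul ((HasHeight.letter c).mul (hS d.2.1))).mul (hP d.2.2)
  refine ((hP m).add (HasHeight.biUnion
    (Finset.univ.filter (fun d : M × LD (φ c) × M => d.1 * d.2.1.1 * d.2.2 = m)) F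
    (fun d _ => hF d))).congr ?_
  intro w
  rw [Language.mem_add, mem_langOf, mem_langOf]
  constructor
  · intro hw
    by_cases hc : c ∈ w
    · right
      obtain ⟨u, r, rfl, hu⟩ := exists_first_split hc
      obtain ⟨y, v, rfl, hy, hv⟩ := split_last c r
      have hval := code_val φ c y 1 hy (fun _ => rfl)
      refine ⟨((u.map φ).prod, ((codeAux φ c 1 y).map (LD.psi (φ c))).prod, (v.map φ).prod),
        ?_, ?_⟩
      · simp only [Finset.mem_filter, Finset.mem_univ, true_and]
        rw [hval, ← hw]
        simp [mul_assoc]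
      · refine ⟨u ++ ([c] ++ y), ⟨u, ⟨hu, rfl⟩, [c] ++ y, ⟨[c], rfl, y, ⟨hy, rfl⟩, rfl⟩, rfl⟩,
          v, ⟨hv, rfl⟩, by simp⟩
    · left
      exact ⟨hc, hw⟩
  · rintro (⟨-, h⟩ | ⟨d, hd, hw⟩)
    · exact h
    · simp only [Finset.mem_filter, Finset.mem_univ, true_and] at hd
      obtain ⟨uy, ⟨u, ⟨-, hu⟩, cy, ⟨s, hs, y, ⟨hy, hcode⟩, rfl⟩, rfl⟩, v, ⟨-, hv⟩, rfl⟩ := hw
      have hs' : s = [c] := hs
      subst hs'
      have hval := code_val φ c y 1 hy (fun _ => rfl)
      have hcode' : ((codeAux φ c 1 y).map (LD.psi (φ c))).prod = d.2.1 := hcode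
      rw [hcode'] at hval
      rw [← hd, hval, ← hu, ← hv]
      simp [mul_assoc]

end Step

end Vale.Agent.Lib.P329

namespace Vale.Agent.Lib.P329

open Computability

theorem hasHeight_trivial_morphism {α M : Type} [Monoid M] (φ : α → M) (h : ∀ a, φ a = 1)
    (m : M) : HasHeight 0 (langOf fun w : List α => (w.map φ).prod = m) := by
  have hw : ∀ w : List α, (w.map φ).prod = 1 := by
    intro w
    induction w with
    | nil => rfl
    | cons a w ih => rw [List.map_cons, List.prod_cons, h a, ih, one_mul]
  by_cases hm : m = 1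
  · refine HasHeight.top.congr ?_
    intro w
    simp [hw w, hm]
  · refine HasHeight.zero.congr ?_
    intro w
    rw [mem_langOf, hw w]
    constructor
    · intro e; exact absurd e.symm hm
    · intro e; exact absurd e (by simp)

theorem filterMap_free_prod {α M : Type} [Monoid M] [DecidableEq α] (φ : α → M) (c : α) :
    ∀ u : List α, c ∉ u →
      ((u.filterMap (fun a => if h : a = c then none else some (⟨a, h⟩ : {a : α // a ≠ c}))).map
        (fun b => φ b.1)).prod = (u.map φ).prod := by
  intro u
  induction u with
  | nil => intro _; rfl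
  | cons a u ih =>
    intro hu
    simp only [List.mem_cons, not_or] at hu
    have hac : a ≠ c := fun e => hu.1 e.symm
    rw [List.filterMap_cons_some (b := (⟨a, hac⟩ : {a : α // a ≠ c})) (by simp [hac]),
      List.map_cons, List.prod_cons, ih hu.2, List.map_cons, List.prod_cons]

theorem starFree_aux : ∀ (n : ℕ) (M : Type) [Monoid M] [Finite M], Nat.card M ≤ n →
    (∀ x : M, ∃ k : ℕ, x ^ (k + 1) = x ^ k) →
    ∀ (k : ℕ) (α : Type) [Fintype α], Fintype.card α ≤ k → ∀ (φ : α → M) (m : M),
      HasHeight 0 (langOf fun w : List α => (w.map φ).prod = m) := by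
  intro n
  induction n with
  | zero =>
    intro M _ _ hcard
    exfalso
    have : 0 < Nat.card M := Nat.card_pos
    omega
  | succ n ihn =>
    intro M _ _ hcard hap k
    induction k with
    | zero =>
      intro α _ hα φ m
      have hempty : IsEmpty α := Fintype.card_eq_zero_iff.mp (by omega)
      exact hasHeight_trivial_morphism φ (fun a => (hempty.false a).elim) m
    | succ k ihk =>
      intro α _ hα φ m
      classical
      by_cases hall : ∀ a, φ a = 1
      · exact hasHeight_trivial_morphism φ hall m
      · push_neg at hall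
        obtain ⟨c, hc⟩ := hall
        haveI : Fintype M := Fintype.ofFinite M
        apply step_lemma φ c
        · intro t
          have hB : Fintype.card {a : α // a ≠ c} ≤ k := by
            have := Fintype.card_subtype_lt (p := fun a : α => a ≠ c) (x := c) (by simp)
            omega
          have hK := ihk {a : α // a ≠ c} hB (fun b => φ b.1) t
          refine ((hasHeight_freeLang c 0).inf (hK.comap
            (fun a => if h : a = c then none else some (⟨a, h⟩ : {a : α // a ≠ c})))).congr ?_
          intro u
          rw [Language.mem_inf, mem_freeLang, mem_comapLang, mem_langOf]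
          show c ∉ u ∧ (u.map φ).prod = t ↔ _
          constructor
          · rintro ⟨h1, h2⟩
            exact ⟨h1, by rw [filterMap_free_prod φ c u h1]; exact h2⟩
          · rintro ⟨h1, h2⟩
            exact ⟨h1, by rw [← filterMap_free_prod φ c u h1]; exact h2⟩
        · intro x
          have hlt := LD.card_lt (no_right_inverse hap hc)
          exact ihn (LD (φ c)) (by omega) (LD.aperiodic hap) (Fintype.card M) M le_rfl
            (LD.psi (φ c)) x

/-- Every language recognized by a finite aperiodic monoid is star-free. -/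
theorem starFree_of_aperiodic {M : Type} [Monoid M] [Finite M]
    (hap : ∀ x : M, ∃ k : ℕ, x ^ (k + 1) = x ^ k) {α : Type} [Fintype α] (φ : α → M) (m : M) :
    HasHeight 0 (langOf fun w : List α => (w.map φ).prod = m) :=
  starFree_aux (Nat.card M) M le_rfl hap (Fintype.card α) α le_rfl φ m

end Vale.Agent.Lib.P329
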