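import Vale.Agent.Lib.P329.Return

/-!
# Three concrete automata over a three-letter alphabet whose return codes are star-free
-/

namespace Vale.Agent.Lib.P329

open Computability

/-- a three-letter alphabet -/
inductive L3 : Type
  | c | u | m
  deriving DecidableEq

instance : Fintype L3 :=
  ⟨⟨[L3.c, L3.u, L3.m], by decide⟩, fun x => by cases x <;> decide⟩

theorem kstar_mul_unfold {α : Type} (B X : Language α) :
    KStar.kstar B * X = X + B * (KStar.kstar B * X) := by
  conv_lhs => rw [← Language.one_add_self_mul_kstar_eq_kstar B]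
  rw [add_mul, one_mul, mul_assoc]

/-- first-return decomposition for automata over `L3`, with the system in algebraic form -/
theorem stab3 {Q : Type} [DecidableEq Q] (step : Q → L3 → Q) (p : Q) (S : Q → Language L3)
    (hS : ∀ q, S q =
      ({[L3.c]} : Language L3) * (if step q L3.c = p then 1 else S (step q L3.c))
      + ({[L3.u]} : Language L3) * (if step q L3.u = p then 1 else S (step q L3.u))
      + ({[L3.m]} : Language L3) * (if step q L3.m = p then 1 else S (step q L3.m))) :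
    pathLang step p p = KStar.kstar (S p) := by
  apply stab_eq_kstar
  · intro q
    rw [hS q, Language.mem_add, Language.mem_add]
    intro h
    rcases h with (h | h) | h
    · exact nil_notMem_letter_mul h
    · exact nil_notMem_letter_mul h
    · exact nil_notMem_letter_mul h
  · intro q a w
    conv_lhs => rw [hS q]
    rw [Language.mem_add, Language.mem_add, cons_mem_letter_mul, cons_mem_letter_mul,
      cons_mem_letter_mul]
    cases a
    · by_cases hp : step q L3.c = p <;> simp [hp]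
    · by_cases hp : step q L3.u = p <;> simp [hp]
    · by_cases hp : step q L3.m = p <;> simp [hp]

/-- the one-letter languages -/
def lc : Language L3 := {[L3.c]}
/-- the one-letter languages -/
def lu : Language L3 := {[L3.u]}
/-- the one-letter languages -/
def lm : Language L3 := {[L3.m]}
/-- words in the letter `c` only -/
def Cs : Language L3 := onlyLang {L3.c}
/-- words in the letters `u`, `m` only -/
def UM : Language L3 := onlyLang {L3.u, L3.m}

theorem Cs_mul (X : Language L3) : Cs * X = X + lc * (Cs * X) := by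
  have e : Cs = 1 + lc * Cs := onlyLang_singleton_unfold L3.c
  conv_lhs => rw [e]
  rw [add_mul, one_mul, mul_assoc]

theorem UM_mul (X : Language L3) : UM * X = X + (lu + lm) * (UM * X) := by
  have e : UM = 1 + (lu + lm) * UM := onlyLang_pair_unfold L3.u L3.m
  conv_lhs => rw [e]
  rw [add_mul, one_mul, mul_assoc]

theorem hCs (n : ℕ) : HasHeight n Cs := hasHeight_onlyLang _ n
theorem hUM (n : ℕ) : HasHeight n UM := hasHeight_onlyLang _ n
theorem hlc (n : ℕ) : HasHeight n lc := HasHeight.letter _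
theorem hlu (n : ℕ) : HasHeight n lu := HasHeight.letter _
theorem hlm (n : ℕ) : HasHeight n lm := HasHeight.letter _

/-! ### The walk on three levels with a neutral letter -/

/-- from level one back to level zero, never at level zero in between -/
def H1 : Language L3 := KStar.kstar (Cs * lu * Cs * lm) * (Cs * lm + Cs * lu * Cs * lu)
/-- from level two back to level zero, never at level zero in between -/
def H2 : Language L3 := Cs * (lu + lm * H1)

theorem H2_eq : H2 = lc * H2 + lu + lm * H1 := by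
  conv_lhs => rw [H2, Cs_mul]
  rw [← H2]
  abel

theorem H1_eq_aux : H1 = Cs * (lm + lu * H2) := by
  conv_lhs => rw [H1, kstar_mul_unfold]
  rw [← H1, H2]
  simp only [mul_add, mul_assoc]
  abel

theorem H1_eq : H1 = lc * H1 + lu * H2 + lm := by
  conv_lhs => rw [H1_eq_aux, Cs_mul]
  rw [← H1_eq_aux]
  abel

theorem free_m_Cs {y : List L3} (h : y ∈ Cs) : L3.m ∉ y := by
  intro hm
  have := mem_onlyLang.mp h _ hm
  simp at this

theorem hH1 : HasHeight 0 H1 := by
  have hY : HasHeight 0 (Cs * lu * Cs) := ((hCs 0).mul (hlu 0)).mul (hCs 0)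
  have hb : ∀ y ∈ Cs * lu * Cs, L3.m ∉ y := by
    intro y hy
    obtain ⟨xy, hxy, z, hz, rfl⟩ := Language.mem_mul.mp hy
    obtain ⟨x, hx, s, hs, rfl⟩ := Language.mem_mul.mp hxy
    have hs' : s = [L3.u] := hs
    subst hs'
    intro hm
    simp only [List.mem_append, List.mem_singleton, reduceCtorEq, or_false] at hm
    rcases hm with hm | hm
    · exact free_m_Cs hx hm
    · exact free_m_Cs hz hm
  exact (hasHeight_marker_star L3.m (Cs * lu * Cs) hY hb).mul
    (((hCs 0).mul (hlm 0)).add ((((hCs 0).mul (hlu 0)).mul (hCs 0)).mul (hlu 0)))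

theorem hH2 : HasHeight 0 H2 := (hCs 0).mul ((hlu 0).add ((hlm 0).mul hH1))

/-! ### First automaton: levels, with the parity of the letters read at level zero -/

/-- six states: level `0, 1, 2` with parity bit off (`a`) or on (`b`) -/
inductive S6 : Type
  | a0 | a1 | a2 | b0 | b1 | b2
  deriving DecidableEq

instance : Fintype S6 :=
  ⟨⟨[S6.a0, S6.a1, S6.a2, S6.b0, S6.b1, S6.b2], by decide⟩, fun x => by cases x <;> decide⟩

/-- every letter read at level zero flips the bit; `c` keeps the level -/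
def d3step : S6 → L3 → S6
  | S6.a0, L3.c => S6.b0
  | S6.a0, L3.u => S6.b1
  | S6.a0, L3.m => S6.b2
  | S6.a1, L3.c => S6.a1
  | S6.a1, L3.u => S6.a2
  | S6.a1, L3.m => S6.a0
  | S6.a2, L3.c => S6.a2
  | S6.a2, L3.u => S6.a0
  | S6.a2, L3.m => S6.a1
  | S6.b0, L3.c => S6.a0
  | S6.b0, L3.u => S6.a1
  | S6.b0, L3.m => S6.a2
  | S6.b1, L3.c => S6.b1
  | S6.b1, L3.u => S6.b2
  | S6.b1, L3.m => S6.b0
  | S6.b2, L3.c => S6.b2
  | S6.b2, L3.u => S6.b0
  | S6.b2, L3.m => S6.b1

/-- one return to level zero -/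
def Z3 : Language L3 := lc + lu * H1 + lm * H2

/-- the solution of the return system of the first automaton -/
def d3S : S6 → Language L3
  | S6.a0 => Z3 * Z3
  | S6.a1 => H1
  | S6.a2 => H2
  | S6.b0 => Z3
  | S6.b1 => H1 * Z3
  | S6.b2 => H2 * Z3

theorem d3_stab : pathLang d3step S6.a0 S6.a0 = KStar.kstar (Z3 * Z3) := by
  refine stab3 d3step S6.a0 d3S ?_
  intro q
  cases q
  · show (lc + lu * H1 + lm * H2) * Z3 = lc * Z3 + lu * (H1 * Z3) + lm * (H2 * Z3)
    simp only [add_mul, mul_assoc]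
  · show H1 = lc * H1 + lu * H2 + lm * 1
    rw [mul_one]; exact H1_eq
  · show H2 = lc * H2 + lu * 1 + lm * H1
    rw [mul_one]; exact H2_eq
  · show Z3 = lc * 1 + lu * H1 + lm * H2
    rw [mul_one]; rfl
  · show H1 * Z3 = lc * (H1 * Z3) + lu * (H2 * Z3) + lm * Z3
    conv_lhs => rw [H1_eq]
    simp only [add_mul, mul_assoc]
  · show H2 * Z3 = lc * (H2 * Z3) + lu * Z3 + lm * (H1 * Z3)
    conv_lhs => rw [H2_eq]
    simp only [add_mul, mul_assoc]

theorem hZ3 : HasHeight 0 Z3 := ((hlc 0).add ((hlu 0).mul hH1)).add ((hlm 0).mul hH2)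

theorem d3_allH : AllH d3step := by
  refine AllH.of_stab d3step (by decide) S6.a0 ?_ ?_ ?_
  · intro q
    cases q
    · exact ⟨[], rfl⟩
    · exact ⟨[L3.c, L3.u], rfl⟩
    · exact ⟨[L3.c, L3.m], rfl⟩
    · exact ⟨[L3.c], rfl⟩
    · exact ⟨[L3.u], rfl⟩
    · exact ⟨[L3.m], rfl⟩
  · intro q
    cases q
    · exact ⟨[], rfl⟩
    · exact ⟨[L3.m], rfl⟩
    · exact ⟨[L3.u], rfl⟩
    · exact ⟨[L3.c], rfl⟩
    · exact ⟨[L3.m, L3.c], rfl⟩
    · exact ⟨[L3.u, L3.c], rfl⟩
  · rw [d3_stab]
    exact (hZ3.mul hZ3).star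

/-! ### Second automaton: levels, with the parity of the letters `u`, `m` read at level zero -/

/-- the letters `u`, `m` read at level zero flip the bit; `c` does nothing -/
def d2step : S6 → L3 → S6
  | S6.a0, L3.c => S6.a0
  | S6.a0, L3.u => S6.b1
  | S6.a0, L3.m => S6.b2
  | S6.a1, L3.c => S6.a1
  | S6.a1, L3.u => S6.a2
  | S6.a1, L3.m => S6.a0
  | S6.a2, L3.c => S6.a2
  | S6.a2, L3.u => S6.a0
  | S6.a2, L3.m => S6.a1
  | S6.b0, L3.c => S6.b0
  | S6.b0, L3.u => S6.a1
  | S6.b0, L3.m => S6.a2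
  | S6.b1, L3.c => S6.b1
  | S6.b1, L3.u => S6.b2
  | S6.b1, L3.m => S6.b0
  | S6.b2, L3.c => S6.b2
  | S6.b2, L3.u => S6.b0
  | S6.b2, L3.m => S6.b1

/-- some letters `c`, then one excursion away from level zero -/
def Zc : Language L3 := Cs * (lu * H1 + lm * H2)

/-- the solution of the return system of the second automaton -/
def d2S : S6 → Language L3
  | S6.a0 => lc + lu * (H1 * Zc) + lm * (H2 * Zc)
  | S6.a1 => H1
  | S6.a2 => H2
  | S6.b0 => Zc
  | S6.b1 => H1 * Zc
  | S6.b2 => H2 * Zc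

theorem d2_stab :
    pathLang d2step S6.a0 S6.a0 = KStar.kstar (lc + lu * (H1 * Zc) + lm * (H2 * Zc)) := by
  refine stab3 d2step S6.a0 d2S ?_
  intro q
  cases q
  · show lc + lu * (H1 * Zc) + lm * (H2 * Zc) = lc * 1 + lu * (H1 * Zc) + lm * (H2 * Zc)
    rw [mul_one]
  · show H1 = lc * H1 + lu * H2 + lm * 1
    rw [mul_one]; exact H1_eq
  · show H2 = lc * H2 + lu * 1 + lm * H1
    rw [mul_one]; exact H2_eq
  · show Zc = lc * Zc + lu * H1 + lm * H2
    conv_lhs => rw [Zc, Cs_mul]
    rw [← Zc]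
    abel
  · show H1 * Zc = lc * (H1 * Zc) + lu * (H2 * Zc) + lm * Zc
    conv_lhs => rw [H1_eq]
    simp only [add_mul, mul_assoc]
  · show H2 * Zc = lc * (H2 * Zc) + lu * Zc + lm * (H1 * Zc)
    conv_lhs => rw [H2_eq]
    simp only [add_mul, mul_assoc]

theorem hZc : HasHeight 0 Zc := (hCs 0).mul (((hlu 0).mul hH1).add ((hlm 0).mul hH2))

theorem d2_allH : AllH d2step := by
  refine AllH.of_stab d2step (by decide) S6.a0 ?_ ?_ ?_
  · intro q
    cases q
    · exact ⟨[], rfl⟩
    · exact ⟨[L3.u, L3.m, L3.u], rfl⟩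
    · exact ⟨[L3.u, L3.m, L3.m], rfl⟩
    · exact ⟨[L3.u, L3.m], rfl⟩
    · exact ⟨[L3.u], rfl⟩
    · exact ⟨[L3.m], rfl⟩
  · intro q
    cases q
    · exact ⟨[], rfl⟩
    · exact ⟨[L3.m], rfl⟩
    · exact ⟨[L3.u], rfl⟩
    · exact ⟨[L3.u, L3.m], rfl⟩
    · exact ⟨[L3.m, L3.u, L3.m], rfl⟩
    · exact ⟨[L3.u, L3.u, L3.m], rfl⟩
  · rw [d2_stab]
    exact (((hlc 0).add ((hlu 0).mul (hH1.mul hZc))).add ((hlm 0).mul (hH2.mul hZc))).star

/-! ### Third automaton: three 3-cycles acting on four points -/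

/-- four points -/
inductive S4 : Type
  | s1 | s2 | s3 | s4
  deriving DecidableEq

instance : Fintype S4 :=
  ⟨⟨[S4.s1, S4.s2, S4.s3, S4.s4], by decide⟩, fun x => by cases x <;> decide⟩

/-- `c` acts as the cycle `(2 4 3)`, `u` as `(1 2 3)` and `m` as `(1 3 2)` -/
def b4step : S4 → L3 → S4
  | S4.s1, L3.c => S4.s1
  | S4.s1, L3.u => S4.s2
  | S4.s1, L3.m => S4.s3
  | S4.s2, L3.c => S4.s4
  | S4.s2, L3.u => S4.s3
  | S4.s2, L3.m => S4.s1
  | S4.s3, L3.c => S4.s2
  | S4.s3, L3.u => S4.s1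
  | S4.s3, L3.m => S4.s2
  | S4.s4, L3.c => S4.s3
  | S4.s4, L3.u => S4.s4
  | S4.s4, L3.m => S4.s4

/-- from point three back to point two -/
def R3 : Language L3 := KStar.kstar (lu * Cs * lm) * (lc + lm + lu * Cs * lu)
/-- from point one back to point two -/
def R1 : Language L3 := Cs * (lu + lm * R3)
/-- from point four back to point two -/
def R4 : Language L3 := UM * (lc * R3)

theorem R1_eq : R1 = lc * R1 + lu + lm * R3 := by
  conv_lhs => rw [R1, Cs_mul]
  rw [← R1]
  abel

theorem R3_eq : R3 = lc + lu * R1 + lm := by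
  conv_lhs => rw [R3, kstar_mul_unfold]
  rw [← R3, R1]
  simp only [mul_add, mul_assoc]
  abel

theorem R4_eq : R4 = lc * R3 + lu * R4 + lm * R4 := by
  conv_lhs => rw [R4, UM_mul]
  rw [← R4, add_mul]
  abel

/-- the solution of the return system of the third automaton -/
def b4S : S4 → Language L3
  | S4.s1 => R1
  | S4.s2 => lc * R4 + lu * R3 + lm * R1
  | S4.s3 => R3
  | S4.s4 => R4

theorem b4_stab : pathLang b4step S4.s2 S4.s2 = KStar.kstar (lc * R4 + lu * R3 + lm * R1) := by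
  refine stab3 b4step S4.s2 b4S ?_
  intro q
  cases q
  · show R1 = lc * R1 + lu * 1 + lm * R3
    rw [mul_one]; exact R1_eq
  · show lc * R4 + lu * R3 + lm * R1 = lc * R4 + lu * R3 + lm * R1
    rfl
  · show R3 = lc * 1 + lu * R1 + lm * 1
    rw [mul_one, mul_one]; exact R3_eq
  · show R4 = lc * R3 + lu * R4 + lm * R4
    exact R4_eq

theorem hR3 : HasHeight 0 R3 := by
  have hY : HasHeight 0 (lu * Cs) := (hlu 0).mul (hCs 0)
  have hb : ∀ y ∈ lu * Cs, L3.m ∉ y := by
    intro y hy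
    obtain ⟨s, hs, z, hz, rfl⟩ := Language.mem_mul.mp hy
    have hs' : s = [L3.u] := hs
    subst hs'
    intro hm
    simp only [List.mem_append, List.mem_singleton, reduceCtorEq, false_or] at hm
    exact free_m_Cs hz hm
  exact (hasHeight_marker_star L3.m (lu * Cs) hY hb).mul
    (((hlc 0).add (hlm 0)).add (((hlu 0).mul (hCs 0)).mul (hlu 0)))

theorem hR1 : HasHeight 0 R1 := (hCs 0).mul ((hlu 0).add ((hlm 0).mul hR3))

theorem hR4 : HasHeight 0 R4 := (hUM 0).mul ((hlc 0).mul hR3)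

theorem b4_allH : AllH b4step := by
  refine AllH.of_stab b4step (by decide) S4.s2 ?_ ?_ ?_
  · intro q
    cases q
    · exact ⟨[L3.m], rfl⟩
    · exact ⟨[], rfl⟩
    · exact ⟨[L3.u], rfl⟩
    · exact ⟨[L3.c], rfl⟩
  · intro q
    cases q
    · exact ⟨[L3.u], rfl⟩
    · exact ⟨[], rfl⟩
    · exact ⟨[L3.c], rfl⟩
    · exact ⟨[L3.c, L3.c], rfl⟩
  · rw [b4_stab]
    exact ((((hlc 0).mul hR4).add ((hlu 0).mul hR3)).add ((hlm 0).mul hR1)).star

end Vale.Agent.Lib.P329
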