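import Vale.Agent.Lib.P329.Modular

/-!
# Star-free conditions on the run of an automaton whose languages have star height at most one

If all the languages of words leading from one state to another of a finite automaton have
star height at most one, then so has the language of the words whose run (the word labelled,
letter by letter, by the states in which the letters are read) belongs to a given star-free
language.
-/

namespace Vale.Agent.Lib.P329

open Computability

section Cascade

variable {Q α : Type}

/-- the run of a word: each letter is paired with the state in which it is read -/
def dec (step : Q → α → Q) : Q → List α → List (Q × α)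
  | _, [] => []
  | q, a :: w => (q, a) :: dec step (step q a) w

theorem dec_append (step : Q → α → Q) : ∀ (x y : List α) (q : Q),
    dec step q (x ++ y) = dec step q x ++ dec step (run step q x) y := by
  intro x
  induction x with
  | nil => intro y q; rfl
  | cons a x ih =>
    intro y q
    show (q, a) :: dec step (step q a) (x ++ y) = (q, a) :: dec step (step q a) x ++ _
    rw [ih]
    rfl

theorem length_dec (step : Q → α → Q) : ∀ (w : List α) (q : Q), (dec step q w).length = w.length := by
  intro w
  induction w with
  | nil => intro q; rfl
  | cons a w ih =>
    intro q
    show (dec step (step q a) w).length + 1 = w.length + 1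
    rw [ih]

theorem dec_eq_inits (step : Q → α → Q) : ∀ (w : List α) (q : Q),
    dec step q w = (w.inits.zip w).map (fun p => (run step q p.1, p.2)) := by
  intro w
  induction w with
  | nil => intro q; rfl
  | cons a w ih =>
    intro q
    rw [List.inits_cons, List.zip_cons_cons, List.map_cons, List.zip_map_left, List.map_map]
    show (q, a) :: dec step (step q a) w = _
    rw [ih (step q a)]
    rfl

theorem dec_eq_nil (step : Q → α → Q) (w : List α) (q : Q) : dec step q w = [] ↔ w = [] := by
  cases w with
  | nil => simp [dec]
  | cons a w => simp [dec]

theorem dec_eq_singleton (step : Q → α → Q) (w : List α) (q q' : Q) (a : α) :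
    dec step q w = [(q', a)] ↔ q = q' ∧ w = [a] := by
  cases w with
  | nil => simp [dec]
  | cons b w =>
    cases w with
    | nil =>
      simp only [dec, List.cons.injEq, Prod.mk.injEq, and_true]
    | cons c w => simp [dec]

/-- star-free conditions on the run of an automaton all of whose languages have star height
at most one -/
theorem hasHeight_dec_expr [Fintype Q] (step : Q → α → Q) (h : AllH step) (E : GRE (Q × α)) :
    E.height = 0 → ∀ q, HasHeight 1 (langOf fun w => dec step q w ∈ E.lang) := by
  classical
  induction E with
  | zero =>
    intro _ q
    exact HasHeight.zero.congr (by intro w; simp [GRE.lang])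
  | one =>
    intro _ q
    refine HasHeight.one.congr ?_
    intro w
    rw [mem_langOf]
    show dec step q w ∈ (1 : Language (Q × α)) ↔ w ∈ (1 : Language α)
    rw [Language.mem_one, Language.mem_one, dec_eq_nil]
  | letter x =>
    intro _ q
    obtain ⟨q', a⟩ := x
    by_cases hq : q = q'
    · refine (HasHeight.letter a).congr ?_
      intro w
      rw [mem_langOf]
      show dec step q w = [(q', a)] ↔ w = [a]
      rw [dec_eq_singleton]
      simp [hq]
    · refine HasHeight.zero.congr ?_
      intro w
      rw [mem_langOf]
      show dec step q w = [(q', a)] ↔ w ∈ (0 : Language α)
      rw [dec_eq_singleton]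
      simp [hq]
  | union p r ihp ihr =>
    intro hE q
    have hE' : max p.height r.height = 0 := hE
    have hp : p.height = 0 := by omega
    have hr : r.height = 0 := by omega
    refine ((ihp hp q).add (ihr hr q)).congr ?_
    intro w
    rw [mem_langOf, Language.mem_add]
    show dec step q w ∈ p.lang + r.lang ↔ _
    rw [Language.mem_add]
    rfl
  | concat p r ihp ihr =>
    intro hE q
    have hE' : max p.height r.height = 0 := hE
    have hp : p.height = 0 := by omega
    have hr : r.height = 0 := by omega
    refine (HasHeight.iUnion (fun q' : Q =>
      ((langOf fun w => dec step q w ∈ p.lang) ⊓ pathLang step q q')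
        * (langOf fun w => dec step q' w ∈ r.lang))
      (fun q' => ((ihp hp q).inf (h q q')).mul (ihr hr q'))).congr ?_
    intro w
    rw [mem_langOf, mem_langOf]
    show dec step q w ∈ p.lang * r.lang ↔ _
    constructor
    · intro hw
      obtain ⟨u, hu, v, hv, huv⟩ := Language.mem_mul.mp hw
      have hlen : u.length ≤ w.length := by
        have := congrArg List.length huv
        rw [List.length_append, length_dec] at this
        omega
      have hsplit : dec step q w = dec step q (w.take u.length)
          ++ dec step (run step q (w.take u.length)) (w.drop u.length) := by
        rw [← dec_append, List.take_append_drop]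
      have hl : (dec step q (w.take u.length)).length = u.length := by
        rw [length_dec, List.length_take]
        omega
      have hinj := List.append_inj (hsplit.symm.trans huv.symm) hl
      refine ⟨run step q (w.take u.length), ?_⟩
      refine Language.mem_mul.mpr ⟨w.take u.length, ⟨?_, rfl⟩, w.drop u.length, ?_,
        List.take_append_drop _ _⟩
      · show dec step q (w.take u.length) ∈ p.lang
        rw [hinj.1]; exact hu
      · show dec step (run step q (w.take u.length)) (w.drop u.length) ∈ r.lang
        rw [hinj.2]; exact hv
    · rintro ⟨q', hw⟩
      obtain ⟨x, ⟨hx1, hx2⟩, y, hy, rfl⟩ := Language.mem_mul.mp hw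
      rw [dec_append]
      have hx2' : run step q x = q' := hx2
      rw [hx2']
      exact Language.mem_mul.mpr ⟨_, hx1, _, hy, rfl⟩
  | compl p ihp =>
    intro hE q
    have hp : p.height = 0 := hE
    exact (ihp hp q).compl.congr (by intro w; rfl)
  | star p _ =>
    intro hE q
    have : p.height + 1 = 0 := hE
    omega

end Cascade

end Vale.Agent.Lib.P329
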