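import Vale.Agent.Lib.P329.Autos

/-!
# Parity of the number of occurrences of a letter at a given level: the two basic cases
-/

namespace Vale.Agent.Lib.P329

open Computability

/-- the state of the six-state automata with a given level and bit -/
def mk6 (l : ZMod 3) (e : Bool) : S6 :=
  if l = 0 then (if e then S6.b0 else S6.a0)
  else if l = 1 then (if e then S6.b1 else S6.a1)
  else (if e then S6.b2 else S6.a2)

/-! ### Case A: the counted letter `c` keeps the level -/

/-- level and the two bits of the first two automata -/
def faStep : ZMod 3 × Bool × Bool → L3 → ZMod 3 × Bool × Bool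
  | (l, e3, e2), L3.c => (l, xor e3 (decide (l = 0)), e2)
  | (l, e3, e2), L3.u => (l + 1, xor e3 (decide (l = 0)), xor e2 (decide (l = 0)))
  | (l, e3, e2), L3.m => (l + 2, xor e3 (decide (l = 0)), xor e2 (decide (l = 0)))

theorem fa_allH : AllH faStep := by
  refine AllH.two faStep d3step d2step (fun q => mk6 q.1 q.2.1) (fun q => mk6 q.1 q.2.2)
    ?_ ?_ ?_ d3_allH d2_allH
  · decide
  · decide
  · decide

/-- level, and parity of the number of letters `c` read at level `j`; here `c` keeps the level,
`u` raises it and `m` lowers it -/
def paStep (j : ZMod 3) : ZMod 3 × Bool → L3 → ZMod 3 × Bool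
  | (l, e), L3.c => (l, xor e (decide (l = j)))
  | (l, e), L3.u => (l + 1, e)
  | (l, e), L3.m => (l + 2, e)

theorem pa_allH (j : ZMod 3) : AllH (paStep j) := by
  refine AllH.comap (paStep j) faStep (fun x => some x)
    (fun q => (q.1 + j, xor q.2.1 q.2.2)) ?_ ?_ fa_allH
  · revert j; decide
  · revert j; decide

/-! ### Case B: the counted letter `c` raises the level -/

/-- the level automaton in which `c` and `u` raise the level and `m` lowers it -/
def levBstep : ZMod 3 → L3 → ZMod 3
  | l, L3.c => l + 1
  | l, L3.u => l + 1
  | l, L3.m => l + 2

theorem levB_allH : AllH levBstep := by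
  refine AllH.comap levBstep d3step
    (fun x => some (match x with | L3.c => L3.u | L3.u => L3.u | L3.m => L3.m))
    (fun q => match q with
      | S6.a0 => 0 | S6.b0 => 0 | S6.a1 => 1 | S6.b1 => 1 | S6.a2 => 2 | S6.b2 => 2)
    ?_ ?_ d3_allH
  · decide
  · decide

/-- the parity of the number of letters `c` -/
def parCstep : Bool → L3 → Bool
  | e, L3.c => !e
  | e, L3.u => e
  | e, L3.m => e

theorem parC_allH : AllH parCstep := by
  refine AllH.comap parCstep d3step
    (fun x => match x with | L3.c => some L3.u | L3.u => none | L3.m => none)
    (fun q => match q with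
      | S6.a0 => false | S6.b1 => true | S6.b2 => false | S6.b0 => true | S6.a1 => false
      | S6.a2 => true)
    ?_ ?_ d3_allH
  · decide
  · decide

/-- level together with the parity of the number of letters `c` -/
def lcStep : ZMod 3 × Bool → L3 → ZMod 3 × Bool := fun q x => (levBstep q.1 x, parCstep q.2 x)

theorem lc_allH : AllH lcStep := by
  refine AllH.two lcStep levBstep parCstep (fun q => q.1) (fun q => q.2) ?_ ?_ ?_
    levB_allH parC_allH
  · intro q a; rfl
  · intro q a; rfl
  · intro q q' h1 h2; exact Prod.ext h1 h2

/-- level, and the parities of the numbers of letters `c` read at levels `0`, `1`, `2` -/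
def fbStep : ZMod 3 × Bool × Bool × Bool → L3 → ZMod 3 × Bool × Bool × Bool
  | (l, n0, n1, n2), L3.c =>
    (l + 1, xor n0 (decide (l = 0)), xor n1 (decide (l = 1)), xor n2 (decide (l = 2)))
  | (l, n0, n1, n2), L3.u => (l + 1, n0, n1, n2)
  | (l, n0, n1, n2), L3.m => (l + 2, n0, n1, n2)

/-- the image of the point `2` under the permutation determined by a state of `fbStep` -/
def gB : ZMod 3 × Bool × Bool × Bool → S4
  | (l, n0, n1, n2) =>
    if l = 0 then
      (match n0, n1, n2 with
        | false, false, false => S4.s2
        | false, false, true => S4.s1
        | false, true, false => S4.s3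
        | false, true, true => S4.s4
        | true, false, false => S4.s4
        | true, false, true => S4.s3
        | true, true, false => S4.s1
        | true, true, true => S4.s2)
    else if l = 1 then
      (match n0, n1, n2 with
        | false, false, false => S4.s3
        | false, false, true => S4.s2
        | false, true, false => S4.s1
        | false, true, true => S4.s4
        | true, false, false => S4.s4
        | true, false, true => S4.s1
        | true, true, false => S4.s2
        | true, true, true => S4.s3)
    else
      (match n0, n1, n2 with
        | false, false, false => S4.s1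
        | false, false, true => S4.s3
        | false, true, false => S4.s2
        | false, true, true => S4.s4
        | true, false, false => S4.s4
        | true, false, true => S4.s2
        | true, true, false => S4.s3
        | true, true, true => S4.s1)

theorem fb_allH : AllH fbStep := by
  refine AllH.two fbStep b4step lcStep gB (fun q => (q.1, xor q.2.1 (xor q.2.2.1 q.2.2.2)))
    ?_ ?_ ?_ b4_allH lc_allH
  · decide
  · decide
  · decide

/-- level, and parity of the number of letters `c` read at level `j`; here `c` and `u` raise
the level and `m` lowers it -/
def pbStep (j : ZMod 3) : ZMod 3 × Bool → L3 → ZMod 3 × Bool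
  | (l, e), L3.c => (l + 1, xor e (decide (l = j)))
  | (l, e), L3.u => (l + 1, e)
  | (l, e), L3.m => (l + 2, e)

theorem pb_allH (j : ZMod 3) : AllH (pbStep j) := by
  refine AllH.comap (pbStep j) fbStep (fun x => some x)
    (fun q => (q.1, if j = 0 then q.2.1 else if j = 1 then q.2.2.1 else q.2.2.2)) ?_ ?_ fb_allH
  · revert j; decide
  · revert j; decide

end Vale.Agent.Lib.P329
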