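import Vale.Agent.Lib.P329.Subword

/-!
# Groups in which all commutators of weight four are trivial

In such a group the product of a word is determined by the numbers of occurrences, modulo the
order of the group, of the words of length at most three as scattered subwords.  The letters
are removed one at a time: for a letter `z`, the product of a word is the product of an element
of the commutator subgroup, a power of the image of `z` and the product of the word in which
`z` is sent to one.
-/

namespace Vale.Agent.Lib.P329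

open scoped commutatorElement

section GroupLemmas

variable {G : Type} [Group G]

theorem comm_mul_left (x y c : G) : ⁅x * y, c⁆ = ⁅x, ⁅y, c⁆⁆ * ⁅y, c⁆ * ⁅x, c⁆ := by
  simp only [commutatorElement_def]
  group

theorem comm_mul_right (g x y : G) : ⁅g, x * y⁆ = ⁅g, x⁆ * (x * ⁅g, y⁆ * x⁻¹) := by
  simp only [commutatorElement_def]
  group

theorem bracket_mem (a b : G) : ⁅a, b⁆ ∈ commutator G := by
  rw [commutator_def]
  exact Subgroup.commutator_mem_commutator (Subgroup.mem_top a) (Subgroup.mem_top b)

theorem comm_central_right (g z : G) (hz : z ∈ Subgroup.center G) : ⁅g, z⁆ = 1 := by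
  rw [commutatorElement_eq_one_iff_mul_comm]
  exact Subgroup.mem_center_iff.mp hz g

theorem comm_central_left (z g : G) (hz : z ∈ Subgroup.center G) : ⁅z, g⁆ = 1 := by
  rw [commutatorElement_eq_one_iff_mul_comm]
  exact (Subgroup.mem_center_iff.mp hz g).symm

/-- the bracket with a fixed right entry is multiplicative when its values are central -/
theorem comm_mul_left_of_central (x y c : G) (hc : ⁅y, c⁆ ∈ Subgroup.center G) :
    ⁅x * y, c⁆ = ⁅x, c⁆ * ⁅y, c⁆ := by
  rw [comm_mul_left, comm_central_right x _ hc, one_mul]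
  exact (Subgroup.mem_center_iff.mp hc _).symm

/-- the bracket with a fixed left entry is multiplicative when its values are central -/
theorem comm_mul_right_of_central (g x y : G) (hc : ⁅g, y⁆ ∈ Subgroup.center G) :
    ⁅g, x * y⁆ = ⁅g, x⁆ * ⁅g, y⁆ := by
  rw [comm_mul_right]
  congr 1
  rw [Subgroup.mem_center_iff.mp hc x, mul_inv_cancel_right]

variable (h3 : ∀ a b c d : G, ⁅⁅⁅a, b⁆, c⁆, d⁆ = 1)
include h3

theorem triple_central (a b c : G) : ⁅⁅a, b⁆, c⁆ ∈ Subgroup.center G := by
  rw [Subgroup.mem_center_iff]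
  intro d
  exact (commutatorElement_eq_one_iff_mul_comm.mp (h3 a b c d)).symm

theorem triple_central' (a b c : G) : ⁅c, ⁅a, b⁆⁆ ∈ Subgroup.center G := by
  rw [← commutatorElement_inv]
  exact inv_mem (triple_central h3 a b c)

theorem comm_pow_left (g p q : G) (k : ℕ) : ⁅g ^ k, ⁅p, q⁆⁆ = ⁅g, ⁅p, q⁆⁆ ^ k := by
  induction k with
  | zero => simp
  | succ k ih =>
    rw [pow_succ, comm_mul_left_of_central _ _ _ (triple_central' h3 p q g), ih, pow_succ]

/-- two commutators commute -/
theorem comm_comm (a b c d : G) : ⁅a, b⁆ * ⁅c, d⁆ = ⁅c, d⁆ * ⁅a, b⁆ := by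
  have hcen : ∀ y : G, ⁅y, ⁅a, b⁆⁆ ∈ Subgroup.center G := fun y => triple_central' h3 a b y
  have hinv : ∀ y : G, ⁅y⁻¹, ⁅a, b⁆⁆ = ⁅y, ⁅a, b⁆⁆⁻¹ := by
    intro y
    have h1 := comm_mul_left_of_central y y⁻¹ ⁅a, b⁆ (hcen y⁻¹)
    rw [mul_inv_cancel, commutatorElement_one_left] at h1
    exact eq_inv_of_mul_eq_one_right h1.symm
  have h1 : ⁅⁅c, d⁆, ⁅a, b⁆⁆ = 1 := by
    have e : ⁅c, d⁆ = c * d * c⁻¹ * d⁻¹ := commutatorElement_def c d
    rw [e, comm_mul_left_of_central _ _ _ (hcen _), comm_mul_left_of_central _ _ _ (hcen _),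
      comm_mul_left_of_central _ _ _ (hcen _), hinv, hinv]
    have hc := Subgroup.mem_center_iff.mp (hcen d) ⁅c, ⁅a, b⁆⁆
    calc ⁅c, ⁅a, b⁆⁆ * ⁅d, ⁅a, b⁆⁆ * ⁅c, ⁅a, b⁆⁆⁻¹ * ⁅d, ⁅a, b⁆⁆⁻¹
        = ⁅d, ⁅a, b⁆⁆ * ⁅c, ⁅a, b⁆⁆ * ⁅c, ⁅a, b⁆⁆⁻¹ * ⁅d, ⁅a, b⁆⁆⁻¹ := by rw [hc]
      _ = 1 := by group
  exact (commutatorElement_eq_one_iff_mul_comm.mp h1).symm

/-- the commutator subgroup is commutative -/
theorem commutator_comm (x y : G) (hx : x ∈ commutator G) (hy : y ∈ commutator G) :
    x * y = y * x := by
  have h1 : commutatorSet G ⊆ (Subgroup.centralizer (commutatorSet G) : Subgroup G) := by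
    rintro s ⟨a, b, rfl⟩
    rw [SetLike.mem_coe, Subgroup.mem_centralizer_iff]
    rintro t ⟨c, d, rfl⟩
    exact comm_comm h3 c d a b
  have h2 : commutator G ≤ Subgroup.centralizer (commutatorSet G) := by
    rw [commutator_eq_closure]
    exact (Subgroup.closure_le _).mpr h1
  have h3' : commutatorSet G ⊆ (Subgroup.centralizer (commutator G : Set G) : Subgroup G) := by
    intro s hs
    rw [SetLike.mem_coe, Subgroup.mem_centralizer_iff]
    intro t ht
    exact (Subgroup.mem_centralizer_iff.mp (h2 ht) s hs).symm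
  have h4 : commutator G ≤ Subgroup.centralizer (commutator G : Set G) := by
    conv_lhs => rw [commutator_eq_closure]
    exact (Subgroup.closure_le _).mpr h3'
  exact (Subgroup.mem_centralizer_iff.mp (h4 hy) x hx)

end GroupLemmas

section Shuffle

variable {α : Type} [DecidableEq α]

theorem sc_one_nil (a : α) : sc [a] ([] : List α) = 0 := sc_empty [] a

theorem sc_two_nil (a d : α) : sc [a, d] ([] : List α) = 0 := sc_empty [a] d

theorem sc_three_nil (a b c : α) : sc [a, b, c] ([] : List α) = 0 := sc_empty [a, b] c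

/-- the occurrences of two different letters in either order -/
theorem sc_shuffle (z d : α) (h : z ≠ d) (w : List α) :
    sc [z, d] w + sc [d, z] w = w.count z * w.count d := by
  induction w using List.reverseRecOn with
  | nil => simp [sc_two_nil]
  | append_singleton w x ih =>
    rw [sc2_snoc, sc2_snoc, sc_one, sc_one, count_snoc', count_snoc']
    by_cases hxd : d = x
    · have hzx : ¬ z = x := fun e => h (e.trans hxd.symm)
      rw [if_pos hxd, if_neg hzx, if_neg hzx, if_pos hxd]
      rw [add_zero, add_zero, mul_add, mul_one, ← ih]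
      omega
    · by_cases hzx : z = x
      · rw [if_neg hxd, if_pos hzx, if_pos hzx, if_neg hxd]
        rw [add_zero, add_zero, add_mul, one_mul, ← ih]
        omega
      · rw [if_neg hxd, if_neg hzx, if_neg hzx, if_neg hxd]
        rw [add_zero, add_zero, add_zero, add_zero, ih]

variable [Fintype α] {A : Type} [CommMonoid A]

theorem prod_pow_ite_eq (f : α → A) (a : α) (e : ℕ) :
    ∏ b, f b ^ (if b = a then e else 0) = f a ^ e := by
  rw [Finset.prod_eq_single a]
  · rw [if_pos rfl]
  · intro b _ hb
    rw [if_neg hb, pow_zero]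
  · intro h
    exact absurd (Finset.mem_univ a) h

theorem prod_pow_add_ite (f : α → A) (m : α → ℕ) (a : α) (e : ℕ) :
    ∏ b, f b ^ (m b + if b = a then e else 0) = (∏ b, f b ^ m b) * f a ^ e := by
  simp only [pow_add, Finset.prod_mul_distrib, prod_pow_ite_eq]

theorem pow_eq_of_modEq' {M : Type} [Monoid M] (n : ℕ) (a : M) (ha : a ^ n = 1) (m m' : ℕ)
    (h : m ≡ m' [MOD n]) : a ^ m = a ^ m' := by
  rw [pow_eq_pow_mod m ha, pow_eq_pow_mod m' ha]
  exact congrArg _ h

end Shuffle

section Elim

variable {α : Type} [Fintype α] [DecidableEq α] {G : Type} [Group G]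
  (h3 : ∀ a b c d : G, ⁅⁅⁅a, b⁆, c⁆, d⁆ = 1)
  {A : Type} [CommGroup A] (ι : A →* G) (k : α → G) (g : G)
  (cOne : α → A) (cTwo : α → α → A) (cThree : α → A)
  (h1 : ∀ d, ι (cOne d) = ⁅k d, g⁆)
  (h2 : ∀ a d, ι (cTwo a d) = ⁅k a, ⁅k d, g⁆⁆)
  (h4 : ∀ d, ι (cThree d) = ⁅g, ⁅k d, g⁆⁆)

include h3 h2 in
theorem elim_two (d : α) (w : List α) :
    ⁅(w.map k).prod, ⁅k d, g⁆⁆ = ι (∏ a, cTwo a d ^ w.count a) := by
  induction w using List.reverseRecOn with
  | nil => simp
  | append_singleton w a ih =>
    rw [List.map_append, List.prod_append, List.map_singleton, List.prod_singleton,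
      comm_mul_left_of_central _ _ _ (triple_central' h3 _ _ _), ih, ← h2, ← map_mul]
    congr 1
    simp only [count_snoc', prod_pow_add_ite, pow_one]

include h3 h4 in
theorem elim_three (w : List α) :
    ⁅g, ⁅(w.map k).prod, g⁆⁆ = ι (∏ d, cThree d ^ w.count d) := by
  induction w using List.reverseRecOn with
  | nil => simp
  | append_singleton w a ih =>
    rw [List.map_append, List.prod_append, List.map_singleton, List.prod_singleton,
      comm_mul_left,
      comm_mul_right_of_central _ _ _ (triple_central' h3 _ _ _),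
      comm_mul_right_of_central _ _ _ (triple_central' h3 _ _ _),
      comm_central_right g _ (triple_central' h3 _ _ _), one_mul, ih, ← h4, ← map_mul]
    congr 1
    simp only [count_snoc', prod_pow_add_ite, pow_one]
    rw [mul_comm]

include h3 h1 h2 in
theorem elim_one (w : List α) :
    ⁅(w.map k).prod, g⁆
      = ι ((∏ d, cOne d ^ w.count d) * ∏ a, ∏ d, cTwo a d ^ sc [a, d] w) := by
  induction w using List.reverseRecOn with
  | nil => simp [sc_two_nil]
  | append_singleton w d0 ih =>
    rw [List.map_append, List.prod_append, List.map_singleton, List.prod_singleton,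
      comm_mul_left, elim_two h3 ι k g cTwo h2, ih, ← h1, ← map_mul, ← map_mul]
    congr 1
    simp only [count_snoc', sc2_snoc, sc_one, prod_pow_add_ite, pow_one,
      Finset.prod_mul_distrib]
    generalize (∏ a, cTwo a d0 ^ w.count a) = X1
    generalize (∏ d, cOne d ^ w.count d) = X2
    generalize (∏ a, ∏ d, cTwo a d ^ sc [a, d] w) = X3
    generalize cOne d0 = X4
    ac_rfl

/-- the element of the commutator subgroup collected while the letter `z` is removed -/
def elimX (z : α) (w : List α) : A :=
  (∏ d, cOne d ^ sc [d, z] w) * (∏ a, ∏ d, cTwo a d ^ sc [a, d, z] w)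
    * ∏ d, cThree d ^ (sc [z, d, z] w + sc [d, z, z] w)

omit [Fintype α] [DecidableEq α] in
theorem mul_comm_form (P g : G) : P * g = ⁅P, g⁆ * g * P := by
  simp only [commutatorElement_def]
  group

include h3 in
theorem pow_mul_comm_form (P q : G) (c : ℕ) :
    g ^ c * ⁅P, q⁆ = ⁅g, ⁅P, q⁆⁆ ^ c * ⁅P, q⁆ * g ^ c := by
  rw [← comm_pow_left h3]
  generalize ⁅P, q⁆ = C
  simp only [commutatorElement_def]
  group

theorem elimX_snoc_ne (z d0 : α) (hd : ¬ d0 = z) (w : List α) :
    elimX cOne cTwo cThree z (w ++ [d0]) = elimX cOne cTwo cThree z w := by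
  have hd' : ¬ z = d0 := fun e => hd e.symm
  simp only [elimX, sc2_snoc, sc3_snoc, if_neg hd', add_zero]

theorem elimX_snoc_self (z : α) (c3z : cThree z = 1) (w : List α) :
    elimX cOne cTwo cThree z (w ++ [z])
      = elimX cOne cTwo cThree z w * (∏ d, cThree d ^ w.count d) ^ w.count z
        * ((∏ d, cOne d ^ w.count d) * ∏ a, ∏ d, cTwo a d ^ sc [a, d] w) := by
  have e3 : ∀ d : α, cThree d ^ (sc [z, d, z] w + sc [z, d] w + (sc [d, z, z] w + sc [d, z] w))
      = cThree d ^ (sc [z, d, z] w + sc [d, z, z] w) * (cThree d ^ w.count d) ^ w.count z := by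
    intro d
    by_cases hdz : d = z
    · rw [hdz, c3z, one_pow, one_pow, one_pow, one_pow, one_mul]
    · have hs := sc_shuffle z d (fun e => hdz e.symm) w
      rw [← pow_mul, ← pow_add, mul_comm (w.count d), ← hs]
      congr 1
      omega
  have a1 : ∏ d, cOne d ^ (sc [d, z] w + w.count d)
      = (∏ d, cOne d ^ sc [d, z] w) * ∏ d, cOne d ^ w.count d := by
    simp only [pow_add, Finset.prod_mul_distrib]
  have a2 : ∏ a, ∏ d, cTwo a d ^ (sc [a, d, z] w + sc [a, d] w)
      = (∏ a, ∏ d, cTwo a d ^ sc [a, d, z] w) * ∏ a, ∏ d, cTwo a d ^ sc [a, d] w := by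
    simp only [pow_add, Finset.prod_mul_distrib]
  have a3 : ∏ d, cThree d ^ (sc [z, d, z] w + sc [z, d] w + (sc [d, z, z] w + sc [d, z] w))
      = (∏ d, cThree d ^ (sc [z, d, z] w + sc [d, z, z] w))
        * (∏ d, cThree d ^ w.count d) ^ w.count z := by
    rw [Finset.prod_congr rfl (fun d _ => e3 d), Finset.prod_mul_distrib, Finset.prod_pow]
  simp only [elimX, sc2_snoc, sc3_snoc, eq_self_iff_true, if_true, sc_one]
  rw [a1, a2, a3]
  generalize (∏ d, cOne d ^ sc [d, z] w) = X1
  generalize (∏ d, cOne d ^ w.count d) = X2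
  generalize (∏ a, ∏ d, cTwo a d ^ sc [a, d, z] w) = X3
  generalize (∏ a, ∏ d, cTwo a d ^ sc [a, d] w) = X4
  generalize (∏ d, cThree d ^ (sc [z, d, z] w + sc [d, z, z] w)) = X5
  generalize (∏ d, cThree d ^ w.count d) ^ w.count z = X6
  ac_rfl

include h3 h1 h2 h4 in
/-- removal of the letter `z` -/
theorem elim_main (z : α) (kz : k z = 1) (c3z : cThree z = 1) (w : List α) :
    (w.map (fun a => if a = z then g else k a)).prod
      = ι (elimX cOne cTwo cThree z w) * g ^ w.count z * (w.map k).prod := by
  induction w using List.reverseRecOn with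
  | nil => simp [elimX, sc_two_nil, sc_three_nil]
  | append_singleton w d0 ih =>
    rw [List.map_append, List.prod_append, List.map_singleton, List.prod_singleton, ih,
      List.map_append, List.prod_append, List.map_singleton, List.prod_singleton]
    by_cases hd : d0 = z
    · rw [hd, if_pos rfl, kz, mul_one, elimX_snoc_self cOne cTwo cThree z c3z, map_mul, map_mul,
        map_pow, ← elim_three h3 ι k g cThree h4, ← elim_one h3 ι k g cOne cTwo h1 h2,
        count_snoc', if_pos rfl]
      generalize (w.map k).prod = P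
      generalize ι (elimX cOne cTwo cThree z w) = X
      have e1 := mul_comm_form P g
      have e2 := pow_mul_comm_form h3 g P g (w.count z)
      calc X * g ^ w.count z * P * g = X * (g ^ w.count z * ⁅P, g⁆) * g * P := by
            rw [mul_assoc _ P g, e1]
            group
        _ = X * (⁅g, ⁅P, g⁆⁆ ^ w.count z * ⁅P, g⁆ * g ^ w.count z) * g * P := by rw [e2]
        _ = X * ⁅g, ⁅P, g⁆⁆ ^ w.count z * ⁅P, g⁆ * g ^ (w.count z + 1) * P := by
            rw [pow_succ]
            group
    · have hd' : ¬ z = d0 := fun e => hd e.symm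
      rw [if_neg hd, elimX_snoc_ne cOne cTwo cThree z d0 hd, count_snoc', if_neg hd', add_zero,
        mul_assoc]

theorem elimX_congr (z : α) (n : ℕ) (hA : ∀ a : A, a ^ n = 1) (w w' : List α)
    (hsc : ∀ u : List α, u.length ≤ 3 → sc u w ≡ sc u w' [MOD n]) :
    elimX cOne cTwo cThree z w = elimX cOne cTwo cThree z w' := by
  unfold elimX
  congr 1
  · congr 1
    · exact Finset.prod_congr rfl
        (fun d _ => pow_eq_of_modEq' n _ (hA _) _ _ (hsc [d, z] (by simp)))
    · exact Finset.prod_congr rfl (fun a _ => Finset.prod_congr rfl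
        (fun d _ => pow_eq_of_modEq' n _ (hA _) _ _ (hsc [a, d, z] (by simp))))
  · exact Finset.prod_congr rfl (fun d _ => pow_eq_of_modEq' n _ (hA _) _ _
      ((hsc [z, d, z] (by simp)).add (hsc [d, z, z] (by simp))))

end Elim

section Determination

variable {α : Type} [Fintype α] [DecidableEq α] {G : Type} [Group G]

/-- In a group in which the commutators of weight four are trivial, the product of a word is
determined by the numbers of occurrences of the words of length at most three as scattered
subwords, modulo any exponent of the group. -/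
theorem word_determined_class3 (h3 : ∀ a b c d : G, ⁅⁅⁅a, b⁆, c⁆, d⁆ = 1) (n : ℕ)
    (hn : ∀ x : G, x ^ n = 1) (T : Finset α) :
    ∀ h : α → G, (∀ a, a ∉ T → h a = 1) → ∀ w w' : List α,
      (∀ u : List α, u.length ≤ 3 → sc u w ≡ sc u w' [MOD n]) →
      (w.map h).prod = (w'.map h).prod := by
  induction T using Finset.induction_on with
  | empty =>
    intro h hh w w' _
    have e : ∀ v : List α, (v.map h).prod = 1 := by
      intro v
      apply List.prod_eq_one
      intro x hx
      obtain ⟨a, -, rfl⟩ := List.mem_map.mp hx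
      exact hh a (Finset.notMem_empty a)
    rw [e, e]
  | insert z T hz ih =>
    intro h hh w w' hsc
    let _ : CommGroup (commutator G) :=
      { (inferInstance : Group (commutator G)) with
        mul_comm := fun x y => Subtype.ext (commutator_comm h3 x y x.2 y.2) }
    have hk : ∀ a, a ∉ T → Function.update h z 1 a = 1 := by
      intro a ha
      by_cases haz : a = z
      · rw [haz]
        exact Function.update_self z 1 h
      · rw [Function.update_of_ne haz]
        apply hh
        intro hm
        rcases Finset.mem_insert.mp hm with e | e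
        · exact haz e
        · exact ha e
    have kz : Function.update h z 1 z = 1 := Function.update_self z 1 h
    have hfun : h = fun a => if a = z then h z else Function.update h z 1 a := by
      funext a
      by_cases haz : a = z
      · rw [if_pos haz, haz]
      · rw [if_neg haz]
        exact (Function.update_of_ne haz _ _).symm
    have key := elim_main h3 (commutator G).subtype (Function.update h z 1) (h z)
      (fun d => ⟨⁅Function.update h z 1 d, h z⁆, bracket_mem _ _⟩)
      (fun a d => ⟨⁅Function.update h z 1 a, ⁅Function.update h z 1 d, h z⁆⁆, bracket_mem _ _⟩)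
      (fun d => ⟨⁅h z, ⁅Function.update h z 1 d, h z⁆⁆, bracket_mem _ _⟩)
      (fun _ => rfl) (fun _ _ => rfl) (fun _ => rfl) z kz
      (Subtype.ext (by
        show ⁅h z, ⁅Function.update h z 1 z, h z⁆⁆ = 1
        rw [kz, commutatorElement_one_left, commutatorElement_one_right]))
    have hA : ∀ a : commutator G, a ^ n = 1 := fun a =>
      Subtype.ext ((Subgroup.coe_pow _ a n).trans (hn a.1))
    have hc : h z ^ w.count z = h z ^ w'.count z := by
      apply pow_eq_of_modEq' n _ (hn _)
      have := hsc [z] (by simp)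
      rwa [sc_one, sc_one] at this
    have e : ∀ v : List α, (v.map h).prod = _ :=
      fun v => (congrArg (fun f => (v.map f).prod) hfun).trans (key v)
    rw [e w, e w', elimX_congr _ _ _ z n hA w w' hsc, hc, ih _ hk w w' hsc]

end Determination

section Heights

open Computability

variable {α : Type} [Fintype α] [DecidableEq α]

/-- a language saturated by the numbers of occurrences, modulo `n`, of the words of length at
most three as scattered subwords has star height at most one -/
theorem hasHeight_of_sc_det (n : ℕ) [NeZero n] (L : Language α)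
    (hdet : ∀ w w' : List α, (∀ u : List α, u.length ≤ 3 → sc u w ≡ sc u w' [MOD n]) →
      w ∈ L → w' ∈ L) : HasHeight 1 L := by
  classical
  let O : List α → (α → ZMod n) × (α × α → ZMod n) × (α × α × α → ZMod n) := fun w =>
    (fun a => ((sc [a] w : ℕ) : ZMod n),
     fun p => ((sc [p.1, p.2] w : ℕ) : ZMod n),
     fun t => ((sc [t.1, t.2.1, t.2.2] w : ℕ) : ZMod n))
  refine HasHeight.of_obs O ?_ _ ?_
  · intro v
    refine ((HasHeight.iInter _ (fun a : α =>
        hasHeight_sc [a] (by simp) n (v.1 a))).inf
      ((HasHeight.iInter _ (fun p : α × α =>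
        hasHeight_sc [p.1, p.2] (by simp) n (v.2.1 p))).inf
      (HasHeight.iInter _ (fun t : α × α × α =>
        hasHeight_sc [t.1, t.2.1, t.2.2] (by simp) n (v.2.2 t))))).congr ?_
    intro w
    simp only [mem_langOf, Language.mem_inf]
    constructor
    · intro h
      rw [← h]
      exact ⟨fun a => rfl, fun p => rfl, fun t => rfl⟩
    · rintro ⟨e1, e2, e3⟩
      exact Prod.ext (funext e1) (Prod.ext (funext e2) (funext e3))
  · intro w w' hO hw
    refine hdet w w' ?_ hw
    intro u hu
    match u, hu with
    | [], _ => rw [sc_nil, sc_nil]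
    | [a], _ =>
      exact (ZMod.natCast_eq_natCast_iff _ _ _).mp (congrFun (congrArg Prod.fst hO) a)
    | [a, b], _ =>
      exact (ZMod.natCast_eq_natCast_iff _ _ _).mp
        (congrFun (congrArg (fun o => o.2.1) hO) (a, b))
    | [a, b, c], _ =>
      exact (ZMod.natCast_eq_natCast_iff _ _ _).mp
        (congrFun (congrArg (fun o => o.2.2) hO) (a, b, c))
    | _ :: _ :: _ :: _ :: _, hu =>
      simp only [List.length_cons] at hu
      omega

/-- Every language recognized by a finite group in which the commutators of weight four are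
trivial has star height at most one. -/
theorem hasHeight_group_class3 {G : Type} [Group G] [Finite G]
    (h3 : ∀ a b c d : G, ⁅⁅⁅a, b⁆, c⁆, d⁆ = 1) (f : α → G) (S : Set G) :
    HasHeight 1 (langOf fun w : List α => (w.map f).prod ∈ S) := by
  classical
  have : NeZero (Nat.card G) := ⟨Nat.card_pos.ne'⟩
  refine hasHeight_of_sc_det (Nat.card G) _ ?_
  intro w w' hsc hw
  have hw1 : (w.map f).prod ∈ S := hw
  show (w'.map f).prod ∈ S
  rw [← word_determined_class3 h3 (Nat.card G) (fun x => pow_card_eq_one') Finset.univ f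
    (fun a ha => absurd (Finset.mem_univ a) ha) w w' hsc]
  exact hw1

/-- in a nilpotent group of class at most three the commutators of weight four are trivial -/
theorem four_comm_of_nilpotencyClass_le {G : Type} [Group G] [Group.IsNilpotent G]
    (hG : Group.nilpotencyClass G ≤ 3) (a b c d : G) : ⁅⁅⁅a, b⁆, c⁆, d⁆ = 1 := by
  have h : (⊤ : Subgroup G).lowerCentralSeries 3 = ⊥ :=
    Subgroup.lowerCentralSeries_eq_bot_iff_nilpotencyClass_le.mpr hG
  have m0 : a ∈ (⊤ : Subgroup G).lowerCentralSeries 0 := Subgroup.mem_top a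
  have m1 : ⁅a, b⁆ ∈ (⊤ : Subgroup G).lowerCentralSeries 1 :=
    Subgroup.commutator_mem_commutator m0 (Subgroup.mem_top b)
  have m2 : ⁅⁅a, b⁆, c⁆ ∈ (⊤ : Subgroup G).lowerCentralSeries 2 :=
    Subgroup.commutator_mem_commutator m1 (Subgroup.mem_top c)
  have m3 : ⁅⁅⁅a, b⁆, c⁆, d⁆ ∈ (⊤ : Subgroup G).lowerCentralSeries 3 :=
    Subgroup.commutator_mem_commutator m2 (Subgroup.mem_top d)
  rw [h] at m3
  exact Subgroup.mem_bot.mp m3

/-- Every language recognized by a finite nilpotent group of class at most three has star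
height at most one. -/
theorem hasHeight_nilpotent_class3 {G : Type} [Group G] [Finite G] [Group.IsNilpotent G]
    (hG : Group.nilpotencyClass G ≤ 3) {α : Type} [Fintype α] (f : α → G) (S : Set G) :
    HasHeight 1 (langOf fun w : List α => (w.map f).prod ∈ S) := by
  classical
  exact hasHeight_group_class3 (four_comm_of_nilpotencyClass_le hG) f S

end Heights

end Vale.Agent.Lib.P329
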