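import Vale.Agent.Lib.P329.Defs

/-!
# Languages of bounded generalized star height: closure properties
-/

namespace Vale.Agent.Lib.P329

open Computability

variable {α β : Type}

/-- the language of all words satisfying a predicate -/
def langOf (P : List α → Prop) : Language α := {w | P w}

@[simp] theorem mem_langOf {P : List α → Prop} {w : List α} : w ∈ langOf P ↔ P w := Iff.rfl

@[simp] theorem mem_compl_lang {L : Language α} {w : List α} : w ∈ Lᶜ ↔ w ∉ L := Iff.rfl

@[simp] theorem mem_top_lang {w : List α} : w ∈ (⊤ : Language α) := trivial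

@[simp] theorem mem_singleton_lang {x w : List α} : w ∈ ({x} : Language α) ↔ w = x := Iff.rfl

/-- `HasHeight n L`: the language `L` is denoted by an expression of star height at most `n`. -/
def HasHeight (n : ℕ) (L : Language α) : Prop :=
  ∃ E : GRE α, E.height ≤ n ∧ E.lang = L

namespace HasHeight

variable {n : ℕ} {L M : Language α}

theorem of_expr (E : GRE α) : HasHeight E.height E.lang := ⟨E, le_rfl, rfl⟩

theorem mono {k : ℕ} (h : HasHeight n L) (hk : n ≤ k) : HasHeight k L := by
  obtain ⟨E, hE, rfl⟩ := h
  exact ⟨E, hE.trans hk, rfl⟩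

theorem zero : HasHeight n (0 : Language α) := ⟨GRE.zero, Nat.zero_le _, rfl⟩

theorem one : HasHeight n (1 : Language α) := ⟨GRE.one, Nat.zero_le _, rfl⟩

theorem letter (a : α) : HasHeight n ({[a]} : Language α) := ⟨GRE.letter a, Nat.zero_le _, rfl⟩

theorem add (h₁ : HasHeight n L) (h₂ : HasHeight n M) : HasHeight n (L + M) := by
  obtain ⟨E₁, h₁, rfl⟩ := h₁
  obtain ⟨E₂, h₂, rfl⟩ := h₂
  exact ⟨GRE.union E₁ E₂, max_le h₁ h₂, rfl⟩

theorem mul (h₁ : HasHeight n L) (h₂ : HasHeight n M) : HasHeight n (L * M) := by
  obtain ⟨E₁, h₁, rfl⟩ := h₁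
  obtain ⟨E₂, h₂, rfl⟩ := h₂
  exact ⟨GRE.concat E₁ E₂, max_le h₁ h₂, rfl⟩

theorem compl (h : HasHeight n L) : HasHeight n Lᶜ := by
  obtain ⟨E, h, rfl⟩ := h
  exact ⟨GRE.compl E, h, rfl⟩

theorem star (h : HasHeight n L) : HasHeight (n + 1) (KStar.kstar L) := by
  obtain ⟨E, h, rfl⟩ := h
  exact ⟨GRE.star E, Nat.succ_le_succ h, rfl⟩

theorem top : HasHeight n (⊤ : Language α) := by
  have e : (⊤ : Language α) = (0 : Language α)ᶜ := by
    ext w; simp
  rw [e]; exact zero.compl

theorem inf (h₁ : HasHeight n L) (h₂ : HasHeight n M) : HasHeight n (L ⊓ M) := by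
  have e : L ⊓ M = (Lᶜ + Mᶜ)ᶜ := by
    ext w; simp [Language.mem_add, Language.mem_inf]
  rw [e]; exact (h₁.compl.add h₂.compl).compl

theorem congr (h : HasHeight n L) (e : ∀ w, w ∈ M ↔ w ∈ L) : HasHeight n M := by
  have : M = L := Language.ext e
  rw [this]; exact h

theorem biUnion {ι : Type} (s : Finset ι) (F : ι → Language α)
    (h : ∀ i ∈ s, HasHeight n (F i)) : HasHeight n (langOf fun w => ∃ i ∈ s, w ∈ F i) := by
  classical
  induction s using Finset.induction_on with
  | empty =>
    exact zero.congr (by intro w; simp)
  | insert a s ha ih =>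
    refine ((h a (Finset.mem_insert_self a s)).add
      (ih fun i hi => h i (Finset.mem_insert_of_mem hi))).congr ?_
    intro w
    rw [Language.mem_add]
    simp

theorem iUnion {ι : Type} [Fintype ι] (F : ι → Language α) (h : ∀ i, HasHeight n (F i)) :
    HasHeight n (langOf fun w => ∃ i, w ∈ F i) :=
  (biUnion Finset.univ F fun i _ => h i).congr (by intro w; simp)

theorem iInter {ι : Type} [Fintype ι] (F : ι → Language α) (h : ∀ i, HasHeight n (F i)) :
    HasHeight n (langOf fun w => ∀ i, w ∈ F i) :=
  (iUnion _ fun i => (h i).compl).compl.congr (by intro w; simp)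

theorem word (w : List α) : HasHeight n ({w} : Language α) := by
  induction w with
  | nil => exact one
  | cons a w ih =>
    refine ((letter a).mul ih).congr ?_
    intro x
    simp [Language.mem_mul, eq_comm]

end HasHeight

/-! ### Inverse images under letter-to-letter-or-erasing maps -/

/-- Inverse image of a language under the monoid morphism induced by `f : α → Option β`
(letters sent to `none` are erased). -/
def comapLang (f : α → Option β) (L : Language β) : Language α := langOf fun w => w.filterMap f ∈ L

theorem mem_comapLang {f : α → Option β} {L : Language β} {w : List α} :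
    w ∈ comapLang f L ↔ w.filterMap f ∈ L := Iff.rfl

/-- words all of whose letters are erased by `f` -/
def erasedLang (f : α → Option β) : Language α := langOf fun w => ∀ a ∈ w, f a = none

theorem mem_erasedLang {f : α → Option β} {w : List α} :
    w ∈ erasedLang f ↔ ∀ a ∈ w, f a = none := Iff.rfl

/-- one-letter words whose letter is sent to `b` -/
def fiberLang (f : α → Option β) (b : β) : Language α := langOf fun w => ∃ a, f a = some b ∧ w = [a]

theorem mem_fiberLang {f : α → Option β} {b : β} {w : List α} :
    w ∈ fiberLang f b ↔ ∃ a, f a = some b ∧ w = [a] := Iff.rfl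

theorem hasHeight_erasedLang [Fintype α] (f : α → Option β) (n : ℕ) :
    HasHeight n (erasedLang f) := by
  classical
  refine (((HasHeight.top (n := n)).mul (HasHeight.biUnion
    (Finset.univ.filter (fun a => f a ≠ none)) (fun a => ({[a]} : Language α))
    fun a _ => HasHeight.letter a)).mul HasHeight.top).compl.congr ?_
  intro w
  rw [mem_erasedLang, mem_compl_lang]
  constructor
  · intro h hw
    obtain ⟨xy, hxy, z, -, rfl⟩ := Language.mem_mul.mp hw
    obtain ⟨x, -, y, hy, rfl⟩ := Language.mem_mul.mp hxy
    obtain ⟨a, ha, hya⟩ := mem_langOf.mp hy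
    rw [mem_singleton_lang] at hya
    subst hya
    exact (Finset.mem_filter.mp ha).2 (h a (by simp))
  · intro h a haw
    by_contra hne
    obtain ⟨s, t, rfl⟩ := List.append_of_mem haw
    apply h
    have h1 : s ++ [a] ∈ (⊤ : Language α) * (langOf fun w => ∃ i ∈
        Finset.univ.filter (fun a => f a ≠ none), w ∈ ({[i]} : Language α)) :=
      Language.append_mem_mul mem_top_lang (mem_langOf.mpr ⟨a, by simp [hne], rfl⟩)
    have h2 := Language.append_mem_mul h1 (mem_top_lang : t ∈ (⊤ : Language α))
    simpa using h2

theorem hasHeight_fiberLang [Fintype α] (f : α → Option β) (b : β) (n : ℕ) :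
    HasHeight n (fiberLang f b) := by
  classical
  refine (HasHeight.biUnion (Finset.univ.filter (fun a => f a = some b))
    (fun a => ({[a]} : Language α)) fun a _ => HasHeight.letter a).congr ?_
  intro w
  simp [mem_fiberLang]

theorem comapLang_zero (f : α → Option β) : comapLang f (0 : Language β) = 0 := rfl

theorem comapLang_one (f : α → Option β) : comapLang f (1 : Language β) = erasedLang f := by
  ext w
  simp [mem_comapLang, mem_erasedLang, List.filterMap_eq_nil_iff]

theorem comapLang_add (f : α → Option β) (L M : Language β) :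
    comapLang f (L + M) = comapLang f L + comapLang f M := rfl

theorem comapLang_compl (f : α → Option β) (L : Language β) :
    comapLang f Lᶜ = (comapLang f L)ᶜ := rfl

theorem comapLang_mul (f : α → Option β) (L M : Language β) :
    comapLang f (L * M) = comapLang f L * comapLang f M := by
  ext w
  simp only [mem_comapLang, Language.mem_mul]
  constructor
  · rintro ⟨x, hx, y, hy, h⟩
    obtain ⟨w₁, w₂, rfl, rfl, rfl⟩ := List.filterMap_eq_append_iff.mp h.symm
    exact ⟨w₁, hx, w₂, hy, rfl⟩
  · rintro ⟨w₁, h₁, w₂, h₂, rfl⟩
    exact ⟨_, h₁, _, h₂, (List.filterMap_append).symm⟩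

theorem comapLang_letter (f : α → Option β) (b : β) :
    comapLang f ({[b]} : Language β) = erasedLang f * fiberLang f b * erasedLang f := by
  ext w
  simp only [mem_comapLang, Language.mem_mul, mem_erasedLang, mem_fiberLang,
    mem_singleton_lang]
  constructor
  · intro h
    obtain ⟨l₁, a, l₂, rfl, h₁, ha, h₂⟩ := List.filterMap_eq_cons_iff.mp h
    refine ⟨l₁ ++ [a], ⟨l₁, h₁, [a], ⟨a, ha, rfl⟩, rfl⟩, l₂, ?_, by simp⟩
    exact List.filterMap_eq_nil_iff.mp h₂
  · rintro ⟨x, ⟨l₁, h₁, y, ⟨a, ha, rfl⟩, rfl⟩, l₂, h₂, rfl⟩
    rw [List.filterMap_append, List.filterMap_append, List.filterMap_eq_nil_iff.mpr h₁,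
      List.filterMap_eq_nil_iff.mpr h₂]
    simp [ha]

theorem comapLang_kstar (f : α → Option β) (L : Language β) :
    comapLang f (KStar.kstar L) = KStar.kstar (comapLang f L) + erasedLang f := by
  ext w
  simp only [Language.mem_add]
  constructor
  · intro h
    obtain ⟨S, hS, hL⟩ := Language.mem_kstar.mp (mem_comapLang.mp h)
    clear h
    induction S generalizing w with
    | nil =>
      right
      intro a ha
      exact List.filterMap_eq_nil_iff.mp (by simpa using hS) a ha
    | cons s S ih =>
      rw [List.flatten_cons] at hS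
      obtain ⟨w₁, w₂, rfl, h₁, h₂⟩ := List.filterMap_eq_append_iff.mp hS
      have hs : s ∈ L := hL s (by simp)
      rcases ih w₂ h₂ (fun y hy => hL y (by simp [hy])) with h | h
      · left
        have hw₁ : w₁ ∈ comapLang f L := by
          rw [mem_comapLang, h₁]; exact hs
        have : w₁ ++ w₂ ∈ comapLang f L * KStar.kstar (comapLang f L) :=
          Language.append_mem_mul hw₁ h
        have hle : comapLang f L * KStar.kstar (comapLang f L) ≤ KStar.kstar (comapLang f L) :=
          mul_kstar_le_kstar
        exact hle this
      · left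
        have hw : w₁ ++ w₂ ∈ comapLang f L := by
          rw [mem_comapLang, List.filterMap_append, h₁,
            List.filterMap_eq_nil_iff.mpr (mem_erasedLang.mp h), List.append_nil]
          exact hs
        exact (le_kstar : comapLang f L ≤ KStar.kstar (comapLang f L)) hw
  · rintro (h | h)
    · obtain ⟨S, rfl, hS⟩ := Language.mem_kstar.mp h
      rw [mem_comapLang, List.filterMap_flatten]
      refine Language.mem_kstar.mpr ⟨S.map (List.filterMap f), rfl, ?_⟩
      intro y hy
      obtain ⟨s, hs, rfl⟩ := List.mem_map.mp hy
      exact hS s hs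
    · rw [mem_comapLang, List.filterMap_eq_nil_iff.mpr (mem_erasedLang.mp h)]
      exact Language.nil_mem_kstar L

theorem hasHeight_comap_expr [Fintype α] (f : α → Option β) (E : GRE β) :
    HasHeight E.height (comapLang f E.lang) := by
  induction E with
  | zero => exact HasHeight.zero
  | one =>
    show HasHeight 0 (comapLang f 1)
    rw [comapLang_one]; exact hasHeight_erasedLang f 0
  | letter b =>
    show HasHeight 0 (comapLang f {[b]})
    rw [comapLang_letter]
    exact ((hasHeight_erasedLang f 0).mul (hasHeight_fiberLang f b 0)).mul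
      (hasHeight_erasedLang f 0)
  | union p q ihp ihq =>
    show HasHeight (max p.height q.height) (comapLang f (p.lang + q.lang))
    rw [comapLang_add]
    exact (ihp.mono (le_max_left _ _)).add (ihq.mono (le_max_right _ _))
  | concat p q ihp ihq =>
    show HasHeight (max p.height q.height) (comapLang f (p.lang * q.lang))
    rw [comapLang_mul]
    exact (ihp.mono (le_max_left _ _)).mul (ihq.mono (le_max_right _ _))
  | compl p ih =>
    show HasHeight p.height (comapLang f (p.lang)ᶜ)
    rw [comapLang_compl]; exact ih.compl
  | star p ih =>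
    show HasHeight (p.height + 1) (comapLang f (KStar.kstar p.lang))
    rw [comapLang_kstar]
    exact ih.star.add (hasHeight_erasedLang f _)

theorem HasHeight.comap [Fintype α] {n : ℕ} {L : Language β} (h : HasHeight n L)
    (f : α → Option β) : HasHeight n (comapLang f L) := by
  obtain ⟨E, hE, rfl⟩ := h
  exact (hasHeight_comap_expr f E).mono hE

/-! ### Quotients -/

/-- left quotient by a letter -/
def derivLang (a : α) (L : Language α) : Language α := langOf fun w => a :: w ∈ L

theorem mem_derivLang {a : α} {L : Language α} {w : List α} :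
    w ∈ derivLang a L ↔ a :: w ∈ L := Iff.rfl

theorem derivLang_mul (a : α) (L M : Language α) [Decidable ([] ∈ L)] :
    derivLang a (L * M) = derivLang a L * M + (if [] ∈ L then derivLang a M else 0) := by
  ext w
  simp only [mem_derivLang, Language.mem_mul, Language.mem_add]
  constructor
  · rintro ⟨x, hx, y, hy, h⟩
    cases x with
    | nil =>
      right
      rw [if_pos hx]
      simp only [List.nil_append] at h
      subst h
      exact hy
    | cons b x =>
      left
      simp only [List.cons_append, List.cons.injEq] at h
      obtain ⟨rfl, rfl⟩ := h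
      exact ⟨x, hx, y, hy, rfl⟩
  · rintro (⟨x, hx, y, hy, rfl⟩ | h)
    · exact ⟨a :: x, hx, y, hy, rfl⟩
    · by_cases h0 : [] ∈ L
      · rw [if_pos h0] at h
        exact ⟨[], h0, a :: w, h, rfl⟩
      · rw [if_neg h0] at h
        exact absurd h (Language.notMem_zero w)

theorem derivLang_kstar (a : α) (L : Language α) :
    derivLang a (KStar.kstar L) = derivLang a L * KStar.kstar L := by
  ext w
  simp only [mem_derivLang, Language.mem_mul]
  constructor
  · intro h
    obtain ⟨S, hS, hL⟩ := Language.mem_kstar_iff_exists_nonempty.mp h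
    cases S with
    | nil => simp at hS
    | cons s S =>
      obtain ⟨hs, hsne⟩ := hL s (by simp)
      cases s with
      | nil => exact absurd rfl hsne
      | cons b s =>
        simp only [List.flatten_cons, List.cons_append, List.cons.injEq] at hS
        obtain ⟨rfl, rfl⟩ := hS
        exact ⟨s, hs, S.flatten,
          Language.mem_kstar.mpr ⟨S, rfl, fun y hy => (hL y (by simp [hy])).1⟩, rfl⟩
  · rintro ⟨x, hx, y, hy, rfl⟩
    have : (a :: x) ++ y ∈ L * KStar.kstar L := Language.append_mem_mul hx hy
    exact (mul_kstar_le_kstar : L * KStar.kstar L ≤ KStar.kstar L) this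

theorem hasHeight_deriv_expr (a : α) (E : GRE α) : HasHeight E.height (derivLang a E.lang) := by
  classical
  induction E with
  | zero => exact HasHeight.zero
  | one =>
    refine HasHeight.zero.congr ?_
    intro w
    show (a :: w ∈ (1 : Language α)) ↔ w ∈ (0 : Language α)
    simp
  | letter b =>
    by_cases hb : b = a
    · refine HasHeight.one.congr ?_
      intro w
      show (a :: w ∈ ({[b]} : Language α)) ↔ w ∈ (1 : Language α)
      simp [hb]
    · refine HasHeight.zero.congr ?_
      intro w
      show (a :: w ∈ ({[b]} : Language α)) ↔ w ∈ (0 : Language α)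
      simp [Ne.symm hb]
  | union p q ihp ihq =>
    show HasHeight (max p.height q.height) (derivLang a p.lang + derivLang a q.lang)
    exact (ihp.mono (le_max_left _ _)).add (ihq.mono (le_max_right _ _))
  | concat p q ihp ihq =>
    show HasHeight (max p.height q.height) (derivLang a (p.lang * q.lang))
    rw [derivLang_mul]
    refine ((ihp.mono (le_max_left _ _)).mul ((HasHeight.of_expr q).mono (le_max_right _ _))).add ?_
    split_ifs
    · exact ihq.mono (le_max_right _ _)
    · exact HasHeight.zero
  | compl p ih =>
    show HasHeight p.height (derivLang a p.lang)ᶜ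
    exact ih.compl
  | star p ih =>
    show HasHeight (p.height + 1) (derivLang a (KStar.kstar p.lang))
    rw [derivLang_kstar]
    exact (ih.mono (Nat.le_succ _)).mul (HasHeight.of_expr p).star

/-- left quotient by a word -/
def lquot (x : List α) (L : Language α) : Language α := langOf fun w => x ++ w ∈ L

/-- right quotient by a word -/
def rquot (y : List α) (L : Language α) : Language α := langOf fun w => w ++ y ∈ L

theorem mem_lquot {x : List α} {L : Language α} {w : List α} : w ∈ lquot x L ↔ x ++ w ∈ L :=
  Iff.rfl

theorem mem_rquot {y : List α} {L : Language α} {w : List α} : w ∈ rquot y L ↔ w ++ y ∈ L :=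
  Iff.rfl

theorem hasHeight_lquot {n : ℕ} (x : List α) :
    ∀ {L : Language α}, HasHeight n L → HasHeight n (lquot x L) := by
  induction x with
  | nil => intro L h; exact h
  | cons a x ih =>
    intro L h
    have e : lquot (a :: x) L = lquot x (derivLang a L) := rfl
    rw [e]
    apply ih
    obtain ⟨E, hE, rfl⟩ := h
    exact (hasHeight_deriv_expr a E).mono hE

theorem hasHeight_reverse_expr (E : GRE α) : HasHeight E.height E.lang.reverse := by
  induction E with
  | zero => exact HasHeight.zero
  | one =>
    show HasHeight 0 (1 : Language α).reverse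
    rw [Language.reverse_one]; exact HasHeight.one
  | letter b =>
    refine (HasHeight.letter b).congr ?_
    intro w
    show w.reverse ∈ ({[b]} : Language α) ↔ w ∈ ({[b]} : Language α)
    simp [List.reverse_eq_iff]
  | union p q ihp ihq =>
    show HasHeight (max p.height q.height) (p.lang + q.lang).reverse
    rw [Language.reverse_add]
    exact (ihp.mono (le_max_left _ _)).add (ihq.mono (le_max_right _ _))
  | concat p q ihp ihq =>
    show HasHeight (max p.height q.height) (p.lang * q.lang).reverse
    rw [Language.reverse_mul]
    exact (ihq.mono (le_max_right _ _)).mul (ihp.mono (le_max_left _ _))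
  | compl p ih =>
    show HasHeight p.height (p.lang.reverse)ᶜ
    exact ih.compl
  | star p ih =>
    show HasHeight (p.height + 1) (KStar.kstar p.lang).reverse
    rw [Language.reverse_kstar]
    exact ih.star

theorem hasHeight_reverse {n : ℕ} {L : Language α} (h : HasHeight n L) :
    HasHeight n L.reverse := by
  obtain ⟨E, hE, rfl⟩ := h
  exact (hasHeight_reverse_expr E).mono hE

theorem hasHeight_rquot {n : ℕ} {L : Language α} (y : List α) (h : HasHeight n L) :
    HasHeight n (rquot y L) := by
  refine (hasHeight_reverse (hasHeight_lquot y.reverse (hasHeight_reverse h))).congr ?_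
  intro w
  show w ++ y ∈ L ↔ (y.reverse ++ w.reverse).reverse ∈ L
  simp

end Vale.Agent.Lib.P329
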