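import Vale.Agent.Lib.P329.LocalDiv

/-!
# Coding the words between consecutive occurrences of a letter
-/

namespace Vale.Agent.Lib.P329

open Computability

variable {α M : Type} [Monoid M] [DecidableEq α]

/-- the values of the blocks that precede the successive occurrences of `c` -/
def codeAux (φ : α → M) (c : α) : M → List α → List M
  | _, [] => []
  | acc, a :: w => if a = c then acc :: codeAux φ c 1 w else codeAux φ c (acc * φ a) w

theorem codeAux_cons_self (φ : α → M) (c : α) (acc : M) (w : List α) :
    codeAux φ c acc (c :: w) = acc :: codeAux φ c 1 w := by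
  simp [codeAux]

theorem codeAux_cons_ne (φ : α → M) {c a : α} (h : a ≠ c) (acc : M) (w : List α) :
    codeAux φ c acc (a :: w) = codeAux φ c (acc * φ a) w := by
  simp [codeAux, h]

theorem endLang_nil (c : α) : ([] : List α) ∈ endLang c := mem_endLang.mpr (Or.inl rfl)

theorem endLang_concat (c : α) (v : List α) : v ++ [c] ∈ endLang c :=
  mem_endLang.mpr (Or.inr ⟨v, rfl⟩)

/-- a nonempty tail of a word ending with `c` ends with `c` -/
theorem endLang_suffix {c : α} {x y : List α} (h : x ++ y ∈ endLang c) (hy : y ≠ []) :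
    y ∈ endLang c := by
  rcases mem_endLang.mp h with h0 | ⟨v, hv⟩
  · exact absurd (List.append_eq_nil_iff.mp h0).2 hy
  · rcases List.eq_nil_or_concat y with rfl | ⟨L, b, rfl⟩
    · exact absurd rfl hy
    · rw [List.concat_eq_append, ← List.append_assoc] at hv
      have hb : [b] = [c] := List.append_inj_right' hv rfl
      rw [List.concat_eq_append, hb]
      exact endLang_concat c L

theorem endLang_suffix' {c : α} {x y : List α} (h : x ++ y ∈ endLang c) : y ∈ endLang c := by
  by_cases hy : y = []
  · rw [hy]; exact endLang_nil c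
  · exact endLang_suffix h hy

theorem endLang_append {c : α} {x y : List α} (hx : x ∈ endLang c) (hy : y ∈ endLang c) :
    x ++ y ∈ endLang c := by
  rcases mem_endLang.mp hy with rfl | ⟨v, rfl⟩
  · rw [List.append_nil]; exact hx
  · rw [← List.append_assoc]; exact endLang_concat c _

theorem endLang_cons_tail {c a : α} {w : List α} (h : a :: w ∈ endLang c) : w ∈ endLang c :=
  endLang_suffix' (x := [a]) h

theorem endLang_singleton {c a : α} (h : [a] ∈ endLang c) : a = c := by
  rcases mem_endLang.mp h with h0 | ⟨v, hv⟩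
  · exact absurd h0 (by simp)
  · have hb : [a] = [c] := List.append_inj_right' (s₁ := []) hv rfl
    exact List.singleton_inj.mp hb

variable (φ : α → M) (c : α)

theorem code_val : ∀ (y : List α) (acc : M), y ∈ endLang c → (y = [] → acc = 1) →
    (((codeAux φ c acc y).map (LD.psi (φ c))).prod).1 = φ c * acc * (y.map φ).prod := by
  intro y
  induction y with
  | nil =>
    intro acc _ h1
    simp [codeAux, LD.one_val, h1 rfl]
  | cons a w ih =>
    intro acc hy _
    by_cases hac : a = c
    · subst hac
      rw [codeAux_cons_self, List.map_cons, List.prod_cons]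
      have hw := ih 1 (endLang_cons_tail hy) (fun _ => rfl)
      have hw' : (((codeAux φ a 1 w).map (LD.psi (φ a))).prod).1 = φ a * (w.map φ).prod := by
        rw [hw, mul_one]
      rw [LD.mul_val_right _ _ _ hw', LD.psi_val, List.map_cons, List.prod_cons]
      simp only [mul_assoc]
    · rw [codeAux_cons_ne φ hac]
      have hwne : w ≠ [] := by
        rintro rfl
        exact hac (endLang_singleton hy)
      rw [ih (acc * φ a) (endLang_cons_tail hy) (fun h => absurd h hwne), List.map_cons,
        List.prod_cons]
      simp only [mul_assoc]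

theorem codeAux_append : ∀ (y₁ : List α) (acc : M) (y₂ : List α), y₁ ≠ [] → y₁ ∈ endLang c →
    codeAux φ c acc (y₁ ++ y₂) = codeAux φ c acc y₁ ++ codeAux φ c 1 y₂ := by
  intro y₁
  induction y₁ with
  | nil => intro acc y₂ h; exact absurd rfl h
  | cons a w ih =>
    intro acc y₂ _ hy
    by_cases hac : a = c
    · subst hac
      rw [List.cons_append, codeAux_cons_self, codeAux_cons_self]
      by_cases hw : w = []
      · subst hw
        simp [codeAux]
      · rw [ih 1 y₂ hw (endLang_cons_tail hy)]
        rfl
    · have hwne : w ≠ [] := by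
        rintro rfl
        exact hac (endLang_singleton hy)
      rw [List.cons_append, codeAux_cons_ne φ hac, codeAux_cons_ne φ hac,
        ih (acc * φ a) y₂ hwne (endLang_cons_tail hy)]

theorem code_append {y₁ y₂ : List α} (h : y₁ ∈ endLang c) :
    codeAux φ c 1 (y₁ ++ y₂) = codeAux φ c 1 y₁ ++ codeAux φ c 1 y₂ := by
  by_cases h1 : y₁ = []
  · subst h1
    simp [codeAux]
  · exact codeAux_append φ c y₁ 1 y₂ h1 h

theorem codeAux_cons_split : ∀ (y : List α) (acc t : M) (k : List M),
    codeAux φ c acc y = t :: k →
    ∃ u y', y = u ++ c :: y' ∧ c ∉ u ∧ acc * (u.map φ).prod = t ∧ codeAux φ c 1 y' = k := by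
  intro y
  induction y with
  | nil => intro acc t k h; simp [codeAux] at h
  | cons a w ih =>
    intro acc t k h
    by_cases hac : a = c
    · subst hac
      rw [codeAux_cons_self] at h
      obtain ⟨h1, h2⟩ := List.cons.inj h
      exact ⟨[], w, rfl, by simp, by simpa using h1, h2⟩
    · rw [codeAux_cons_ne φ hac] at h
      obtain ⟨u, y', rfl, hu, ht, hk⟩ := ih (acc * φ a) t k h
      refine ⟨a :: u, y', rfl, ?_, ?_, hk⟩
      · simp only [List.mem_cons, not_or]
        exact ⟨fun e => hac e.symm, hu⟩
      · rw [List.map_cons, List.prod_cons, ← mul_assoc]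
        exact ht

theorem codeAux_single : ∀ (u : List α) (acc : M), c ∉ u →
    codeAux φ c acc (u ++ [c]) = [acc * (u.map φ).prod] := by
  intro u
  induction u with
  | nil => intro acc _; simp [codeAux]
  | cons a u ih =>
    intro acc hu
    simp only [List.mem_cons, not_or] at hu
    have hac : a ≠ c := fun e => hu.1 e.symm
    rw [List.cons_append, codeAux_cons_ne φ hac, ih (acc * φ a) hu.2, List.map_cons,
      List.prod_cons, mul_assoc]

theorem codeAux_concat_ne_nil : ∀ (v : List α) (acc : M), codeAux φ c acc (v ++ [c]) ≠ [] := by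
  intro v
  induction v with
  | nil => intro acc; simp [codeAux]
  | cons a v ih =>
    intro acc
    by_cases hac : a = c
    · subst hac
      rw [List.cons_append, codeAux_cons_self]
      simp
    · rw [List.cons_append, codeAux_cons_ne φ hac]
      exact ih _

theorem code_eq_nil {y : List α} (hy : y ∈ endLang c) (h : codeAux φ c 1 y = []) : y = [] := by
  rcases mem_endLang.mp hy with h0 | ⟨v, rfl⟩
  · exact h0
  · exact absurd h (codeAux_concat_ne_nil φ c v 1)

theorem code_split : ∀ (k₁ : List M) (y : List α) (k₂ : List M), y ∈ endLang c →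
    codeAux φ c 1 y = k₁ ++ k₂ →
    ∃ y₁ y₂, y = y₁ ++ y₂ ∧ y₁ ∈ endLang c ∧ y₂ ∈ endLang c ∧
      codeAux φ c 1 y₁ = k₁ ∧ codeAux φ c 1 y₂ = k₂ := by
  intro k₁
  induction k₁ with
  | nil =>
    intro y k₂ hy h
    exact ⟨[], y, rfl, endLang_nil c, hy, by simp [codeAux], h⟩
  | cons t k₁ ih =>
    intro y k₂ hy h
    rw [List.cons_append] at h
    obtain ⟨u, y', rfl, hu, ht, hk⟩ := codeAux_cons_split φ c y 1 t (k₁ ++ k₂) h
    have hy' : y' ∈ endLang c := by
      have : (u ++ [c]) ++ y' ∈ endLang c := by simpa using hy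
      exact endLang_suffix' this
    obtain ⟨y₁, y₂, rfl, h1, h2, e1, e2⟩ := ih y' k₂ hy' hk
    refine ⟨(u ++ [c]) ++ y₁, y₂, by simp, endLang_append (endLang_concat c u) h1, h2, ?_, e2⟩
    rw [code_append φ c (endLang_concat c u), codeAux_single φ c u 1 hu, e1, ht]
    rfl

end Vale.Agent.Lib.P329
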