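import Vale.Agent.Lib.P329.Cut

/-!
# Counting marked transitions modulo `m`
-/

namespace Vale.Agent.Lib.P329

open Computability

variable {Q α : Type}

/-- the number of marked transitions along the run of `w` from `s` -/
def dcount (step : Q → α → Q) (mark : Q → α → Bool) : Q → List α → ℕ
  | _, [] => 0
  | s, a :: w => (if mark s a then 1 else 0) + dcount step mark (step s a) w

theorem dcount_append (step : Q → α → Q) (mark : Q → α → Bool) :
    ∀ (x y : List α) (s : Q),
      dcount step mark s (x ++ y) = dcount step mark s x + dcount step mark (run step s x) y := by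
  intro x
  induction x with
  | nil => intro y s; simp [dcount]
  | cons a x ih =>
    intro y s
    show (if mark s a then 1 else 0) + dcount step mark (step s a) (x ++ y) = _
    rw [ih]
    show _ = (if mark s a then 1 else 0) + dcount step mark (step s a) x + _
    rw [run_cons, add_assoc]

theorem dcount_snoc (step : Q → α → Q) (mark : Q → α → Bool) (x : List α) (a : α) (s : Q) :
    dcount step mark s (x ++ [a])
      = dcount step mark s x + (if mark (run step s x) a then 1 else 0) := by
  rw [dcount_append]
  simp [dcount]

/-- the automaton together with a counter modulo `m` of the marked transitions -/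
def cntStep (step : Q → α → Q) (mark : Q → α → Bool) (m : ℕ) : Q × ZMod m → α → Q × ZMod m :=
  fun x a => (step x.1 a, if mark x.1 a then x.2 + 1 else x.2)

theorem run_cnt (step : Q → α → Q) (mark : Q → α → Bool) (m : ℕ) :
    ∀ (w : List α) (s : Q) (n : ZMod m),
      run (cntStep step mark m) (s, n) w = (run step s w, n + (dcount step mark s w : ZMod m)) := by
  intro w
  induction w with
  | nil => intro s n; simp [dcount]
  | cons a w ih =>
    intro s n
    rw [run_cons]
    show run (cntStep step mark m) (step s a, if mark s a then n + 1 else n) w = _
    rw [ih, run_cons]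
    show _ = (run step (step s a) w,
      n + (((if mark s a then 1 else 0) + dcount step mark (step s a) w : ℕ) : ZMod m))
    by_cases hm : mark s a = true
    · simp [hm, add_assoc]
    · simp [hm]

/-- discrete intermediate values: every value between one and the number of marked
transitions is attained just after a marked transition -/
theorem dcount_ivt (step : Q → α → Q) (mark : Q → α → Bool) (p : Q)
    (hmark : ∀ s a, mark s a = true → step s a = p) :
    ∀ (w : List α) (s : Q) (t : ℕ), 1 ≤ t → t ≤ dcount step mark s w →
      ∃ x y, w = x ++ y ∧ x ≠ [] ∧ dcount step mark s x = t ∧ run step s x = p := by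
  intro w
  induction w using List.reverseRecOn with
  | nil =>
    intro s t h1 h2
    simp [dcount] at h2
    omega
  | append_singleton w a ih =>
    intro s t h1 h2
    rw [dcount_snoc] at h2
    by_cases hle : t ≤ dcount step mark s w
    · obtain ⟨x, y, rfl, hx, hd, hr⟩ := ih s t h1 hle
      exact ⟨x, y ++ [a], by simp, hx, hd, hr⟩
    · have hm : mark (run step s w) a = true := by
        by_contra hne
        simp [hne] at h2
        omega
      refine ⟨w ++ [a], [], by simp, by simp, ?_, ?_⟩
      · rw [dcount_snoc]
        simp [hm] at h2 ⊢
        omega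
      · rw [run_append]
        exact hmark _ _ hm

/-- the cycles of the automaton that use no marked transition are fixed points -/
def Pure (step : Q → α → Q) (mark : Q → α → Bool) : Prop :=
  ∀ (w : List α) (s : Q) (i : ℕ), 0 < i → run step s (wpow w i) = s →
    dcount step mark s (wpow w i) = 0 → run step s w = s

theorem cnt_cycleFree [DecidableEq Q] (step : Q → α → Q) (mark : Q → α → Bool) (p : Q)
    (hmark : ∀ s a, mark s a = true → step s a = p) (hpure : Pure step mark) (m : ℕ) [NeZero m] :
    CycleFree (cntStep step mark m) (p, 0) := by
  rintro w ⟨s, n⟩ i hi hrun havoid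
  rw [run_cnt] at hrun
  have hs : run step s (wpow w i) = s := congrArg Prod.fst hrun
  have hn : n + (dcount step mark s (wpow w i) : ZMod m) = n := congrArg Prod.snd hrun
  have hd0 : ((dcount step mark s (wpow w i) : ℕ) : ZMod m) = 0 := by
    have := hn
    rwa [add_eq_left] at this
  have hdvd : m ∣ dcount step mark s (wpow w i) := (ZMod.natCast_eq_zero_iff _ _).mp hd0
  have hmpos : 0 < m := Nat.pos_of_ne_zero (NeZero.ne m)
  have hzero : dcount step mark s (wpow w i) = 0 := by
    by_contra hne
    have hge : m ≤ dcount step mark s (wpow w i) := Nat.le_of_dvd (Nat.pos_of_ne_zero hne) hdvd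
    have hval : n.val < m := ZMod.val_lt n
    obtain ⟨x, y, hxy, hx, hdx, hrx⟩ := dcount_ivt step mark p hmark (wpow w i) s (m - n.val)
      (by omega) (by omega)
    apply havoid x y hxy hx
    rw [run_cnt, hrx, hdx]
    have hcast : ((m - n.val : ℕ) : ZMod m) = -n := by
      rw [Nat.cast_sub hval.le, ZMod.natCast_self, ZMod.natCast_zmod_val, zero_sub]
    rw [hcast, add_neg_cancel]
  have hw : run step s w = s := hpure w s i hi hs hzero
  obtain ⟨j, rfl⟩ : ∃ j, i = j + 1 := ⟨i - 1, by omega⟩
  have hsplit : dcount step mark s (w ++ wpow w j) = 0 := hzero
  rw [dcount_append] at hsplit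
  have hdw : dcount step mark s w = 0 := by omega
  rw [run_cnt, hw, hdw]
  simp

/-- counting modulo `m` the marked transitions of an automaton whose unmarked cycles are fixed
points, all marked transitions entering the same state: star height at most one -/
theorem hasHeight_cnt [Finite Q] [Fintype α] [DecidableEq Q] (step : Q → α → Q)
    (mark : Q → α → Bool) (p : Q) (hmark : ∀ s a, mark s a = true → step s a = p)
    (hpure : Pure step mark) (m : ℕ) [NeZero m] (c c' : Q × ZMod m) :
    HasHeight 1 (pathLang (cntStep step mark m) c c') :=
  hasHeight_of_cycleFree (cntStep step mark m) (p, 0)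
    (cnt_cycleFree step mark p hmark hpure m) c c'

end Vale.Agent.Lib.P329
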