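import Vale.Agent.Lib.P329.StarFree

/-!
# Deterministic automata: first-return decomposition and transfer of star height bounds
-/

namespace Vale.Agent.Lib.P329

open Computability

variable {α β Q QA QB QF Q1 Q2 : Type}

/-- the state reached from `q` after reading `w` -/
def run (step : Q → α → Q) (q : Q) (w : List α) : Q := w.foldl step q

@[simp] theorem run_nil (step : Q → α → Q) (q : Q) : run step q [] = q := rfl

@[simp] theorem run_cons (step : Q → α → Q) (q : Q) (a : α) (w : List α) :
    run step q (a :: w) = run step (step q a) w := rfl

theorem run_append (step : Q → α → Q) (q : Q) (x y : List α) :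
    run step q (x ++ y) = run step (run step q x) y := by
  simp [run, List.foldl_append]

/-- the language of the words leading from `q` to `q'` -/
def pathLang (step : Q → α → Q) (q q' : Q) : Language α := langOf fun w => run step q w = q'

theorem mem_pathLang {step : Q → α → Q} {q q' : Q} {w : List α} :
    w ∈ pathLang step q q' ↔ run step q w = q' := Iff.rfl

/-- First-return decomposition: if the languages `S q` satisfy the guarded system describing
the words that lead from `q` to `p` without passing through `p` before their end, then the
set of words fixing `p` is the star of `S p`. -/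
theorem stab_eq_kstar (step : Q → α → Q) (p : Q) (S : Q → Language α)
    (h0 : ∀ q, [] ∉ S q)
    (h1 : ∀ q a w, a :: w ∈ S q ↔
      (step q a = p ∧ w = []) ∨ (step q a ≠ p ∧ w ∈ S (step q a))) :
    pathLang step p p = KStar.kstar (S p) := by
  have sound : ∀ w q, w ∈ S q → run step q w = p := by
    intro w
    induction w with
    | nil => intro q h; exact absurd h (h0 q)
    | cons a w ih =>
      intro q h
      rcases (h1 q a w).mp h with ⟨hp, rfl⟩ | ⟨-, hw⟩
      · simpa using hp
      · simpa using ih _ hw
  have complete : ∀ w q, w ≠ [] → run step q w = p → ∃ x y, w = x ++ y ∧ x ∈ S q := by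
    intro w
    induction w with
    | nil => intro q h; exact absurd rfl h
    | cons a w ih =>
      intro q _ hrun
      by_cases hp : step q a = p
      · exact ⟨[a], w, rfl, (h1 q a []).mpr (Or.inl ⟨hp, rfl⟩)⟩
      · have hw : w ≠ [] := by
          rintro rfl
          exact hp (by simpa using hrun)
        obtain ⟨x, y, rfl, hx⟩ := ih (step q a) hw (by simpa using hrun)
        exact ⟨a :: x, y, rfl, (h1 q a x).mpr (Or.inr ⟨hp, hx⟩)⟩
  ext w
  rw [mem_pathLang]
  constructor
  · intro h
    induction' hn : w.length using Nat.strong_induction_on with n ih generalizing w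
    by_cases hw : w = []
    · subst hw; exact Language.nil_mem_kstar _
    · obtain ⟨x, y, rfl, hx⟩ := complete w p hw h
      have hxne : x ≠ [] := by
        rintro rfl
        exact h0 p hx
      have hy : run step p y = p := by
        rw [run_append, sound x p hx] at h
        exact h
      have hlen : y.length < n := by
        rw [← hn, List.length_append]
        have : 0 < x.length := List.length_pos_iff.mpr hxne
        omega
      have hyk := ih y.length hlen y hy rfl
      have hle : S p * KStar.kstar (S p) ≤ KStar.kstar (S p) := mul_kstar_le_kstar
      exact hle (Language.append_mem_mul hx hyk)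
  · intro h
    obtain ⟨L, rfl, hL⟩ := Language.mem_kstar.mp h
    clear h
    induction L with
    | nil => rfl
    | cons s L ih =>
      rw [List.flatten_cons, run_append, sound s p (hL s (by simp))]
      exact ih fun y hy => hL y (by simp [hy])

theorem run_injective (step : Q → α → Q) (hinj : ∀ a, Function.Injective fun q => step q a)
    (y : List α) : Function.Injective fun q => run step q y := by
  induction y with
  | nil => intro q q' h; exact h
  | cons a y ih =>
    intro q q' h
    exact hinj a (ih h)

theorem pathLang_eq_quot (step : Q → α → Q)
    (hinj : ∀ a, Function.Injective fun q => step q a)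
    (p q q' : Q) (x y : List α) (hx : run step p x = q) (hy : run step q' y = p) :
    pathLang step q q' = lquot x (rquot y (pathLang step p p)) := by
  ext w
  rw [mem_lquot, mem_rquot, mem_pathLang, mem_pathLang, run_append, run_append, hx]
  constructor
  · rintro rfl
    exact hy
  · intro h
    exact run_injective step hinj y (h.trans hy.symm)

/-- every language of words leading from one state to another has star height at most one -/
def AllH (step : Q → α → Q) : Prop := ∀ q q', HasHeight 1 (pathLang step q q')

theorem AllH.of_stab (step : Q → α → Q) (hinj : ∀ a, Function.Injective fun q => step q a)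
    (p : Q) (hreach : ∀ q, ∃ x, run step p x = q) (hback : ∀ q, ∃ y, run step q y = p)
    (hp : HasHeight 1 (pathLang step p p)) : AllH step := by
  intro q q'
  obtain ⟨x, hx⟩ := hreach q
  obtain ⟨y, hy⟩ := hback q'
  rw [pathLang_eq_quot step hinj p q q' x y hx hy]
  exact hasHeight_lquot x (hasHeight_rquot y hp)

theorem AllH.set [Fintype Q] {step : Q → α → Q} (h : AllH step) (q : Q) (T : Set Q) :
    HasHeight 1 (langOf fun w => run step q w ∈ T) := by
  classical
  refine (HasHeight.biUnion (Finset.univ.filter (fun t => t ∈ T)) (fun t => pathLang step q t)
    fun t _ => h q t).congr ?_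
  intro w
  simp [mem_pathLang]

theorem run_filterMap (stepA : QA → α → QA) (stepB : QB → β → QB) (f : α → Option β)
    (g : QB → QA)
    (h : ∀ q a, stepA (g q) a = (f a).elim (g q) (fun b => g (stepB q b))) :
    ∀ w q, run stepA (g q) w = g (run stepB q (w.filterMap f)) := by
  intro w
  induction w with
  | nil => intro q; rfl
  | cons a w ih =>
    intro q
    rw [run_cons, h q a]
    cases hfa : f a with
    | none =>
      rw [List.filterMap_cons_none hfa]
      exact ih q
    | some b =>
      rw [List.filterMap_cons_some hfa, run_cons]
      exact ih (stepB q b)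

/-- transfer along a letter-to-letter-or-erasing map and a surjective map of states -/
theorem AllH.comap [Fintype α] [Fintype QB] (stepA : QA → α → QA) (stepB : QB → β → QB)
    (f : α → Option β) (g : QB → QA)
    (h : ∀ q a, stepA (g q) a = (f a).elim (g q) (fun b => g (stepB q b)))
    (hsurj : Function.Surjective g) (hB : AllH stepB) : AllH stepA := by
  intro qa qa'
  obtain ⟨qb, rfl⟩ := hsurj qa
  refine ((hB.set qb {t | g t = qa'}).comap f).congr ?_
  intro w
  rw [mem_pathLang, run_filterMap stepA stepB f g h w qb]
  rfl

theorem run_map (stepF : QF → α → QF) (step1 : Q1 → α → Q1) (g1 : QF → Q1)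
    (h1 : ∀ q a, g1 (stepF q a) = step1 (g1 q) a) :
    ∀ w q, g1 (run stepF q w) = run step1 (g1 q) w := by
  intro w
  induction w with
  | nil => intro q; rfl
  | cons a w ih =>
    intro q
    rw [run_cons, run_cons, ih, h1]

/-- an automaton observed faithfully by two automata with the height bound has it too -/
theorem AllH.two (stepF : QF → α → QF) (step1 : Q1 → α → Q1) (step2 : Q2 → α → Q2)
    (g1 : QF → Q1) (g2 : QF → Q2)
    (h1 : ∀ q a, g1 (stepF q a) = step1 (g1 q) a)
    (h2 : ∀ q a, g2 (stepF q a) = step2 (g2 q) a)
    (hinj : ∀ q q', g1 q = g1 q' → g2 q = g2 q' → q = q')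
    (H1 : AllH step1) (H2 : AllH step2) : AllH stepF := by
  intro q q'
  refine ((H1 (g1 q) (g1 q')).inf (H2 (g2 q) (g2 q'))).congr ?_
  intro w
  rw [Language.mem_inf, mem_pathLang, mem_pathLang, mem_pathLang,
    ← run_map stepF step1 g1 h1, ← run_map stepF step2 g2 h2]
  constructor
  · rintro rfl
    exact ⟨rfl, rfl⟩
  · rintro ⟨e1, e2⟩
    exact hinj _ _ e1 e2

end Vale.Agent.Lib.P329
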