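import Vale.Agent.Lib.P329.Aperiodic
import Vale.Agent.Lib.P329.Return

/-!
# Counter-free deterministic automata recognize star-free languages
-/

namespace Vale.Agent.Lib.P329

open Computability

/-- the `i`-th power of a word -/
def wpow {α : Type} (w : List α) : ℕ → List α
  | 0 => []
  | i + 1 => w ++ wpow w i

theorem wpow_add {α : Type} (w : List α) (i j : ℕ) : wpow w (i + j) = wpow w i ++ wpow w j := by
  induction i with
  | zero => simp [wpow]
  | succ i ih =>
    have e : i + 1 + j = (i + j) + 1 := by omega
    rw [e]
    show w ++ wpow w (i + j) = (w ++ wpow w i) ++ wpow w j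
    rw [ih, List.append_assoc]

theorem wpow_succ' {α : Type} (w : List α) (i : ℕ) : wpow w (i + 1) = wpow w i ++ w := by
  rw [wpow_add]
  simp [wpow]

theorem wpow_one {α : Type} (w : List α) : wpow w 1 = w := by simp [wpow]

theorem wpow_mul {α : Type} (w : List α) (i j : ℕ) : wpow w (i * j) = wpow (wpow w i) j := by
  induction j with
  | zero => simp [wpow]
  | succ j ih =>
    rw [Nat.mul_succ, wpow_add, ih, wpow_succ']

/-- transformations of `Q`, composed from left to right -/
structure Tr (Q : Type) where
  /-- the underlying map -/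
  f : Q → Q

namespace Tr

variable {Q : Type}

theorem ext' {a b : Tr Q} (h : a.f = b.f) : a = b := by
  cases a; cases b; simp_all

instance : Monoid (Tr Q) where
  mul a b := ⟨fun q => b.f (a.f q)⟩
  one := ⟨id⟩
  mul_assoc := by intro a b c; rfl
  one_mul := by intro a; rfl
  mul_one := by intro a; rfl

theorem mul_f (a b : Tr Q) (q : Q) : (a * b).f q = b.f (a.f q) := rfl

theorem one_f (q : Q) : (1 : Tr Q).f q = q := rfl

instance [Finite Q] : Finite (Tr Q) :=
  Finite.of_injective (fun a : Tr Q => a.f) (fun _ _ h => ext' h)

end Tr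

variable {Q α : Type}

/-- the transformation induced by a letter -/
def trOf (step : Q → α → Q) (a : α) : Tr Q := ⟨fun q => step q a⟩

theorem trOf_prod (step : Q → α → Q) (w : List α) :
    (w.map (trOf step)).prod = ⟨fun q => run step q w⟩ := by
  induction w with
  | nil => rfl
  | cons a w ih =>
    rw [List.map_cons, List.prod_cons, ih]
    rfl

theorem run_wpow (step : Q → α → Q) (w : List α) (i : ℕ) (s : Q) :
    run step s (wpow w i) = (fun q => run step q w)^[i] s := by
  induction i generalizing s with
  | zero => rfl
  | succ i ih =>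
    show run step s (w ++ wpow w i) = _
    rw [run_append, ih, Function.iterate_succ_apply]

/-- a self-map of a finite set without nontrivial cycles stabilizes -/
theorem iterate_stabilizes [Finite Q] (g : Q → Q)
    (h : ∀ (s : Q) (i : ℕ), 0 < i → g^[i] s = s → g s = s) :
    ∀ s, g^[Nat.card Q + 1] s = g^[Nat.card Q] s := by
  classical
  haveI : Fintype Q := Fintype.ofFinite Q
  intro s
  have hcard : Fintype.card Q < Fintype.card (Fin (Nat.card Q + 1)) := by
    rw [Fintype.card_fin, Nat.card_eq_fintype_card]
    omega
  obtain ⟨x, y, hxy, hfx⟩ := Fintype.exists_ne_map_eq_of_card_lt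
    (fun j : Fin (Nat.card Q + 1) => g^[j.1] s) hcard
  have key : ∀ i j : ℕ, i < j → j ≤ Nat.card Q → g^[i] s = g^[j] s →
      g^[Nat.card Q + 1] s = g^[Nat.card Q] s := by
    intro i j hij hj he
    have hfix : g (g^[i] s) = g^[i] s := by
      apply h (g^[i] s) (j - i) (by omega)
      rw [← Function.iterate_add_apply, Nat.sub_add_cancel hij.le]
      exact he.symm
    have hall : ∀ n : ℕ, g^[n] (g^[i] s) = g^[i] s := fun n => Function.iterate_fixed hfix n
    have e1 : g^[Nat.card Q + 1] s = g^[Nat.card Q + 1 - i] (g^[i] s) := by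
      rw [← Function.iterate_add_apply]
      congr 1
      omega
    have e2 : g^[Nat.card Q] s = g^[Nat.card Q - i] (g^[i] s) := by
      rw [← Function.iterate_add_apply]
      congr 1
      omega
    rw [e1, e2, hall, hall]
  have hx := x.2
  have hy := y.2
  rcases Nat.lt_or_gt_of_ne (fun e => hxy (Fin.ext e)) with hlt | hgt
  · exact key x.1 y.1 hlt (by omega) hfx
  · exact key y.1 x.1 hgt (by omega) hfx.symm

/-- Schuetzenberger: the languages of a counter-free automaton are star-free -/
theorem starFree_of_counterFree [Finite Q] [Fintype α] (step : Q → α → Q)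
    (hcf : ∀ (w : List α) (s : Q) (i : ℕ), 0 < i → run step s (wpow w i) = s → run step s w = s)
    (s t : Q) : HasHeight 0 (pathLang step s t) := by
  classical
  let S : Submonoid (Tr Q) := Submonoid.closure (Set.range (trOf step))
  let φ : α → S := fun a => ⟨trOf step a, Submonoid.subset_closure ⟨a, rfl⟩⟩
  have hword : ∀ x : Tr Q, x ∈ S → ∃ w : List α, x = ⟨fun q => run step q w⟩ := by
    intro x hx
    induction hx using Submonoid.closure_induction with
    | mem x hx =>
      obtain ⟨a, rfl⟩ := hx
      exact ⟨[a], rfl⟩
    | one => exact ⟨[], rfl⟩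
    | mul x y _ _ ihx ihy =>
      obtain ⟨w₁, rfl⟩ := ihx
      obtain ⟨w₂, rfl⟩ := ihy
      refine ⟨w₁ ++ w₂, Tr.ext' ?_⟩
      funext q
      show run step (run step q w₁) w₂ = run step q (w₁ ++ w₂)
      rw [run_append]
  have hpow : ∀ (w : List α) (n : ℕ),
      (⟨fun q => run step q w⟩ : Tr Q) ^ n = ⟨fun q => run step q (wpow w n)⟩ := by
    intro w n
    induction n with
    | zero => rfl
    | succ n ih =>
      rw [pow_succ, ih]
      apply Tr.ext'
      funext q
      show run step (run step q (wpow w n)) w = run step q (wpow w (n + 1))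
      rw [wpow_succ', run_append]
  have hap : ∀ x : S, ∃ k : ℕ, x ^ (k + 1) = x ^ k := by
    intro x
    obtain ⟨w, hw⟩ := hword x.1 x.2
    refine ⟨Nat.card Q, Subtype.ext ?_⟩
    rw [SubmonoidClass.coe_pow, SubmonoidClass.coe_pow, hw, hpow, hpow]
    apply Tr.ext'
    funext q
    show run step q (wpow w (Nat.card Q + 1)) = run step q (wpow w (Nat.card Q))
    rw [run_wpow, run_wpow]
    apply iterate_stabilizes
    intro s' i hi he
    apply hcf w s' i hi
    rw [run_wpow]
    exact he
  have hval : ∀ w : List α, ((w.map φ).prod : S).1 = ⟨fun q => run step q w⟩ := by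
    intro w
    rw [Submonoid.coe_list_prod, List.map_map, ← trOf_prod]
    rfl
  haveI : Fintype S := Fintype.ofFinite S
  refine (HasHeight.biUnion (Finset.univ.filter (fun x : S => x.1.f s = t))
    (fun x => langOf fun w : List α => (w.map φ).prod = x)
    (fun x _ => starFree_of_aperiodic hap φ x)).congr ?_
  intro w
  rw [mem_pathLang, mem_langOf]
  constructor
  · intro h
    refine ⟨(w.map φ).prod, ?_, rfl⟩
    simp only [Finset.mem_filter, Finset.mem_univ, true_and]
    rw [hval]
    exact h
  · rintro ⟨x, hx, hw⟩
    simp only [Finset.mem_filter, Finset.mem_univ, true_and] at hx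
    have hw' : (w.map φ).prod = x := hw
    rw [← hw', hval] at hx
    exact hx

end Vale.Agent.Lib.P329
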