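import Vale.Agent.Lib.P329.CounterFree

/-!
# Cutting an automaton at a state, and counting marked transitions
-/

namespace Vale.Agent.Lib.P329

open Computability

variable {Q α : Type}

section Cut

variable [DecidableEq Q] (step : Q → α → Q) (p : Q)

/-- the automaton cut at `p`: a transition entering `p` leads to the state `some none`;
after it, and after the dead state `none`, every run is dead -/
def cutStep : Option (Option Q) → α → Option (Option Q)
  | some (some s), a => if step s a = p then some none else some (some (step s a))
  | _, _ => none

theorem run_cut_none (w : List α) : run (cutStep step p) none w = none := by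
  induction w with
  | nil => rfl
  | cons a w ih => exact ih

theorem run_cut_top (w : List α) (hw : w ≠ []) : run (cutStep step p) (some none) w = none := by
  cases w with
  | nil => exact absurd rfl hw
  | cons a w => exact run_cut_none step p w

theorem run_cut_cons_eq (s : Q) (a : α) (w : List α) (h : step s a = p) :
    run (cutStep step p) (some (some s)) (a :: w) = run (cutStep step p) (some none) w := by
  rw [run_cons]
  show run (cutStep step p) (if step s a = p then some none else some (some (step s a))) w = _
  rw [if_pos h]

theorem run_cut_cons_ne (s : Q) (a : α) (w : List α) (h : step s a ≠ p) :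
    run (cutStep step p) (some (some s)) (a :: w)
      = run (cutStep step p) (some (some (step s a))) w := by
  rw [run_cons]
  show run (cutStep step p) (if step s a = p then some none else some (some (step s a))) w = _
  rw [if_neg h]

/-- the words leading from `s` into `p`, entering `p` only at their end -/
def fstLang (s : Q) : Language α := pathLang (cutStep step p) (some (some s)) (some none)

/-- the words leading from `s` to `t` that never enter `p` -/
def avLang (s t : Q) : Language α := pathLang (cutStep step p) (some (some s)) (some (some t))

theorem fst_sound : ∀ (w : List α) (s : Q), w ∈ fstLang step p s → run step s w = p ∧ w ≠ [] := by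
  intro w
  induction w with
  | nil =>
    intro s h
    have h' : (some (some s) : Option (Option Q)) = some none := h
    simp at h'
  | cons a w ih =>
    intro s h
    refine ⟨?_, by simp⟩
    by_cases hp : step s a = p
    · have h' : run (cutStep step p) (some (some s)) (a :: w) = some none := h
      rw [run_cut_cons_eq step p s a w hp] at h'
      have hw : w = [] := by
        by_contra hne
        rw [run_cut_top step p w hne] at h'
        simp at h'
      subst hw
      simpa using hp
    · have h' : run (cutStep step p) (some (some s)) (a :: w) = some none := h
      rw [run_cut_cons_ne step p s a w hp] at h'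
      rw [run_cons]
      exact (ih (step s a) h').1

/-- a run in the cut automaton that stays alive is a run of the automaton, and it stays
alive and away from `p` at every moment -/
theorem av_split : ∀ (x y : List α) (s t : Q),
    run (cutStep step p) (some (some s)) (x ++ y) = some (some t) →
    run (cutStep step p) (some (some s)) x = some (some (run step s x)) ∧
      (x ≠ [] → run step s x ≠ p) := by
  intro x
  induction x with
  | nil => intro y s t _; exact ⟨rfl, fun h => absurd rfl h⟩
  | cons a x ih =>
    intro y s t h
    by_cases hp : step s a = p
    · rw [List.cons_append, run_cut_cons_eq step p s a _ hp] at h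
      by_cases hxy : x ++ y = []
      · rw [hxy] at h
        simp at h
      · rw [run_cut_top step p _ hxy] at h
        simp at h
    · rw [List.cons_append, run_cut_cons_ne step p s a _ hp] at h
      obtain ⟨h1, h2⟩ := ih y (step s a) t h
      rw [run_cut_cons_ne step p s a _ hp, run_cons]
      refine ⟨h1, fun _ => ?_⟩
      by_cases hx : x = []
      · subst hx
        simpa using hp
      · exact h2 hx

theorem av_sound (w : List α) (s t : Q) (h : w ∈ avLang step p s t) : run step s w = t := by
  have h' : run (cutStep step p) (some (some s)) (w ++ []) = some (some t) := by
    rw [List.append_nil]; exact h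
  have h1 := (av_split step p w [] s t h').1
  have h2 : run (cutStep step p) (some (some s)) w = some (some t) := h
  rw [h1] at h2
  simpa using h2

/-- a run either never enters `p`, or it has a first moment at which it enters `p` -/
theorem cut_cases : ∀ (w : List α) (s : Q),
    w ∈ avLang step p s (run step s w) ∨
      ∃ x y, w = x ++ y ∧ x ∈ fstLang step p s := by
  intro w
  induction w with
  | nil => intro s; exact Or.inl rfl
  | cons a w ih =>
    intro s
    by_cases hp : step s a = p
    · right
      refine ⟨[a], w, rfl, ?_⟩
      show run (cutStep step p) (some (some s)) [a] = some none
      rw [run_cut_cons_eq step p s a [] hp]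
      rfl
    · rcases ih (step s a) with h | ⟨x, y, rfl, hx⟩
      · left
        show run (cutStep step p) (some (some s)) (a :: w) = some (some (run step s (a :: w)))
        rw [run_cut_cons_ne step p s a w hp, run_cons]
        exact h
      · right
        refine ⟨a :: x, y, rfl, ?_⟩
        show run (cutStep step p) (some (some s)) (a :: x) = some none
        rw [run_cut_cons_ne step p s a x hp]
        exact hx

theorem stab_eq_kstar_fst : pathLang step p p = KStar.kstar (fstLang step p p) := by
  refine stab_eq_kstar step p (fun q => fstLang step p q) ?_ ?_
  · intro q h
    have h' : (some (some q) : Option (Option Q)) = some none := h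
    simp at h'
  · intro q a w
    show run (cutStep step p) (some (some q)) (a :: w) = some none ↔ _
    by_cases hp : step q a = p
    · rw [run_cut_cons_eq step p q a w hp]
      constructor
      · intro h
        left
        refine ⟨hp, ?_⟩
        by_contra hne
        rw [run_cut_top step p w hne] at h
        simp at h
      · rintro (⟨-, rfl⟩ | ⟨h, -⟩)
        · rfl
        · exact absurd hp h
    · rw [run_cut_cons_ne step p q a w hp]
      constructor
      · intro h
        right
        exact ⟨hp, h⟩
      · rintro (⟨h, -⟩ | ⟨-, h⟩)
        · exact absurd h hp
        · exact h

theorem path_from_base (t : Q) :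
    ∀ (n : ℕ) (y : List α), y.length ≤ n → run step p y = t →
      y ∈ KStar.kstar (fstLang step p p) * avLang step p p t := by
  intro n
  induction n with
  | zero =>
    intro y hy ht
    have hy0 : y = [] := List.length_eq_zero_iff.mp (by omega)
    subst hy0
    refine ⟨[], Language.nil_mem_kstar _, [], ?_, rfl⟩
    show run (cutStep step p) (some (some p)) [] = some (some t)
    have ht' : p = t := ht
    rw [← ht']
    rfl
  | succ n ih =>
    intro y hy ht
    rcases cut_cases step p y p with h | ⟨x, y', rfl, hx⟩
    · rw [ht] at h
      exact ⟨[], Language.nil_mem_kstar _, y, h, rfl⟩
    · obtain ⟨hxp, hxne⟩ := fst_sound step p x p hx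
      have hlen : y'.length ≤ n := by
        rw [List.length_append] at hy
        have : 0 < x.length := List.length_pos_iff.mpr hxne
        omega
      have hy' : run step p y' = t := by
        rw [run_append, hxp] at ht
        exact ht
      obtain ⟨k, hk, a, ha, rfl⟩ := ih y' hlen hy'
      refine ⟨x ++ k, ?_, a, ha, by simp⟩
      have hle : fstLang step p p * KStar.kstar (fstLang step p p)
          ≤ KStar.kstar (fstLang step p p) := mul_kstar_le_kstar
      exact hle (Language.append_mem_mul hx hk)

/-- decomposition of the words leading from `s` to `t` according to their visits of `p` -/
theorem pathLang_cut (s t : Q) :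
    pathLang step s t = avLang step p s t
      + fstLang step p s * (KStar.kstar (fstLang step p p) * avLang step p p t) := by
  ext w
  rw [Language.mem_add, mem_pathLang]
  constructor
  · intro h
    rcases cut_cases step p w s with h1 | ⟨x, y, rfl, hx⟩
    · left
      rw [h] at h1
      exact h1
    · right
      have hxp := (fst_sound step p x s hx).1
      have hy : run step p y = t := by
        rw [run_append, hxp] at h
        exact h
      exact ⟨x, hx, y, path_from_base step p t y.length y le_rfl hy, rfl⟩
  · rintro (h | ⟨x, hx, ky, ⟨k, hk, a, ha, rfl⟩, rfl⟩)
    · exact av_sound step p w s t h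
    · have hxp := (fst_sound step p x s hx).1
      have hk' : run step p k = p := by
        rw [← stab_eq_kstar_fst step p] at hk
        exact hk
      rw [run_append, run_append, hxp, hk']
      exact av_sound step p a p t ha

/-- the automaton has no cycle avoiding `p` other than fixed points -/
def CycleFree : Prop :=
  ∀ (w : List α) (s : Q) (i : ℕ), 0 < i → run step s (wpow w i) = s →
    (∀ x y, wpow w i = x ++ y → x ≠ [] → run step s x ≠ p) → run step s w = s

theorem cut_counterFree (h : CycleFree step p) (w : List α) (c : Option (Option Q)) (i : ℕ)
    (hi : 0 < i) (hc : run (cutStep step p) c (wpow w i) = c) : run (cutStep step p) c w = c := by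
  obtain ⟨j, rfl⟩ : ∃ j, i = j + 1 := ⟨i - 1, by omega⟩
  rcases c with _ | _ | s
  · exact run_cut_none step p w
  · by_cases hw : w = []
    · subst hw; rfl
    · have hne : wpow w (j + 1) ≠ [] := by
        show w ++ wpow w j ≠ []
        simp [hw]
      rw [run_cut_top step p _ hne] at hc
      simp at hc
  · have hc' : run (cutStep step p) (some (some s)) (wpow w (j + 1) ++ []) = some (some s) := by
      rw [List.append_nil]; exact hc
    have h1 := av_split step p (wpow w (j + 1)) [] s s hc'
    have hrun : run step s (wpow w (j + 1)) = s := by
      have := h1.1
      rw [hc] at this
      simpa using this.symm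
    have havoid : ∀ x y, wpow w (j + 1) = x ++ y → x ≠ [] → run step s x ≠ p := by
      intro x y hxy hx
      have hc'' : run (cutStep step p) (some (some s)) (x ++ y) = some (some s) := by
        rw [← hxy]; exact hc
      exact (av_split step p x y s s hc'').2 hx
    have hw := h w s (j + 1) hi hrun havoid
    have hc3 : run (cutStep step p) (some (some s)) (w ++ wpow w j) = some (some s) := hc
    rw [(av_split step p w (wpow w j) s s hc3).1, hw]

/-- if the automaton has no cycle avoiding `p` other than fixed points, then all its languages
have star height at most one -/
theorem hasHeight_of_cycleFree [Finite Q] [Fintype α] (h : CycleFree step p) (s t : Q) :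
    HasHeight 1 (pathLang step s t) := by
  have hcut : ∀ c c' : Option (Option Q), HasHeight 0 (pathLang (cutStep step p) c c') :=
    fun c c' => starFree_of_counterFree (cutStep step p) (cut_counterFree step p h) c c'
  rw [pathLang_cut step p s t]
  exact ((hcut _ _).mono (Nat.zero_le 1)).add
    (((hcut _ _).mono (Nat.zero_le 1)).mul ((hcut _ _).star.mul ((hcut _ _).mono (Nat.zero_le 1))))

end Cut

end Vale.Agent.Lib.P329
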