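import Mathlib

/-!
# Generalized regular expressions and their star height

Expressions over an alphabet `α` are built from the empty language, the empty word and the
letters by union, concatenation, complement (in the set of all words over `α`) and Kleene star.
-/

namespace Vale.Agent.Lib.P329

/-- Generalized regular expressions over the alphabet `α`. -/
inductive GRE (α : Type) : Type
  | zero : GRE α
  | one : GRE α
  | letter : α → GRE α
  | union : GRE α → GRE α → GRE α
  | concat : GRE α → GRE α → GRE α
  | compl : GRE α → GRE α
  | star : GRE α → GRE α

namespace GRE

variable {α : Type}

/-- The language denoted by an expression. The complement is taken in the set of all words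
over `α`. -/
def lang : GRE α → Language α
  | zero => 0
  | one => 1
  | letter a => {[a]}
  | union p q => lang p + lang q
  | concat p q => lang p * lang q
  | compl p => (lang p)ᶜ
  | star p => KStar.kstar (lang p)

/-- The star height of an expression: the maximal nesting depth of Kleene stars. -/
def height : GRE α → ℕ
  | zero => 0
  | one => 0
  | letter _ => 0
  | union p q => max (height p) (height q)
  | concat p q => max (height p) (height q)
  | compl p => height p
  | star p => height p + 1

end GRE

end Vale.Agent.Lib.P329
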