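import Vale.Agent.Lib.P329.Sandwich

/-!
# Groups with a commutative normal subgroup whose quotient is an elementary abelian group
-/

namespace Vale.Agent.Lib.P329

open Computability

section LevelCountLang

variable {H α : Type} [Group H] [Fintype H] [DecidableEq H] [Fintype α] [DecidableEq α]

/-- over a group in which every element other than one is a generator: the number of
occurrences of a letter at a given level, modulo `m`, is recognized with star height one -/
theorem hasHeight_levelCount (hgen : ∀ h : H, h ≠ 1 → ∀ g : H, ∃ t : ℕ, h ^ t = g)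
    (lv : α → H) (a : α) (q : H) (m : ℕ) [NeZero m] (c : ZMod m) :
    HasHeight 1 (langOf fun w : List α => ((levelCount lv a q 1 w : ℕ) : ZMod m) = c) := by
  have hM : Fintype.card H * m ≠ 0 := Nat.mul_ne_zero Fintype.card_ne_zero (NeZero.ne m)
  haveI : NeZero (Fintype.card H * m) := ⟨hM⟩
  let M := Fintype.card H * m
  let O : List α → (Unit × ZMod M) × (H →
      ((H × Bool) × ZMod M) × ((H × Bool) × ZMod M) × (H × ZMod M) × (H × ZMod M)) := fun w =>
    (run (cntStep unitStep (unitMark a) M) ((), 0) w, fun q =>
        (run (cntStep (flStep lv a q) (flMark lv a q true) M) ((1, false), 0) w,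
         run (cntStep (flStep lv a q) (flMark lv a q false) M) ((1, false), 0) w,
         run (cntStep (lvStep lv) (lvMark lv q (fun _ => true)) M) (1, 0) w,
         run (cntStep (lvStep lv) (lvMark lv q (naP lv a)) M) (1, 0) w))
  have hAllH : ∀ (q : H) (c c' : H × ZMod M),
      HasHeight 1 (pathLang (cntStep (lvStep lv) (lvMark lv q (fun _ => true)) M) c c') :=
    fun q c c' => hasHeight_cnt (lvStep lv) (lvMark lv q (fun _ => true)) q
      (lvMark_arrives lv q _) (lv_pure lv q _ (fun b h => by simp at h) hgen) M c c'
  have hNaH : ∀ (q : H) (c c' : H × ZMod M),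
      HasHeight 1 (pathLang (cntStep (lvStep lv) (lvMark lv q (naP lv a)) M) c c') :=
    fun q c c' => hasHeight_cnt (lvStep lv) (lvMark lv q (naP lv a)) q
      (lvMark_arrives lv q _) (lv_pure lv q _ (naP_spec lv a) hgen) M c c'
  have hFlH : ∀ (q : H) (β : Bool) (c c' : (H × Bool) × ZMod M),
      HasHeight 1 (pathLang (cntStep (flStep lv a q) (flMark lv a q β) M) c c') :=
    fun q β c c' => hasHeight_cnt (flStep lv a q) (flMark lv a q β) (q, false)
      (flMark_arrives lv a q β) (fl_pure lv a q β hgen) M c c'
  have hUH : ∀ (c c' : Unit × ZMod M),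
      HasHeight 1 (pathLang (cntStep unitStep (unitMark a) M) c c') :=
    fun c c' => hasHeight_cnt unitStep (unitMark a) () (fun _ _ _ => rfl) (unit_pure a) M c c'
  refine HasHeight.of_obs O ?_ _ ?_
  · intro v
    refine ((hUH ((), 0) v.1).inf (HasHeight.iInter _ (fun q =>
        (hFlH q true ((1, false), 0) (v.2 q).1).inf
          ((hFlH q false ((1, false), 0) (v.2 q).2.1).inf
            ((hAllH q (1, 0) (v.2 q).2.2.1).inf
              (hNaH q (1, 0) (v.2 q).2.2.2)))))).congr ?_
    intro w
    simp only [mem_langOf, Language.mem_inf, mem_pathLang]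
    constructor
    · intro h
      rw [← h]
      exact ⟨rfl, fun q => ⟨rfl, rfl, rfl, rfl⟩⟩
    · rintro ⟨h1, h2⟩
      refine Prod.ext h1 (funext fun q => ?_)
      obtain ⟨e1, e2, e3, e4⟩ := h2 q
      exact Prod.ext e1 (Prod.ext e2 (Prod.ext e3 e4))
  · intro w w' hO hw
    have hw1 : ((levelCount lv a q 1 w : ℕ) : ZMod m) = c := hw
    show ((levelCount lv a q 1 w' : ℕ) : ZMod m) = c
    have hcount : levelCount lv a q 1 w ≡ levelCount lv a q 1 w' [MOD m] := by
      apply count_determined hgen lv a m w w'
      · have h1 := congrArg (fun o => (o.1).2) hO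
        simp only [O, run_cnt, zero_add, dcount_unit] at h1
        exact h1
      · intro q'
        have h1 := congrArg (fun o => ((o.2 q').2.2.1).2) hO
        simp only [O, run_cnt, zero_add] at h1
        exact h1
      · intro q'
        have h1 := congrArg (fun o => ((o.2 q').2.2.2).2) hO
        simp only [O, run_cnt, zero_add] at h1
        exact h1
      · intro q'
        have h1 := congrArg (fun o => ((o.2 q').1).2) hO
        simp only [O, run_cnt, zero_add] at h1
        exact h1
      · intro q'
        have h1 := congrArg (fun o => ((o.2 q').2.1).2) hO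
        simp only [O, run_cnt, zero_add] at h1
        exact h1
      · intro q'
        have h1 := congrArg (fun o => (((o.2 q').1).1).2) hO
        simp only [O, run_cnt] at h1
        exact h1
    rw [← hw1]
    exact ((ZMod.natCast_eq_natCast_iff _ _ _).mpr hcount).symm

end LevelCountLang

section Push

variable {Q H α : Type} [Group Q] [Group H] [Fintype Q] [DecidableEq Q] [DecidableEq H]
  [DecidableEq α]

/-- the occurrences of a letter at a level of a quotient are its occurrences at the levels
above it -/
theorem levelCount_push (χ : Q →* H) (lv : α → Q) (a : α) (r : H) :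
    ∀ (w : List α) (l : Q),
      levelCount (fun b => χ (lv b)) a r (χ l) w
        = ∑ q' : Q, if χ q' = r then levelCount lv a q' l w else 0 := by
  intro w
  induction w with
  | nil =>
    intro l
    simp [levelCount, dcount]
  | cons b w ih =>
    intro l
    rw [levelCount_cons, ← map_mul, ih (l * lv b)]
    have hsplit : ∀ q' : Q, (if χ q' = r then levelCount lv a q' l (b :: w) else 0)
        = (if χ q' = r then (if l = q' ∧ b = a then 1 else 0) else 0)
          + (if χ q' = r then levelCount lv a q' (l * lv b) w else 0) := by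
      intro q'
      rw [levelCount_cons]
      split_ifs <;> simp
    rw [Finset.sum_congr rfl (fun q' _ => hsplit q'), Finset.sum_add_distrib]
    congr 1
    rw [Finset.sum_eq_single l]
    · by_cases h1 : χ l = r <;> by_cases h2 : b = a <;> simp [h1, h2]
    · intro q' _ hne
      have hno : ¬ (l = q' ∧ b = a) := fun h => hne h.1.symm
      simp [hno]
    · intro h
      exact absurd (Finset.mem_univ l) h

end Push

section Chars

theorem exists_dual_ne_zero_aux (p : ℕ) [Fact p.Prime] {V : Type} [AddCommGroup V]
    [Module (ZMod p) V] (v : V) (hv : v ≠ 0) : ∃ φ : V →+ ZMod p, φ v ≠ 0 := by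
  let b := Module.Free.chooseBasis (ZMod p) V
  have hne : b.repr v ≠ 0 := by
    intro h
    exact hv (b.repr.map_eq_zero_iff.mp h)
  obtain ⟨i, hi⟩ := Finsupp.ne_iff.mp hne
  exact ⟨(b.coord i).toAddMonoidHom, by simpa using hi⟩

/-- in a commutative group of prime exponent `p`, the morphisms to the cyclic group of order
`p` separate the points -/
theorem exists_char_ne_one {Q : Type} [CommGroup Q] (p : ℕ) [Fact p.Prime]
    (hexp : ∀ x : Q, x ^ p = 1) (v : Q) (hv : v ≠ 1) :
    ∃ χ : Q →* Multiplicative (ZMod p), χ v ≠ 1 := by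
  have hv' : Additive.ofMul v ≠ 0 := by
    intro h
    exact hv (by simpa using h)
  obtain ⟨φ, hφ⟩ := @exists_dual_ne_zero_aux p _ (Additive Q) _
    (AddCommGroup.zmodModule (fun x => congrArg Additive.ofMul (hexp x.toMul)))
    (Additive.ofMul v) hv'
  refine ⟨AddMonoidHom.toMultiplicativeRight φ, ?_⟩
  intro h
  apply hφ
  have h3 : Multiplicative.ofAdd (φ (Additive.ofMul v)) = 1 := h
  simpa using h3

/-- exactly one morphism in `p` sends a given element other than one to one -/
theorem card_char_ker {Q : Type} [CommGroup Q] (p : ℕ) [Fact p.Prime]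
    (hexp : ∀ x : Q, x ^ p = 1) [Fintype (Q →* Multiplicative (ZMod p))] (v : Q) (hv : v ≠ 1) :
    p * (Finset.univ.filter (fun χ : Q →* Multiplicative (ZMod p) => χ v = 1)).card
      = Fintype.card (Q →* Multiplicative (ZMod p)) := by
  classical
  let ev : (Q →* Multiplicative (ZMod p)) →* Multiplicative (ZMod p) := MonoidHom.eval v
  have hcardH : Nat.card (Multiplicative (ZMod p)) = p := by
    rw [Nat.card_eq_fintype_card, Fintype.card_multiplicative, ZMod.card]
  have hrange : ev.range = ⊤ := by
    haveI : Fact (Nat.card (Multiplicative (ZMod p))).Prime := by rw [hcardH]; infer_instance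
    rcases Subgroup.eq_bot_or_eq_top_of_prime_card ev.range with h | h
    · exfalso
      obtain ⟨χ, hχ⟩ := exists_char_ne_one p hexp v hv
      have hmem : ev χ ∈ ev.range := ⟨χ, rfl⟩
      rw [h, Subgroup.mem_bot] at hmem
      exact hχ hmem
    · exact h
  have h1 := Subgroup.card_mul_index ev.ker
  rw [Subgroup.index_ker, hrange] at h1
  have h2 : Nat.card (⊤ : Subgroup (Multiplicative (ZMod p))) = p := by
    rw [Subgroup.card_top, hcardH]
  rw [h2] at h1
  have h3 : Nat.card ev.ker
      = (Finset.univ.filter (fun χ : Q →* Multiplicative (ZMod p) => χ v = 1)).card := by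
    rw [Nat.card_eq_fintype_card, ← Fintype.card_subtype]
    apply Fintype.card_congr
    exact Equiv.subtypeEquivRight (fun χ => by rw [MonoidHom.mem_ker]; rfl)
  rw [← h3, mul_comm, h1, Nat.card_eq_fintype_card]

variable {Q α : Type} [CommGroup Q] [Fintype Q] [DecidableEq Q] [DecidableEq α]

/-- the numbers of occurrences of a letter at the levels of the quotients of prime order
determine its number of occurrences at each level -/
theorem char_count_identity (p : ℕ) [Fact p.Prime] (hexp : ∀ x : Q, x ^ p = 1)
    [Fintype (Q →* Multiplicative (ZMod p))] (lv : α → Q) (a : α) (q : Q) (w : List α) :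
    p * ∑ χ : Q →* Multiplicative (ZMod p), levelCount (fun b => χ (lv b)) a (χ q) 1 w
      = Fintype.card (Q →* Multiplicative (ZMod p))
          * ((p - 1) * levelCount lv a q 1 w + w.count a) := by
  classical
  have hp1 : 1 ≤ p := (Fact.out : p.Prime).one_lt.le
  have hpush : ∀ χ : Q →* Multiplicative (ZMod p),
      levelCount (fun b => χ (lv b)) a (χ q) 1 w
        = ∑ q' : Q, if χ q' = χ q then levelCount lv a q' 1 w else 0 := by
    intro χ
    have h := levelCount_push χ lv a (χ q) w 1
    rwa [map_one] at h
  rw [Finset.sum_congr rfl (fun χ _ => hpush χ), Finset.sum_comm, Finset.mul_sum]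
  have hterm : ∀ q' : Q, p * ∑ χ : Q →* Multiplicative (ZMod p),
      (if χ q' = χ q then levelCount lv a q' 1 w else 0)
      = Fintype.card (Q →* Multiplicative (ZMod p)) *
          ((if q' = q then (p - 1) * levelCount lv a q 1 w else 0)
            + levelCount lv a q' 1 w) := by
    intro q'
    rw [← Finset.sum_filter, Finset.sum_const, smul_eq_mul]
    by_cases hq : q' = q
    · subst hq
      rw [if_pos rfl, Finset.filter_true_of_mem (fun _ _ => rfl), Finset.card_univ]
      have e : (p - 1) * levelCount lv a q' 1 w + levelCount lv a q' 1 w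
          = p * levelCount lv a q' 1 w := by
        obtain ⟨r, rfl⟩ : ∃ r, p = r + 1 := ⟨p - 1, by omega⟩
        simp only [Nat.add_sub_cancel]
        ring
      rw [e]
      ring
    · have hv : q' * q⁻¹ ≠ 1 := by
        intro h
        exact hq (mul_inv_eq_one.mp h)
      have hk := card_char_ker p hexp (q' * q⁻¹) hv
      have hfilter : (Finset.univ.filter (fun χ : Q →* Multiplicative (ZMod p) => χ q' = χ q))
          = Finset.univ.filter (fun χ : Q →* Multiplicative (ZMod p) => χ (q' * q⁻¹) = 1) := by
        ext χ
        simp only [Finset.mem_filter, Finset.mem_univ, true_and, map_mul, map_inv,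
          mul_inv_eq_one]
      rw [hfilter, ← mul_assoc, hk, if_neg hq, zero_add]
  rw [Finset.sum_congr rfl (fun q' _ => hterm q'), ← Finset.mul_sum, Finset.sum_add_distrib,
    Finset.sum_ite_eq' Finset.univ q, sum_levelCount]
  simp

theorem levelCount_determined_of_chars (p : ℕ) [Fact p.Prime] (hexp : ∀ x : Q, x ^ p = 1)
    [Fintype (Q →* Multiplicative (ZMod p))] (lv : α → Q) (a : α) (m : ℕ) (w w' : List α)
    (hY : ∀ (χ : Q →* Multiplicative (ZMod p)) (r : Multiplicative (ZMod p)),
      ((levelCount (fun b => χ (lv b)) a r 1 w : ℕ) :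
          ZMod ((p - 1) * Fintype.card (Q →* Multiplicative (ZMod p)) * m))
        = (levelCount (fun b => χ (lv b)) a r 1 w' : ℕ))
    (q : Q) : levelCount lv a q 1 w ≡ levelCount lv a q 1 w' [MOD m] := by
  classical
  have hp2 : 2 ≤ p := (Fact.out : p.Prime).two_le
  set X := Fintype.card (Q →* Multiplicative (ZMod p)) with hX
  have hXpos : 0 < X := Fintype.card_pos
  have hcount : ((w.count a : ℕ) : ZMod ((p - 1) * X * m)) = (w'.count a : ℕ) := by
    have e1 := sum_levelCount (fun b => (1 : Q →* Multiplicative (ZMod p)) (lv b)) a w 1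
    have e2 := sum_levelCount (fun b => (1 : Q →* Multiplicative (ZMod p)) (lv b)) a w' 1
    rw [← e1, ← e2, Nat.cast_sum, Nat.cast_sum]
    exact Finset.sum_congr rfl (fun r _ => hY 1 r)
  have i1 := congrArg (fun n : ℕ => (n : ZMod ((p - 1) * X * m)))
    (char_count_identity p hexp lv a q w)
  have i2 := congrArg (fun n : ℕ => (n : ZMod ((p - 1) * X * m)))
    (char_count_identity p hexp lv a q w')
  simp only [Nat.cast_mul, Nat.cast_add, Nat.cast_sum] at i1 i2
  rw [Finset.sum_congr rfl (fun χ _ => hY χ (χ q)), i2, hcount] at i1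
  have e3 : (((p - 1) * X * levelCount lv a q 1 w : ℕ) : ZMod ((p - 1) * X * m))
      = ((p - 1) * X * levelCount lv a q 1 w' : ℕ) := by
    push_cast
    linear_combination -i1
  have hne : (p - 1) * X ≠ 0 := Nat.mul_ne_zero (by omega) hXpos.ne'
  exact Nat.ModEq.mul_left_cancel' hne ((ZMod.natCast_eq_natCast_iff _ _ _).mp e3)

end Chars

/-- Every language recognized by a finite group that has a commutative normal subgroup whose
quotient is a commutative group of prime exponent has generalized star height at most one. -/
theorem hasHeight_of_abelian_elementary {G : Type} [Group G] [Finite G] (N : Subgroup G)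
    [N.Normal] (hN : ∀ a ∈ N, ∀ b ∈ N, a * b = b * a) (p : ℕ) (hp : p.Prime)
    (hcomm : ∀ x y : G, x * y * x⁻¹ * y⁻¹ ∈ N) (hexp : ∀ x : G, x ^ p ∈ N) {α : Type}
    [Fintype α] (f : α → G) (S : Set G) :
    HasHeight 1 (langOf fun w : List α => (w.map f).prod ∈ S) := by
  classical
  haveI : Fact p.Prime := ⟨hp⟩
  haveI : Fintype (G ⧸ N) := Fintype.ofFinite _
  have hmulcomm : ∀ a b : G ⧸ N, a * b = b * a := by
    intro a b
    induction a using QuotientGroup.induction_on with
    | H x =>
      induction b using QuotientGroup.induction_on with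
      | H y =>
        rw [← QuotientGroup.mk_mul, ← QuotientGroup.mk_mul]
        apply (QuotientGroup.eq).mpr
        have h := hcomm x⁻¹ y⁻¹
        have e : (x * y)⁻¹ * (y * x) = (x⁻¹ * y⁻¹ * x⁻¹⁻¹ * y⁻¹⁻¹)⁻¹ := by group
        rw [e]
        exact N.inv_mem h
  letI : CommGroup (G ⧸ N) := { (inferInstance : Group (G ⧸ N)) with mul_comm := hmulcomm }
  have hexpQ : ∀ x : G ⧸ N, x ^ p = 1 := by
    intro x
    induction x using QuotientGroup.induction_on with
    | H y =>
      rw [← QuotientGroup.mk_pow]
      exact (QuotientGroup.eq_one_iff _).mpr (hexp y)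
  haveI : Finite ((G ⧸ N) →* Multiplicative (ZMod p)) :=
    Finite.of_injective (fun χ : (G ⧸ N) →* Multiplicative (ZMod p) =>
      (χ : G ⧸ N → Multiplicative (ZMod p))) DFunLike.coe_injective
  haveI : Fintype ((G ⧸ N) →* Multiplicative (ZMod p)) := Fintype.ofFinite _
  have hcardH : Nat.card (Multiplicative (ZMod p)) = p := by
    rw [Nat.card_eq_fintype_card, Fintype.card_multiplicative, ZMod.card]
  have hgen : ∀ h : Multiplicative (ZMod p), h ≠ 1 → ∀ g : Multiplicative (ZMod p),
      ∃ t : ℕ, h ^ t = g := by
    intro h hh g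
    exact (Submonoid.mem_powers_iff _ _).mp (mem_powers_of_prime_card hcardH hh)
  have hMne : (p - 1) * Fintype.card ((G ⧸ N) →* Multiplicative (ZMod p)) * Nat.card G ≠ 0 :=
    Nat.mul_ne_zero (Nat.mul_ne_zero (by have := hp.two_le; omega) Fintype.card_ne_zero)
      (Nat.card_pos).ne'
  haveI : NeZero ((p - 1) * Fintype.card ((G ⧸ N) →* Multiplicative (ZMod p)) * Nat.card G) :=
    ⟨hMne⟩
  let M := (p - 1) * Fintype.card ((G ⧸ N) →* Multiplicative (ZMod p)) * Nat.card G
  let lv : α → G ⧸ N := lvOf N f
  let O : List α → (((G ⧸ N) →* Multiplicative (ZMod p)) → Multiplicative (ZMod p)) ×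
      ((((G ⧸ N) →* Multiplicative (ZMod p)) × α × Multiplicative (ZMod p)) → ZMod M) :=
    fun w => (fun χ => (w.map (fun b => χ (lv b))).prod,
      fun t => ((levelCount (fun b => t.1 (lv b)) t.2.1 t.2.2 1 w : ℕ) : ZMod M))
  refine HasHeight.of_obs O ?_ _ ?_
  · intro v
    have h1 : ∀ χ : (G ⧸ N) →* Multiplicative (ZMod p),
        HasHeight 1 (langOf fun w : List α => (w.map (fun b => χ (lv b))).prod = v.1 χ) := by
      intro χ
      have hidx : (⊥ : Subgroup (Multiplicative (ZMod p))).index.Prime := by
        rw [Subgroup.index_bot, hcardH]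
        exact hp
      exact (hasHeight_of_abelian_prime_index (⊥ : Subgroup (Multiplicative (ZMod p)))
        (fun a _ b _ => mul_comm a b) hidx (fun b => χ (lv b)) {v.1 χ}).congr (fun w => Iff.rfl)
    have h2 : ∀ t : ((G ⧸ N) →* Multiplicative (ZMod p)) × α × Multiplicative (ZMod p),
        HasHeight 1 (langOf fun w : List α =>
          ((levelCount (fun b => t.1 (lv b)) t.2.1 t.2.2 1 w : ℕ) : ZMod M) = v.2 t) :=
      fun t => hasHeight_levelCount hgen (fun b => t.1 (lv b)) t.2.1 t.2.2 M (v.2 t)
    refine ((HasHeight.iInter _ h1).inf (HasHeight.iInter _ h2)).congr ?_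
    intro w
    simp only [mem_langOf, Language.mem_inf]
    constructor
    · intro h
      rw [← h]
      exact ⟨fun χ => rfl, fun t => rfl⟩
    · rintro ⟨e1, e2⟩
      exact Prod.ext (funext e1) (funext e2)
  · intro w w' hO hw
    have hw1 : (w.map f).prod ∈ S := hw
    show (w'.map f).prod ∈ S
    have hlevel : (((w.map f).prod : G) : G ⧸ N) = (((w'.map f).prod : G) : G ⧸ N) := by
      rw [← lvOf_prod N f w, ← lvOf_prod N f w']
      by_contra hne
      have hv : (w.map (lvOf N f)).prod * ((w'.map (lvOf N f)).prod)⁻¹ ≠ 1 := by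
        intro h
        exact hne (mul_inv_eq_one.mp h)
      obtain ⟨χ, hχ⟩ := exists_char_ne_one p hexpQ _ hv
      apply hχ
      have h1 := congrFun (congrArg Prod.fst hO) χ
      have h2 : (w.map (fun b => χ (lv b))).prod = (w'.map (fun b => χ (lv b))).prod := h1
      have e : ∀ u : List α, (u.map (fun b => χ (lv b))).prod = χ ((u.map (lvOf N f)).prod) := by
        intro u
        rw [map_list_prod, List.map_map]
        rfl
      rw [e w, e w'] at h2
      rw [map_mul, map_inv, h2, mul_inv_cancel]
    have hcounts : ∀ (a : α) (q : G ⧸ N),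
        levelCount lv a q 1 w ≡ levelCount lv a q 1 w' [MOD Nat.card G] := by
      intro a q
      apply levelCount_determined_of_chars p hexpQ lv a (Nat.card G) w w'
      intro χ r
      exact congrFun (congrArg Prod.snd hO) (χ, a, r)
    rw [← word_determined_gen N hN f w w' hlevel hcounts]
    exact hw1

/-- the Cayley automaton of a group with a commutative normal subgroup whose quotient is
commutative of prime exponent: all its languages have star height at most one -/
theorem mulStep_allH_of_abelian_elementary {G : Type} [Group G] [Finite G] (N : Subgroup G)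
    [N.Normal] (hN : ∀ a ∈ N, ∀ b ∈ N, a * b = b * a) (p : ℕ) (hp : p.Prime)
    (hcomm : ∀ x y : G, x * y * x⁻¹ * y⁻¹ ∈ N) (hexp : ∀ x : G, x ^ p ∈ N) {α : Type}
    [Fintype α] (f : α → G) : AllH (mulStep f) := by
  intro g g'
  refine (hasHeight_of_abelian_elementary N hN p hp hcomm hexp f {x | g * x = g'}).congr ?_
  intro w
  rw [mem_pathLang, run_mulStep, mem_langOf]
  rfl

/-- Star-free conditions on the word labelled by the values of its prefixes in a finite group
with a commutative normal subgroup whose quotient is commutative of prime exponent, in a finite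
aperiodic monoid, and by their twisted weights in a finite commutative group: star height at
most one. -/
theorem hasHeight_starFree_over_labels_elementary {G : Type} [Group G] [Finite G]
    (N : Subgroup G) [N.Normal] (hN : ∀ a ∈ N, ∀ b ∈ N, a * b = b * a) (p : ℕ) (hp : p.Prime)
    (hcomm : ∀ x y : G, x * y * x⁻¹ * y⁻¹ ∈ N) (hexp : ∀ x : G, x ^ p ∈ N)
    {M : Type} [Monoid M] [Finite M] (hap : ∀ x : M, ∃ k : ℕ, x ^ (k + 1) = x ^ k)
    {H : Type} [CommGroup H] [Finite H] {α : Type} [Fintype α] (f : α → G) (φ : α → M)
    (wt : M → α → H) (K : GRE ((G × M × H) × α)) (hK : K.height = 0) :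
    HasHeight 1 (langOf fun w : List α =>
      (w.inits.zip w).map (fun p => (((p.1.map f).prod, (p.1.map φ).prod,
        ((p.1.inits.zip p.1).map (fun r => wt ((r.1.map φ).prod) r.2)).prod), p.2)) ∈ K.lang) := by
  classical
  haveI : Fintype G := Fintype.ofFinite G
  haveI : Fintype M := Fintype.ofFinite M
  haveI : Fintype H := Fintype.ofFinite H
  refine (hasHeight_dec_expr (prodStep (mulStep f) (whStep φ wt))
    (prodStep_allH _ _ (mulStep_allH_of_abelian_elementary N hN p hp hcomm hexp f)
      (whStep_allH hap φ wt)) K hK (1, (1, 1))).congr ?_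
  intro w
  rw [mem_langOf, mem_langOf, dec_eq_inits]
  have hfun : (fun p : List α × α => (run (prodStep (mulStep f) (whStep φ wt)) (1, (1, 1)) p.1, p.2))
      = (fun p : List α × α => (((p.1.map f).prod, (p.1.map φ).prod,
        ((p.1.inits.zip p.1).map (fun r => wt ((r.1.map φ).prod) r.2)).prod), p.2)) := by
    funext p
    rw [run_prodStep, run_mulStep, run_whStep, one_mul, one_mul, one_mul]
    have e := twist_eq_inits φ wt p.1 1
    simp only [one_mul] at e
    rw [e]
  rw [hfun]

end Vale.Agent.Lib.P329
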