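import Vale.Agent.Lib.P329.Main

/-!
# Groups with a normal subgroup of exponent two and index three; the alternating group on
four letters
-/

namespace Vale.Agent.Lib.P329

theorem hasHeight_of_normal_index_three {G : Type} [Group G] (N : Subgroup G) [N.Normal]
    (hN : ∀ g ∈ N, g * g = 1) (hidx : N.index = 3) {α : Type} [Fintype α] (f : α → G)
    (S : Set G) : HasHeight 1 (langOf fun w : List α => (w.map f).prod ∈ S) := by
  have hcard : Nat.card (G ⧸ N) = 3 := by
    rw [← Subgroup.index_eq_card]; exact hidx
  have hc : IsCyclic (G ⧸ N) := by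
    haveI : Fact (Nat.Prime 3) := ⟨by norm_num⟩
    exact isCyclic_of_prime_card hcard
  have hgen : ∀ n : ℕ, Nat.card (G ⧸ N) = n → Nonempty (Multiplicative (ZMod n) ≃* G ⧸ N) := by
    rintro n rfl
    exact ⟨zmodCyclicMulEquiv hc⟩
  obtain ⟨e⟩ := hgen 3 hcard
  refine hasHeight_of_level
    (fun g => Multiplicative.toAdd (e.symm (QuotientGroup.mk g))) ?_ ?_ f S
  · intro g h
    simp [QuotientGroup.mk_mul, map_mul, toAdd_mul]
  · intro g hg
    apply hN
    have h1 : e.symm (QuotientGroup.mk g) = 1 := by
      apply Multiplicative.toAdd.injective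
      simpa using hg
    have h2 : (QuotientGroup.mk g : G ⧸ N) = 1 := by
      simpa using h1
    exact (QuotientGroup.eq_one_iff g).mp h2

theorem hasHeight_alternatingFour {α : Type} [Fintype α] (f : α → alternatingGroup (Fin 4))
    (S : Set (alternatingGroup (Fin 4))) :
    HasHeight 1 (langOf fun w : List α => (w.map f).prod ∈ S) := by
  have h4 : Nat.card (Fin 4) = 4 := by simp
  haveI := alternatingGroup.normal_kleinFour h4
  refine hasHeight_of_normal_index_three (alternatingGroup.kleinFour (Fin 4)) ?_ ?_ f S
  · intro g hg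
    have hexp := alternatingGroup.exponent_kleinFour_of_card_eq_four h4
    have h1 := Monoid.pow_exponent_eq_one (⟨g, hg⟩ : alternatingGroup.kleinFour (Fin 4))
    rw [hexp] at h1
    have h2 : g ^ 2 = 1 := by
      simpa using congrArg Subtype.val h1
    rw [← pow_two]
    exact h2
  · have h1 := Subgroup.card_mul_index (alternatingGroup.kleinFour (Fin 4))
    rw [alternatingGroup.kleinFour_card_of_card_eq_four h4,
      alternatingGroup.card_of_card_eq_four h4] at h1
    omega

end Vale.Agent.Lib.P329
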