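import Vale.Agent.Lib.P329.Elementary

/-!
# Level automata over a cyclic group when every letter has level one or a fixed generator
-/

namespace Vale.Agent.Lib.P329

open Computability

section Moving

variable {H α : Type} [Group H] [DecidableEq H]

/-- the number of letters of nontrivial level -/
def mvCount (lv : α → H) (w : List α) : ℕ := w.countP (fun b => decide (lv b ≠ 1))

theorem mvCount_nil (lv : α → H) : mvCount lv ([] : List α) = 0 := rfl

theorem mvCount_cons (lv : α → H) (b : α) (w : List α) :
    mvCount lv (b :: w) = mvCount lv w + (if lv b ≠ 1 then 1 else 0) := by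
  unfold mvCount
  rw [List.countP_cons]
  by_cases h : lv b = 1 <;> simp [h]

theorem prod_eq_pow_mvCount (lv : α → H) (g : H) (hlv : ∀ b, lv b = 1 ∨ lv b = g) :
    ∀ w : List α, (w.map lv).prod = g ^ mvCount lv w := by
  intro w
  induction w with
  | nil => simp [mvCount_nil]
  | cons b w ih =>
    rw [List.map_cons, List.prod_cons, ih, mvCount_cons]
    rcases hlv b with h | h
    · rw [h, one_mul]
      simp
    · by_cases h1 : lv b = 1
      · rw [h1, one_mul]
        simp [h1]
      · rw [if_pos h1, h, pow_succ']

/-- the letter of nontrivial level with a given rank -/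
theorem split_moving (lv : α → H) (g : H) (hlv : ∀ b, lv b = 1 ∨ lv b = g) :
    ∀ (w : List α) (r : ℕ), r < mvCount lv w →
      ∃ x b y, w = x ++ b :: y ∧ lv b ≠ 1 ∧ (x.map lv).prod = g ^ r := by
  intro w
  induction w with
  | nil =>
    intro r hr
    simp [mvCount_nil] at hr
  | cons b w ih =>
    intro r hr
    rw [mvCount_cons] at hr
    by_cases h1 : lv b = 1
    · rw [if_neg (by simpa using h1)] at hr
      obtain ⟨x, b', y, rfl, hb', hx⟩ := ih r (by omega)
      refine ⟨b :: x, b', y, rfl, hb', ?_⟩
      rw [List.map_cons, List.prod_cons, h1, one_mul, hx]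
    · rw [if_pos h1] at hr
      cases r with
      | zero => exact ⟨[], b, w, rfl, h1, by simp⟩
      | succ r =>
        obtain ⟨x, b', y, rfl, hb', hx⟩ := ih r (by omega)
        refine ⟨b :: x, b', y, rfl, hb', ?_⟩
        have hb : lv b = g := by
          rcases hlv b with h | h
          · exact absurd h h1
          · exact h
        rw [List.map_cons, List.prod_cons, hb, hx, pow_succ']

variable [DecidableEq α]

/-- if every letter has level one or `g`, and `g` generates the group, then the cycles of the
level automaton that do not arrive at level `q` by a letter of nontrivial level are fixed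
points -/
theorem lv_pure_gen (lv : α → H) (g : H) (hlv : ∀ b, lv b = 1 ∨ lv b = g)
    (hg : ∀ h : H, ∃ d : ℕ, g ^ d = h) (q : H) (P : α → Bool)
    (hP : ∀ b, P b = false → lv b = 1) : Pure (lvStep lv) (lvMark lv q P) := by
  intro w l i hi hrun hd
  rw [run_lvStep]
  suffices hw : (w.map lv).prod = 1 by rw [hw, mul_one]
  by_contra hne
  rw [prod_eq_pow_mvCount lv g hlv] at hne
  set t := mvCount lv w with ht
  have htpos : 0 < t := by
    rcases Nat.eq_zero_or_pos t with h | h
    · rw [h, pow_zero] at hne
      exact absurd rfl hne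
    · exact h
  -- the power `w ^ i` has trivial level
  have hcyc : g ^ (t * i) = 1 := by
    rw [run_lvStep, prod_wpow, prod_eq_pow_mvCount lv g hlv, ← ht, ← pow_mul] at hrun
    exact mul_eq_left.mp hrun
  -- a positive exponent leading from `l` to `q`
  obtain ⟨d, hdpos, hdq⟩ : ∃ d : ℕ, 0 < d ∧ l * g ^ d = q := by
    obtain ⟨d0, hd0⟩ := hg (l⁻¹ * q)
    rcases Nat.eq_zero_or_pos d0 with h | h
    · refine ⟨t * i, Nat.mul_pos htpos hi, ?_⟩
      rw [hcyc, mul_one]
      rw [h, pow_zero] at hd0
      have : l * 1 = l * (l⁻¹ * q) := by rw [hd0]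
      simpa using this
    · exact ⟨d0, h, by rw [hd0, mul_inv_cancel_left]⟩
  obtain ⟨x, b, y, hwxy, hb, hx⟩ := split_moving lv g hlv w ((d - 1) % t) (Nat.mod_lt _ htpos)
  have hbg : lv b = g := by
    rcases hlv b with h | h
    · exact absurd h hb
    · exact h
  have hPb : P b = true := by
    by_contra hf
    exact hb (hP b (by simpa using hf))
  have h0 := cycle_dcount_from (lvStep lv) (lvMark lv q P) w l i hi hrun hd ((d - 1) / t) 1
  rw [wpow_one] at h0
  rw [hwxy] at h0
  have hm := dcount_zero_mark (lvStep lv) (lvMark lv q P) _ x b y h0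
  rw [run_lvStep, run_lvStep, prod_wpow, ← hwxy, prod_eq_pow_mvCount lv g hlv w, ← ht, hx] at hm
  unfold lvMark at hm
  rw [hPb, hbg] at hm
  have harr : l * (g ^ t) ^ ((d - 1) / t) * g ^ ((d - 1) % t) * g = q := by
    rw [← pow_mul, mul_assoc, mul_assoc, ← pow_succ, ← pow_add, ← hdq]
    congr 2
    have := Nat.div_add_mod (d - 1) t
    omega
  simp [harr] at hm

/-- the occurrences of a letter at level `q` are the arrivals of that letter at the next
level -/
theorem levelCount_eq_arrivals (lv : α → H) (c : α) (q : H) :
    ∀ (w : List α) (l : H),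
      levelCount lv c q l w
        = dcount (lvStep lv) (lvMark lv (q * lv c) (fun b => decide (b = c))) l w := by
  intro w
  induction w with
  | nil => intro l; rfl
  | cons b w ih =>
    intro l
    rw [levelCount_cons, ih (l * lv b)]
    show _ = (if lvMark lv (q * lv c) (fun b => decide (b = c)) l b then 1 else 0)
      + dcount (lvStep lv) (lvMark lv (q * lv c) (fun b => decide (b = c))) (lvStep lv l b) w
    congr 1
    unfold lvMark
    by_cases h2 : b = c
    · subst h2
      by_cases h1 : l = q <;> simp [h1]
    · simp [h2]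

end Moving

section OneGenerator

variable {H β : Type} [Group H] [Fintype H] [DecidableEq H] [Fintype β] [DecidableEq β]

/-- counting modulo `m` the arrivals at a level by letters of a set containing all the letters
of nontrivial level, when every letter has level one or a fixed generator -/
theorem hasHeight_arrivals_gen (lv : β → H) (g : H) (hlv : ∀ b, lv b = 1 ∨ lv b = g)
    (hg : ∀ h : H, ∃ d : ℕ, g ^ d = h) (q : H) (P : β → Bool)
    (hP : ∀ b, P b = false → lv b = 1) (m : ℕ) [NeZero m] (r : ZMod m) :
    HasHeight 1 (langOf fun w : List β =>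
      ((dcount (lvStep lv) (lvMark lv q P) 1 w : ℕ) : ZMod m) = r) := by
  have hall : AllH (cntStep (lvStep lv) (lvMark lv q P) m) :=
    fun c c' => hasHeight_cnt (lvStep lv) (lvMark lv q P) q (lvMark_arrives lv q P)
      (lv_pure_gen lv g hlv hg q P hP) m c c'
  refine (hall.set (1, 0) {x | x.2 = r}).congr ?_
  intro w
  rw [mem_langOf, mem_langOf, run_cnt]
  show _ ↔ (0 : ZMod m) + _ = r
  rw [zero_add]

/-- the level reached by a word -/
theorem hasHeight_level_gen (lv : β → H) (g : H) (hlv : ∀ b, lv b = 1 ∨ lv b = g)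
    (hg : ∀ h : H, ∃ d : ℕ, g ^ d = h) (h : H) :
    HasHeight 1 (langOf fun w : List β => (w.map lv).prod = h) := by
  have hall : AllH (cntStep (lvStep lv) (lvMark lv 1 (fun _ => true)) 1) :=
    fun c c' => hasHeight_cnt (lvStep lv) (lvMark lv 1 (fun _ => true)) 1
      (lvMark_arrives lv 1 _) (lv_pure_gen lv g hlv hg 1 _ (fun b hb => by simp at hb)) 1 c c'
  refine (hall.set (1, 0) {x | x.1 = h}).congr ?_
  intro w
  rw [mem_langOf, mem_langOf, run_cnt, run_lvStep, one_mul]
  rfl

/-- with a single letter of nontrivial level whose level generates the group: the number of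
occurrences of a letter at a level, modulo `m`, is recognized with star height one -/
theorem hasHeight_levelCount_gen (lv : β → H) (c : β) (hone : ∀ b, b ≠ c → lv b = 1)
    (hg : ∀ h : H, ∃ d : ℕ, lv c ^ d = h) (a : β) (q : H) (m : ℕ) [NeZero m] (r : ZMod m) :
    HasHeight 1 (langOf fun w : List β => ((levelCount lv a q 1 w : ℕ) : ZMod m) = r) := by
  have hlv : ∀ b, lv b = 1 ∨ lv b = lv c := by
    intro b
    by_cases hb : b = c
    · exact Or.inr (by rw [hb])
    · exact Or.inl (hone b hb)
  by_cases hac : a = c
  · subst hac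
    refine (hasHeight_arrivals_gen lv (lv a) hlv hg (q * lv a) (fun b => decide (b = a))
      (fun b hb => hone b (by simpa using hb)) m r).congr ?_
    intro w
    rw [mem_langOf, mem_langOf, levelCount_eq_arrivals]
  · have ha : lv a = 1 := hone a hac
    let O : List β → ZMod m × ZMod m := fun w =>
      (((dcount (lvStep lv) (lvMark lv q (fun _ => true)) 1 w : ℕ) : ZMod m),
       ((dcount (lvStep lv) (lvMark lv q (naP lv a)) 1 w : ℕ) : ZMod m))
    refine HasHeight.of_obs O ?_ _ ?_
    · intro v
      refine ((hasHeight_arrivals_gen lv (lv c) hlv hg q (fun _ => true)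
        (fun b hb => by simp at hb) m v.1).inf
        (hasHeight_arrivals_gen lv (lv c) hlv hg q (naP lv a) (naP_spec lv a) m v.2)).congr ?_
      intro w
      simp only [mem_langOf, Language.mem_inf]
      constructor
      · intro h
        rw [← h]
        exact ⟨rfl, rfl⟩
      · rintro ⟨e1, e2⟩
        exact Prod.ext e1 e2
    · intro w w' hO hw
      have hw1 : ((levelCount lv a q 1 w : ℕ) : ZMod m) = r := hw
      show ((levelCount lv a q 1 w' : ℕ) : ZMod m) = r
      have e1 := congrArg (fun n : ℕ => (n : ZMod m)) (all_eq_na_add lv a q ha w 1)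
      have e2 := congrArg (fun n : ℕ => (n : ZMod m)) (all_eq_na_add lv a q ha w' 1)
      simp only [Nat.cast_add] at e1 e2
      have h1 : ((dcount (lvStep lv) (lvMark lv q (fun _ => true)) 1 w : ℕ) : ZMod m)
          = (dcount (lvStep lv) (lvMark lv q (fun _ => true)) 1 w' : ℕ) := congrArg Prod.fst hO
      have h2 : ((dcount (lvStep lv) (lvMark lv q (naP lv a)) 1 w : ℕ) : ZMod m)
          = (dcount (lvStep lv) (lvMark lv q (naP lv a)) 1 w' : ℕ) := congrArg Prod.snd hO
      rw [h1, h2, e2] at e1
      rw [← hw1]
      exact add_left_cancel e1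

end OneGenerator

/-- Every language recognized by a finite group generated by a commutative normal subgroup `N`
and one element `t`, through a morphism sending every letter into `N` or to `t`, has
generalized star height at most one. -/
theorem hasHeight_of_abelian_cyclic_one_generator {G : Type} [Group G] [Finite G]
    (N : Subgroup G) [N.Normal] (hN : ∀ a ∈ N, ∀ b ∈ N, a * b = b * a) (t : G)
    (ht : ∀ x : G, ∃ j : ℕ, x⁻¹ * t ^ j ∈ N) {α : Type} [Fintype α] (f : α → G)
    (hf : ∀ a, f a ∈ N ∨ f a = t) (S : Set G) :
    HasHeight 1 (langOf fun w : List α => (w.map f).prod ∈ S) := by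
  classical
  haveI : Fintype (G ⧸ N) := Fintype.ofFinite _
  haveI : Fintype {x : G // x ∈ N ∨ x = t} := Fintype.ofFinite _
  have hMne : Nat.card G ≠ 0 := (Nat.card_pos).ne'
  haveI : NeZero (Nat.card G) := ⟨hMne⟩
  let f' : {x : G // x ∈ N ∨ x = t} → G := Subtype.val
  let c : {x : G // x ∈ N ∨ x = t} := ⟨t, Or.inr rfl⟩
  let lv : {x : G // x ∈ N ∨ x = t} → G ⧸ N := lvOf N f'
  have hone : ∀ b, b ≠ c → lv b = 1 := by
    intro b hb
    rcases b.2 with h | h
    · exact (QuotientGroup.eq_one_iff _).mpr h
    · exact absurd (Subtype.ext h) hb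
  have hg : ∀ h : G ⧸ N, ∃ d : ℕ, lv c ^ d = h := by
    intro h
    induction h using QuotientGroup.induction_on with
    | H x =>
      obtain ⟨j, hj⟩ := ht x
      refine ⟨j, ?_⟩
      show ((t : G) : G ⧸ N) ^ j = (x : G ⧸ N)
      rw [← QuotientGroup.mk_pow]
      exact ((QuotientGroup.eq).mpr hj).symm
  have hlv : ∀ b, lv b = 1 ∨ lv b = lv c := by
    intro b
    by_cases hb : b = c
    · exact Or.inr (by rw [hb])
    · exact Or.inl (hone b hb)
  -- the language over the alphabet of the elements of `N` and `t`
  have hcore : HasHeight 1 (langOf fun v : List {x : G // x ∈ N ∨ x = t} =>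
      (v.map f').prod ∈ S) := by
    let O : List {x : G // x ∈ N ∨ x = t} → (G ⧸ N) ×
        ({x : G // x ∈ N ∨ x = t} × (G ⧸ N) → ZMod (Nat.card G)) := fun v =>
      ((v.map lv).prod, fun p => ((levelCount lv p.1 p.2 1 v : ℕ) : ZMod (Nat.card G)))
    refine HasHeight.of_obs O ?_ _ ?_
    · intro u
      refine ((hasHeight_level_gen lv (lv c) hlv hg u.1).inf (HasHeight.iInter _ (fun p =>
        hasHeight_levelCount_gen lv c hone hg p.1 p.2 (Nat.card G) (u.2 p)))).congr ?_
      intro v
      simp only [mem_langOf, Language.mem_inf]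
      constructor
      · intro h
        rw [← h]
        exact ⟨rfl, fun p => rfl⟩
      · rintro ⟨e1, e2⟩
        exact Prod.ext e1 (funext e2)
    · intro v v' hO hv
      have hv1 : (v.map f').prod ∈ S := hv
      show (v'.map f').prod ∈ S
      have hlevel : (((v.map f').prod : G) : G ⧸ N) = (((v'.map f').prod : G) : G ⧸ N) := by
        rw [← lvOf_prod N f' v, ← lvOf_prod N f' v']
        exact congrArg Prod.fst hO
      have hcounts : ∀ (a : {x : G // x ∈ N ∨ x = t}) (q : G ⧸ N),
          levelCount lv a q 1 v ≡ levelCount lv a q 1 v' [MOD Nat.card G] := by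
        intro a q
        exact (ZMod.natCast_eq_natCast_iff _ _ _).mp (congrFun (congrArg Prod.snd hO) (a, q))
      rw [← word_determined_gen N hN f' v v' hlevel hcounts]
      exact hv1
  refine (hcore.comap (fun a => some (⟨f a, hf a⟩ : {x : G // x ∈ N ∨ x = t}))).congr ?_
  intro w
  rw [mem_comapLang, mem_langOf, mem_langOf]
  have e : w.filterMap (fun a => some (⟨f a, hf a⟩ : {x : G // x ∈ N ∨ x = t}))
      = w.map (fun a => (⟨f a, hf a⟩ : {x : G // x ∈ N ∨ x = t})) := by
    induction w with
    | nil => rfl
    | cons a w ih => simp [List.filterMap_cons, ih]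
  rw [e, List.map_map]
  rfl

end Vale.Agent.Lib.P329
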