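import Vale.Agent.Lib.P329.Levels

/-!
# The number of occurrences of a letter at a given level
-/

namespace Vale.Agent.Lib.P329

open Computability

variable {H α : Type} [Group H] [DecidableEq H] [DecidableEq α]

/-- the transitions reading the letter `a` at level `q` -/
def cntMark (a : α) (q : H) : H → α → Bool := fun l b => decide (l = q) && decide (b = a)

/-- the number of occurrences of the letter `a` read at level `q`, starting from level `l` -/
def levelCount (lv : α → H) (a : α) (q : H) (l : H) (w : List α) : ℕ :=
  dcount (lvStep lv) (cntMark a q) l w

theorem cntMark_ite (a : α) (q l : H) (b : α) :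
    (if cntMark a q l b then 1 else 0) = (if l = q ∧ b = a then 1 else 0) := by
  unfold cntMark
  by_cases h1 : l = q <;> by_cases h2 : b = a <;> simp [h1, h2]

theorem levelCount_cons (lv : α → H) (a : α) (q l : H) (b : α) (w : List α) :
    levelCount lv a q l (b :: w)
      = (if l = q ∧ b = a then 1 else 0) + levelCount lv a q (l * lv b) w := by
  show (if cntMark a q l b then 1 else 0) + dcount (lvStep lv) (cntMark a q) (lvStep lv l b) w = _
  rw [cntMark_ite]
  rfl

theorem levelCount_snoc (lv : α → H) (a : α) (q l : H) (w : List α) (b : α) :
    levelCount lv a q l (w ++ [b])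
      = levelCount lv a q l w + (if l * (w.map lv).prod = q ∧ b = a then 1 else 0) := by
  unfold levelCount
  rw [dcount_snoc, run_lvStep, cntMark_ite]

theorem sum_levelCount [Fintype H] (lv : α → H) (a : α) :
    ∀ (w : List α) (l : H), ∑ q : H, levelCount lv a q l w = w.count a := by
  intro w
  induction w with
  | nil => intro l; simp [levelCount, dcount]
  | cons b w ih =>
    intro l
    simp only [levelCount_cons]
    rw [Finset.sum_add_distrib, ih (l * lv b), List.count_cons]
    by_cases h2 : b = a
    · simp [h2]
      omega
    · simp [h2]

/-- the letters other than a letter `a` of trivial level -/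
def naP (lv : α → H) (a : α) : α → Bool := fun b => !(decide (b = a) && decide (lv b = 1))

theorem naP_spec (lv : α → H) (a : α) (b : α) (h : naP lv a b = false) : lv b = 1 := by
  unfold naP at h
  simp only [Bool.not_eq_false', Bool.and_eq_true, decide_eq_true_eq] at h
  exact h.2

/-- for a letter `a` of trivial level: the arrivals at level `q` are those by other letters
together with the occurrences of `a` at level `q` -/
theorem all_eq_na_add (lv : α → H) (a : α) (q : H) (ha : lv a = 1) :
    ∀ (w : List α) (l : H),
      dcount (lvStep lv) (lvMark lv q (fun _ => true)) l w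
        = dcount (lvStep lv) (lvMark lv q (naP lv a)) l w + levelCount lv a q l w := by
  intro w
  induction w with
  | nil => intro l; simp [levelCount, dcount]
  | cons b w ih =>
    intro l
    rw [levelCount_cons]
    show (if lvMark lv q (fun _ => true) l b then 1 else 0)
        + dcount (lvStep lv) (lvMark lv q (fun _ => true)) (lvStep lv l b) w
      = (if lvMark lv q (naP lv a) l b then 1 else 0)
        + dcount (lvStep lv) (lvMark lv q (naP lv a)) (lvStep lv l b) w + _
    rw [ih (lvStep lv l b)]
    have hone : (if lvMark lv q (fun _ => true) l b then 1 else 0)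
        = (if lvMark lv q (naP lv a) l b then 1 else 0) + (if l = q ∧ b = a then 1 else 0) := by
      unfold lvMark naP
      by_cases h2 : b = a
      · subst h2
        by_cases h1 : l = q <;> simp [h1, ha]
      · by_cases h1 : l * lv b = q <;> simp [h1, h2]
    rw [hone]
    show _ = _ + (_ + levelCount lv a q (l * lv b) w)
    unfold lvStep
    omega

/-- one step of the comparison between the occurrences of `a` at level `q`, the arrivals at
level `q` by the letter `a`, and the two kinds of marked transitions -/
theorem fl_step_identity (lv : α → H) (a : α) (q l : H) (f : Bool) (b : α) (hf : l = q → f = false) :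
    (if l = q ∧ b = a then 1 else 0) + (if flMark lv a q true (l, f) b then 1 else 0)
        + (if f then 1 else 0)
      = (if l = q * (lv a)⁻¹ ∧ b = a then 1 else 0)
        + (if flMark lv a q false (l, f) b then 1 else 0)
        + (if (flStep lv a q (l, f) b).2 then 1 else 0) := by
  have harr : (l = q * (lv a)⁻¹ ∧ b = a) ↔ (l * lv b = q ∧ b = a) := by
    constructor
    · rintro ⟨h1, rfl⟩
      exact ⟨by rw [h1]; group, rfl⟩
    · rintro ⟨h1, rfl⟩
      exact ⟨by rw [← h1]; group, rfl⟩
  rw [if_congr harr rfl rfl]
  unfold flMark flStep
  by_cases h2 : b = a
  · subst h2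
    by_cases h0 : l = q
    · have hf0 := hf h0
      subst hf0
      subst h0
      by_cases hb1 : lv b = 1 <;> simp [hb1]
    · by_cases h1 : l * lv b = q <;> cases f <;> simp [h1, h0]
  · by_cases h0 : l = q
    · have hf0 := hf h0
      subst hf0
      subst h0
      by_cases hb1 : lv b = 1 <;> simp [hb1, h2]
    · by_cases h1 : l * lv b = q <;> cases f <;> simp [h1, h0, h2]

theorem fl_identity (lv : α → H) (a : α) (q : H) :
    ∀ (w : List α) (l : H) (f : Bool), (l = q → f = false) →
      levelCount lv a q l w + dcount (flStep lv a q) (flMark lv a q true) (l, f) w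
          + (if f then 1 else 0)
        = levelCount lv a (q * (lv a)⁻¹) l w
          + dcount (flStep lv a q) (flMark lv a q false) (l, f) w
          + (if (run (flStep lv a q) (l, f) w).2 then 1 else 0) := by
  intro w
  induction w with
  | nil => intro l f _; rfl
  | cons b w ih =>
    intro l f hf
    have hstep : flStep lv a q (l, f) b = (l * lv b, (flStep lv a q (l, f) b).2) := rfl
    have hnorm : l * lv b = q → (flStep lv a q (l, f) b).2 = false := by
      intro h
      unfold flStep
      simp [h]
    have hih := ih (l * lv b) (flStep lv a q (l, f) b).2 hnorm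
    rw [← hstep] at hih
    have h1 := fl_step_identity lv a q l f b hf
    rw [levelCount_cons, levelCount_cons, run_cons]
    show _ + ((if flMark lv a q true (l, f) b then 1 else 0)
        + dcount (flStep lv a q) (flMark lv a q true) (flStep lv a q (l, f) b) w) + _
      = _ + ((if flMark lv a q false (l, f) b then 1 else 0)
        + dcount (flStep lv a q) (flMark lv a q false) (flStep lv a q (l, f) b) w) + _
    omega

end Vale.Agent.Lib.P329
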