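import Vale.Agent.Lib.P329.Count

/-!
# Level automata over a group in which every element other than one is a generator
-/

namespace Vale.Agent.Lib.P329

open Computability

section General

variable {Q α : Type}

theorem dcount_zero_mark (step : Q → α → Q) (mark : Q → α → Bool) (s : Q) (u : List α) (b : α)
    (v : List α) (h : dcount step mark s (u ++ b :: v) = 0) : mark (run step s u) b = false := by
  rw [dcount_append] at h
  have h2 : (if mark (run step s u) b then 1 else 0)
      + dcount step mark (step (run step s u) b) v = 0 := by
    have : dcount step mark (run step s u) (b :: v) = 0 := by omega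
    exact this
  by_contra hne
  have hm : mark (run step s u) b = true := by simpa using hne
  rw [hm] at h2
  simp at h2

theorem cycle_mul (step : Q → α → Q) (mark : Q → α → Bool) (w : List α) (s : Q) (i : ℕ)
    (hrun : run step s (wpow w i) = s) (hd : dcount step mark s (wpow w i) = 0) (k : ℕ) :
    run step s (wpow w (i * k)) = s ∧ dcount step mark s (wpow w (i * k)) = 0 := by
  induction k with
  | zero => exact ⟨rfl, rfl⟩
  | succ k ih =>
    rw [Nat.mul_succ, wpow_add, run_append, dcount_append, ih.1, ih.2, hrun, hd]
    exact ⟨rfl, rfl⟩

theorem cycle_dcount (step : Q → α → Q) (mark : Q → α → Bool) (w : List α) (s : Q) (i : ℕ)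
    (hi : 0 < i) (hrun : run step s (wpow w i) = s) (hd : dcount step mark s (wpow w i) = 0)
    (t : ℕ) : dcount step mark s (wpow w t) = 0 := by
  have h := (cycle_mul step mark w s i hrun hd (t + 1)).2
  have hle : t ≤ i * (t + 1) := by nlinarith
  obtain ⟨r, hr⟩ := Nat.exists_eq_add_of_le hle
  rw [hr, wpow_add, dcount_append] at h
  omega

theorem cycle_dcount_from (step : Q → α → Q) (mark : Q → α → Bool) (w : List α) (s : Q) (i : ℕ)
    (hi : 0 < i) (hrun : run step s (wpow w i) = s) (hd : dcount step mark s (wpow w i) = 0)
    (t n : ℕ) : dcount step mark (run step s (wpow w t)) (wpow w n) = 0 := by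
  have h := cycle_dcount step mark w s i hi hrun hd (t + n)
  rw [wpow_add, dcount_append] at h
  omega

theorem run_wpow_fixed (step : Q → α → Q) (w : List α) (s : Q) (h : run step s w = s) (n : ℕ) :
    run step s (wpow w n) = s := by
  induction n with
  | zero => rfl
  | succ n ih =>
    show run step s (w ++ wpow w n) = s
    rw [run_append, h, ih]

end General

variable {H α : Type} [Group H]

theorem prod_wpow (lv : α → H) (w : List α) (t : ℕ) :
    ((wpow w t).map lv).prod = ((w.map lv).prod) ^ t := by
  induction t with
  | zero => simp [wpow]
  | succ t ih =>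
    show ((w ++ wpow w t).map lv).prod = _
    rw [List.map_append, List.prod_append, ih, pow_succ']

theorem prod_eq_one_of_forall (lv : α → H) (w : List α) (h : ∀ b ∈ w, lv b = 1) :
    (w.map lv).prod = 1 := by
  induction w with
  | nil => rfl
  | cons a w ih =>
    rw [List.map_cons, List.prod_cons, h a (by simp), one_mul]
    exact ih fun b hb => h b (by simp [hb])

/-! ### The level automaton -/

/-- the level automaton: a letter multiplies the level by its value -/
def lvStep (lv : α → H) : H → α → H := fun l b => l * lv b

theorem run_lvStep (lv : α → H) (w : List α) (l : H) :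
    run (lvStep lv) l w = l * (w.map lv).prod := by
  induction w generalizing l with
  | nil => simp
  | cons a w ih =>
    rw [run_cons, ih, List.map_cons, List.prod_cons]
    show l * lv a * _ = _
    rw [mul_assoc]

/-- the transitions arriving at level `q` by a letter satisfying `P` -/
def lvMark [DecidableEq H] (lv : α → H) (q : H) (P : α → Bool) : H → α → Bool :=
  fun l b => decide (l * lv b = q) && P b

theorem lvMark_arrives [DecidableEq H] (lv : α → H) (q : H) (P : α → Bool) (l : H) (b : α)
    (h : lvMark lv q P l b = true) : lvStep lv l b = q := by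
  unfold lvMark at h
  simp only [Bool.and_eq_true, decide_eq_true_eq] at h
  exact h.1

theorem lv_pure [DecidableEq H] (lv : α → H) (q : H) (P : α → Bool)
    (hP : ∀ b, P b = false → lv b = 1)
    (hgen : ∀ h : H, h ≠ 1 → ∀ g : H, ∃ t : ℕ, h ^ t = g) :
    Pure (lvStep lv) (lvMark lv q P) := by
  intro w l i hi hrun hd
  rw [run_lvStep]
  suffices hw : (w.map lv).prod = 1 by rw [hw, mul_one]
  by_contra hne
  have hex : ∃ b ∈ w, lv b ≠ 1 := by
    by_contra hall
    push_neg at hall
    exact hne (prod_eq_one_of_forall lv w hall)
  obtain ⟨b, hb, hlb⟩ := hex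
  obtain ⟨x, y, rfl⟩ := List.append_of_mem hb
  have hPb : P b = true := by
    by_contra hf
    exact hlb (hP b (by simpa using hf))
  obtain ⟨t, ht⟩ := hgen _ hne (l⁻¹ * q * (lv b)⁻¹ * ((x.map lv).prod)⁻¹)
  have h0 := cycle_dcount_from (lvStep lv) (lvMark lv q P) (x ++ b :: y) l i hi hrun hd t 1
  rw [wpow_one] at h0
  have hm := dcount_zero_mark (lvStep lv) (lvMark lv q P) _ x b y h0
  rw [run_lvStep, run_lvStep, prod_wpow, ht] at hm
  unfold lvMark at hm
  rw [hPb] at hm
  have harr : l * (l⁻¹ * q * (lv b)⁻¹ * ((x.map lv).prod)⁻¹) * (x.map lv).prod * lv b = q := by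
    group
  simp [harr] at hm

/-! ### The level automaton with a flag remembering how the current block started -/

/-- levels with a flag: the flag is cleared on arrival at level `q`; a letter read at level `q`
sets it according to whether that letter is `a` -/
def flStep [DecidableEq H] [DecidableEq α] (lv : α → H) (a : α) (q : H) :
    H × Bool → α → H × Bool :=
  fun s b => (s.1 * lv b,
    if s.1 * lv b = q then false else (if s.1 = q then decide (b = a) else s.2))

/-- the arrivals at level `q`, except those that close a block whose first letter is `a`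
exactly when `β` holds and whose last letter is `a` exactly when `β` fails -/
def flMark [DecidableEq H] [DecidableEq α] (lv : α → H) (a : α) (q : H) (β : Bool) :
    H × Bool → α → Bool :=
  fun s b => decide (s.1 * lv b = q) &&
    !(((if s.1 = q then decide (b = a) else s.2) == β) && (decide (b = a) == !β))

variable [DecidableEq H] [DecidableEq α]

theorem flMark_arrives (lv : α → H) (a : α) (q : H) (β : Bool) (s : H × Bool) (b : α)
    (h : flMark lv a q β s b = true) : flStep lv a q s b = (q, false) := by
  unfold flMark at h
  simp only [Bool.and_eq_true, decide_eq_true_eq] at h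
  unfold flStep
  rw [if_pos h.1, h.1]

theorem run_flStep_fst (lv : α → H) (a : α) (q : H) (w : List α) (s : H × Bool) :
    (run (flStep lv a q) s w).1 = s.1 * (w.map lv).prod := by
  induction w generalizing s with
  | nil => simp
  | cons b w ih =>
    rw [run_cons, ih, List.map_cons, List.prod_cons]
    show s.1 * lv b * _ = _
    rw [mul_assoc]

/-- away from level `q`, a run that reaches level `q` without marked transitions started with
the flag `β` -/
theorem fl_key (lv : α → H) (a : α) (q : H) (β : Bool) :
    ∀ (v : List α) (l : H) (f : Bool), l ≠ q → (run (flStep lv a q) (l, f) v).1 = q →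
      dcount (flStep lv a q) (flMark lv a q β) (l, f) v = 0 → f = β := by
  intro v
  induction v with
  | nil =>
    intro l f hl h _
    exact absurd h hl
  | cons b v ih =>
    intro l f hl h hd
    have hd' : (if flMark lv a q β (l, f) b then 1 else 0)
        + dcount (flStep lv a q) (flMark lv a q β) (flStep lv a q (l, f) b) v = 0 := hd
    by_cases harr : l * lv b = q
    · have hm : flMark lv a q β (l, f) b = false := by
        by_contra hne
        have : flMark lv a q β (l, f) b = true := by simpa using hne
        rw [this] at hd'
        simp at hd'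
      unfold flMark at hm
      simp only [harr, decide_true, Bool.true_and, if_neg hl] at hm
      simp only [Bool.not_eq_false', Bool.and_eq_true, beq_iff_eq] at hm
      exact hm.1
    · have hstep : flStep lv a q (l, f) b = (l * lv b, f) := by
        unfold flStep
        simp [harr, hl]
      rw [run_cons, hstep] at h
      rw [hstep] at hd'
      exact ih (l * lv b) f harr h (by omega)

/-- two runs on the same word from the same level end with the same flag, unless both flags
are unchanged -/
theorem fl_flag (lv : α → H) (a : α) (q : H) :
    ∀ (w : List α) (l : H) (f f' : Bool),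
      (run (flStep lv a q) (l, f) w).2 = (run (flStep lv a q) (l, f') w).2 ∨
        ((run (flStep lv a q) (l, f) w).2 = f ∧ (run (flStep lv a q) (l, f') w).2 = f') := by
  intro w
  induction w with
  | nil => intro l f f'; exact Or.inr ⟨rfl, rfl⟩
  | cons b w ih =>
    intro l f f'
    rw [run_cons, run_cons]
    by_cases harr : l * lv b = q
    · have e1 : flStep lv a q (l, f) b = flStep lv a q (l, f') b := by
        unfold flStep
        simp [harr]
      rw [e1]
      exact Or.inl rfl
    · by_cases hl : l = q
      · have e1 : flStep lv a q (l, f) b = flStep lv a q (l, f') b := by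
          unfold flStep
          simp [harr, hl]
        rw [e1]
        exact Or.inl rfl
      · have e1 : flStep lv a q (l, f) b = (l * lv b, f) := by
          unfold flStep
          simp [harr, hl]
        have e2 : flStep lv a q (l, f') b = (l * lv b, f') := by
          unfold flStep
          simp [harr, hl]
        rw [e1, e2]
        exact ih (l * lv b) f f'

theorem fl_pure [Finite H] (lv : α → H) (a : α) (q : H) (β : Bool)
    (hgen : ∀ h : H, h ≠ 1 → ∀ g : H, ∃ t : ℕ, h ^ t = g) :
    Pure (flStep lv a q) (flMark lv a q β) := by
  rintro w ⟨l, f⟩ i hi hrun hd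
  have hw : (w.map lv).prod = 1 := by
    by_contra hne
    cases w with
    | nil => exact hne rfl
    | cons b w' =>
      have hfrom := cycle_dcount_from (flStep lv a q) (flMark lv a q β) (b :: w') (l, f) i hi hrun hd
      -- a rotation reading `b` at level `q`
      obtain ⟨t₁, ht₁⟩ := hgen _ hne (l⁻¹ * q)
      have hlev₁ : (run (flStep lv a q) (l, f) (wpow (b :: w') t₁)).1 = q := by
        rw [run_flStep_fst, prod_wpow, ht₁]
        group
      -- a rotation in which `b` arrives at level `q`
      obtain ⟨t₃, ht₃⟩ := hgen _ hne (l⁻¹ * q * (lv b)⁻¹)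
      have hlev₃ : (run (flStep lv a q) (l, f) (wpow (b :: w') t₃)).1 * lv b = q := by
        rw [run_flStep_fst, prod_wpow, ht₃]
        group
      have h3 := hfrom t₃ 1
      rw [wpow_one] at h3
      have hm3 := dcount_zero_mark (flStep lv a q) (flMark lv a q β) _ [] b w' h3
      rw [run_nil] at hm3
      unfold flMark at hm3
      simp only [hlev₃, decide_true, Bool.true_and, Bool.not_eq_false', Bool.and_eq_true,
        beq_iff_eq] at hm3
      have hlast : decide (b = a) = !β := hm3.2
      -- the block starting with `b` at level `q`
      have hcard : 0 < Nat.card H := Nat.card_pos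
      obtain ⟨n, hn⟩ : ∃ n, Nat.card H = n + 1 := ⟨Nat.card H - 1, by omega⟩
      have h1 := hfrom t₁ (n + 1)
      have hsplit : wpow (b :: w') (n + 1) = b :: (w' ++ wpow (b :: w') n) := rfl
      rw [hsplit] at h1
      have hm1 := dcount_zero_mark (flStep lv a q) (flMark lv a q β) _ [] b _ h1
      rw [run_nil] at hm1
      generalize hs₁ : run (flStep lv a q) (l, f) (wpow (b :: w') t₁) = s₁ at hlev₁ h1 hm1
      obtain ⟨l₁, f₁⟩ := s₁
      have hl₁ : l₁ = q := hlev₁
      subst hl₁
      by_cases hb1 : lv b = 1
      · unfold flMark at hm1
        simp [hb1, hlast] at hm1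
      · have hne' : l₁ * lv b ≠ l₁ := by
          intro e
          exact hb1 (by simpa using e)
        have hstep : flStep lv a l₁ (l₁, f₁) b = (l₁ * lv b, decide (b = a)) := by
          unfold flStep
          simp [hne']
        have h1' : dcount (flStep lv a l₁) (flMark lv a l₁ β) (l₁ * lv b, decide (b = a))
            (w' ++ wpow (b :: w') n) = 0 := by
          have : (if flMark lv a l₁ β (l₁, f₁) b then 1 else 0)
              + dcount (flStep lv a l₁) (flMark lv a l₁ β) (flStep lv a l₁ (l₁, f₁) b)
                (w' ++ wpow (b :: w') n) = 0 := h1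
          rw [hstep] at this
          omega
        have hend : (run (flStep lv a l₁) (l₁ * lv b, decide (b = a))
            (w' ++ wpow (b :: w') n)).1 = l₁ := by
          have e : run (flStep lv a l₁) (l₁ * lv b, decide (b = a)) (w' ++ wpow (b :: w') n)
              = run (flStep lv a l₁) (l₁, f₁) (wpow (b :: w') (n + 1)) := by
            rw [hsplit, run_cons, hstep]
          rw [e, run_flStep_fst, prod_wpow, ← hn, pow_card_eq_one', mul_one]
        have hfirst := fl_key lv a l₁ β _ (l₁ * lv b) (decide (b = a)) hne' hend h1'
        rw [hfirst] at hlast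
        cases β <;> simp at hlast
  -- the word has trivial level: the flag is the only thing to check
  have hlev : ∀ s : H × Bool, (run (flStep lv a q) s w).1 = s.1 := by
    intro s
    rw [run_flStep_fst, hw, mul_one]
  set r₁ := run (flStep lv a q) (l, f) w with hr₁
  have hr₁l : r₁.1 = l := hlev (l, f)
  have hr₂ : run (flStep lv a q) r₁ w = r₁ := by
    have e : r₁ = (l, r₁.2) := Prod.ext hr₁l rfl
    have hflag := fl_flag lv a q w l f r₁.2
    rw [← hr₁, ← e] at hflag
    apply Prod.ext
    · rw [hlev r₁]
    · rcases hflag with h | ⟨-, h⟩
      · exact h.symm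
      · exact h
  obtain ⟨j, rfl⟩ : ∃ j, i = j + 1 := ⟨i - 1, by omega⟩
  have hfin : run (flStep lv a q) (l, f) (wpow w (j + 1)) = r₁ := by
    show run (flStep lv a q) (l, f) (w ++ wpow w j) = r₁
    rw [run_append, ← hr₁, run_wpow_fixed _ w r₁ hr₂]
  rw [hfin] at hrun
  exact hrun

end Vale.Agent.Lib.P329
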