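import Vale.Agent.Lib.P329.StarFree

/-!
# The local divisor of a monoid at an element
-/

namespace Vale.Agent.Lib.P329

variable {M : Type} [Monoid M]

/-- the local divisor of `M` at `c`: the elements of `c M ∩ M c` -/
def LD (c : M) : Type := {x : M // (∃ y, x = c * y) ∧ (∃ z, x = z * c)}

namespace LD

variable {c : M}

/-- the product `x c⁻¹ y` -/
noncomputable def mul' (x y : LD c) : LD c :=
  ⟨x.1 * Classical.choose y.2.1, by
    obtain ⟨x', hx'⟩ := x.2.1
    obtain ⟨z, hz⟩ := x.2.2
    obtain ⟨zy, hzy⟩ := y.2.2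
    have hy := Classical.choose_spec y.2.1
    refine ⟨⟨x' * Classical.choose y.2.1, ?_⟩, ⟨z * zy, ?_⟩⟩
    · rw [hx', mul_assoc]
    · calc x.1 * Classical.choose y.2.1 = z * (c * Classical.choose y.2.1) := by
            rw [hz, mul_assoc]
        _ = z * y.1 := by rw [← hy]
        _ = z * zy * c := by rw [hzy, mul_assoc]⟩

theorem mul'_val_left (x y : LD c) (z : M) (hx : x.1 = z * c) : (mul' x y).1 = z * y.1 := by
  have hy := Classical.choose_spec y.2.1
  calc (mul' x y).1 = x.1 * Classical.choose y.2.1 := rfl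
    _ = z * (c * Classical.choose y.2.1) := by rw [hx, mul_assoc]
    _ = z * y.1 := by rw [← hy]

theorem mul'_val_right (x y : LD c) (y' : M) (hy : y.1 = c * y') : (mul' x y).1 = x.1 * y' := by
  obtain ⟨z, hz⟩ := x.2.2
  rw [mul'_val_left x y z hz, hy, hz, mul_assoc]

noncomputable instance : Monoid (LD c) where
  mul := mul'
  one := ⟨c, ⟨1, (mul_one c).symm⟩, ⟨1, (one_mul c).symm⟩⟩
  mul_assoc := by
    intro x y z
    apply Subtype.ext
    obtain ⟨y', hy'⟩ := y.2.1
    obtain ⟨z', hz'⟩ := z.2.1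
    have h1 : (mul' y z).1 = c * (y' * z') := by
      rw [mul'_val_right y z z' hz', hy', mul_assoc]
    show (mul' (mul' x y) z).1 = (mul' x (mul' y z)).1
    rw [mul'_val_right (mul' x y) z z' hz', mul'_val_right x y y' hy',
      mul'_val_right x (mul' y z) (y' * z') h1, mul_assoc]
  one_mul := by
    intro y
    apply Subtype.ext
    exact (mul'_val_left _ y 1 (one_mul c).symm).trans (one_mul _)
  mul_one := by
    intro x
    apply Subtype.ext
    exact (mul'_val_right x _ 1 (mul_one c).symm).trans (mul_one _)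

theorem one_val : ((1 : LD c)).1 = c := rfl

theorem mul_val_left (x y : LD c) (z : M) (hx : x.1 = z * c) : (x * y).1 = z * y.1 :=
  mul'_val_left x y z hx

theorem mul_val_right (x y : LD c) (y' : M) (hy : y.1 = c * y') : (x * y).1 = x.1 * y' :=
  mul'_val_right x y y' hy

theorem pow_val (x : LD c) (x' : M) (hx : x.1 = x' * c) (n : ℕ) : (x ^ n).1 = x' ^ n * c := by
  induction n with
  | zero => simp [one_val]
  | succ n ih =>
    rw [pow_succ, mul_val_left (x ^ n) x (x' ^ n) ih, hx, pow_succ, mul_assoc]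

instance [Finite M] : Finite (LD c) := Subtype.finite

theorem card_lt [Finite M] (h1 : ¬ ∃ y, (1 : M) = c * y) : Nat.card (LD c) < Nat.card M :=
  Finite.card_subtype_lt (x := (1 : M)) (fun h => h1 h.1)

theorem aperiodic (hap : ∀ x : M, ∃ k : ℕ, x ^ (k + 1) = x ^ k) (x : LD c) :
    ∃ k : ℕ, x ^ (k + 1) = x ^ k := by
  obtain ⟨x', hx'⟩ := x.2.2
  obtain ⟨k, hk⟩ := hap x'
  refine ⟨k, Subtype.ext ?_⟩
  rw [pow_val x x' hx', pow_val x x' hx', hk]

/-- the image of an element of `M` in the local divisor -/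
def psi (c : M) (t : M) : LD c := ⟨c * t * c, ⟨t * c, mul_assoc c t c⟩, ⟨c * t, rfl⟩⟩

theorem psi_val (t : M) : (psi c t).1 = c * t * c := rfl

end LD

/-- in an aperiodic monoid an element different from one has no right inverse -/
theorem no_right_inverse (hap : ∀ x : M, ∃ k : ℕ, x ^ (k + 1) = x ^ k) {c : M} (hc : c ≠ 1) :
    ¬ ∃ y, (1 : M) = c * y := by
  rintro ⟨y, hy⟩
  obtain ⟨k, hk⟩ := hap c
  have key : ∀ n : ℕ, c ^ n * y ^ n = 1 := by
    intro n
    induction n with
    | zero => simp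
    | succ n ih =>
      calc c ^ (n + 1) * y ^ (n + 1) = c ^ n * (c * y) * y ^ n := by
            rw [pow_succ, pow_succ', mul_assoc, mul_assoc, mul_assoc]
        _ = 1 := by rw [← hy, mul_one, ih]
  apply hc
  calc c = c * (c ^ k * y ^ k) := by rw [key k, mul_one]
    _ = c ^ (k + 1) * y ^ k := by rw [pow_succ', mul_assoc]
    _ = 1 := by rw [hk, key k]

end Vale.Agent.Lib.P329
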