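import Vale.Agent.Lib.P329.Cases

/-!
# Languages recognized by an extension of a group of exponent two by a group of order three
-/

namespace Vale.Agent.Lib.P329

open Computability

section General

variable {α : Type}

/-- the level automaton over an arbitrary alphabet -/
def levStep (lv : α → ZMod 3) : ZMod 3 → α → ZMod 3 := fun l b => l + lv b

theorem lev_allH [Fintype α] (lv : α → ZMod 3) : AllH (levStep lv) := by
  refine AllH.comap (levStep lv) levBstep
    (fun b => if lv b = 1 then some L3.u else if lv b = 2 then some L3.m else none)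
    (fun q => q) ?_ (fun x => ⟨x, rfl⟩) levB_allH
  intro l b
  show l + lv b = (if lv b = 1 then some L3.u else if lv b = 2 then some L3.m else none).elim l
    (fun x => levBstep l x)
  generalize lv b = x
  revert l x
  decide

/-- level, and parity of the number of occurrences of the letter `a` read at level `j` -/
def parStep [DecidableEq α] (lv : α → ZMod 3) (a : α) (j : ZMod 3) :
    ZMod 3 × Bool → α → ZMod 3 × Bool :=
  fun q b => (q.1 + lv b, xor q.2 (decide (b = a ∧ q.1 = j)))

theorem par_allH [Fintype α] [DecidableEq α] (lv : α → ZMod 3) (a : α) (j : ZMod 3) :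
    AllH (parStep lv a j) := by
  by_cases hs : lv a = 0
  · refine AllH.comap (parStep lv a j) (paStep j)
      (fun b => if b = a then some L3.c else if lv b = 1 then some L3.u
        else if lv b = 2 then some L3.m else none)
      (fun q => q) ?_ (fun x => ⟨x, rfl⟩) (pa_allH j)
    rintro ⟨l, e⟩ b
    by_cases hb : b = a
    · subst hb
      show (l + lv b, xor e (decide (b = b ∧ l = j))) =
        (if b = b then some L3.c else if lv b = 1 then some L3.u
          else if lv b = 2 then some L3.m else none).elim (l, e) (fun x => paStep j (l, e) x)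
      rw [if_pos rfl, hs]
      simp [paStep]
    · show (l + lv b, xor e (decide (b = a ∧ l = j))) =
        (if b = a then some L3.c else if lv b = 1 then some L3.u
          else if lv b = 2 then some L3.m else none).elim (l, e) (fun x => paStep j (l, e) x)
      have hd : decide (b = a ∧ l = j) = false := by simp [hb]
      rw [if_neg hb, hd]
      clear hd
      generalize lv b = x
      revert j l e x
      decide
  · refine AllH.comap (parStep lv a j) (pbStep (lv a * j))
      (fun b => if b = a then some L3.c else if lv b = lv a then some L3.u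
        else if lv b = 2 * lv a then some L3.m else none)
      (fun q => (lv a * q.1, q.2)) ?_ ?_ (pb_allH _)
    · rintro ⟨l, e⟩ b
      by_cases hb : b = a
      · subst hb
        show (lv b * l + lv b, xor e (decide (b = b ∧ lv b * l = j))) =
          (if b = b then some L3.c else if lv b = lv b then some L3.u
            else if lv b = 2 * lv b then some L3.m else none).elim (lv b * l, e)
            (fun x => (lv b * (pbStep (lv b * j) (l, e) x).1, (pbStep (lv b * j) (l, e) x).2))
        rw [if_pos rfl]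
        have hd : decide (b = b ∧ lv b * l = j) = decide (lv b * l = j) := by simp
        rw [hd]
        clear hd
        generalize lv b = s at hs ⊢
        revert s j l e
        decide
      · show (lv a * l + lv b, xor e (decide (b = a ∧ lv a * l = j))) =
          (if b = a then some L3.c else if lv b = lv a then some L3.u
            else if lv b = 2 * lv a then some L3.m else none).elim (lv a * l, e)
            (fun x => (lv a * (pbStep (lv a * j) (l, e) x).1, (pbStep (lv a * j) (l, e) x).2))
        have hd : decide (b = a ∧ lv a * l = j) = false := by simp [hb]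
        rw [if_neg hb, hd]
        clear hd
        generalize lv b = x
        generalize lv a = s at hs ⊢
        revert s x j l e
        decide
    · intro t
      show ∃ q : ZMod 3 × Bool, (lv a * q.1, q.2) = t
      generalize lv a = s at hs ⊢
      revert s t
      decide

end General

section Assembly

variable {G : Type} [Group G] {α : Type}

theorem level_one (ℓ : G → ZMod 3) (hmul : ∀ g h, ℓ (g * h) = ℓ g + ℓ h) : ℓ 1 = 0 := by
  have h := hmul 1 1
  rw [mul_one] at h
  generalize ℓ 1 = x at h
  revert x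
  decide

theorem level_inv (ℓ : G → ZMod 3) (hmul : ∀ g h, ℓ (g * h) = ℓ g + ℓ h) (g : G) :
    ℓ g⁻¹ = - ℓ g := by
  have h := hmul g g⁻¹
  rw [mul_inv_cancel, level_one ℓ hmul] at h
  exact eq_neg_of_add_eq_zero_right h.symm

theorem level_prod (ℓ : G → ZMod 3) (hmul : ∀ g h, ℓ (g * h) = ℓ g + ℓ h) (f : α → G)
    (w : List α) (l : ZMod 3) :
    run (levStep fun a => ℓ (f a)) l w = l + ℓ (w.map f).prod := by
  induction w generalizing l with
  | nil => simp [level_one ℓ hmul]
  | cons a w ih =>
    rw [run_cons, ih, List.map_cons, List.prod_cons, hmul]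
    simp [levStep, add_assoc]

theorem par_fst [DecidableEq α] (lv : α → ZMod 3) (a : α) (j : ZMod 3) (w : List α)
    (q : ZMod 3 × Bool) :
    (run (parStep lv a j) q w).1 = run (levStep lv) q.1 w := by
  induction w generalizing q with
  | nil => rfl
  | cons b w ih =>
    rw [run_cons, run_cons, ih]
    rfl

theorem comm_of_level_zero (ℓ : G → ZMod 3) (hmul : ∀ g h, ℓ (g * h) = ℓ g + ℓ h)
    (hker : ∀ g, ℓ g = 0 → g * g = 1) {a b : G} (ha : ℓ a = 0) (hb : ℓ b = 0) :
    a * b = b * a := by
  have hab : ℓ (a * b) = 0 := by rw [hmul, ha, hb, add_zero]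
  have ea : a⁻¹ = a := inv_eq_of_mul_eq_one_left (hker a ha)
  have eb : b⁻¹ = b := inv_eq_of_mul_eq_one_left (hker b hb)
  have eab : (a * b)⁻¹ = a * b := inv_eq_of_mul_eq_one_left (hker (a * b) hab)
  calc a * b = (a * b)⁻¹ := eab.symm
    _ = b⁻¹ * a⁻¹ := mul_inv_rev a b
    _ = b * a := by rw [ea, eb]

/-- the elements of level zero -/
def kerSub (ℓ : G → ZMod 3) (hmul : ∀ g h, ℓ (g * h) = ℓ g + ℓ h) : Subgroup G where
  carrier := {g | ℓ g = 0}
  mul_mem' := fun {a b} ha hb => by
    show ℓ (a * b) = 0
    rw [hmul, (ha : ℓ a = 0), (hb : ℓ b = 0), add_zero]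
  one_mem' := level_one ℓ hmul
  inv_mem' := fun {a} ha => by
    show ℓ a⁻¹ = 0
    rw [level_inv ℓ hmul, (ha : ℓ a = 0), neg_zero]

open Classical in
/-- the element of level zero contributed by the letter `p.1` read at level `p.2` -/
noncomputable def yElt (ℓ : G → ZMod 3) (t : ZMod 3 → G) (f : α → G) (p : α × ZMod 3) : G :=
  if (∃ g, ℓ g = p.2) then t p.2 * f p.1 * (t (p.2 + ℓ (f p.1)))⁻¹ else 1

/-- the image of a word, corrected to level zero -/
def xElt (ℓ : G → ZMod 3) (t : ZMod 3 → G) (f : α → G) (w : List α) : G :=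
  t 0 * (w.map f).prod * (t (ℓ (w.map f).prod))⁻¹

theorem level_yElt (ℓ : G → ZMod 3) (hmul : ∀ g h, ℓ (g * h) = ℓ g + ℓ h) (t : ZMod 3 → G)
    (ht : ∀ g, ℓ (t (ℓ g)) = ℓ g) (f : α → G) (p : α × ZMod 3) : ℓ (yElt ℓ t f p) = 0 := by
  unfold yElt
  split_ifs with h
  · obtain ⟨g, hg⟩ := h
    have h2 : p.2 + ℓ (f p.1) = ℓ (g * f p.1) := by rw [hmul, hg]
    rw [hmul, hmul, level_inv ℓ hmul, h2, ht, ← hg, ht, hmul]
    abel
  · exact level_one ℓ hmul

theorem level_xElt (ℓ : G → ZMod 3) (hmul : ∀ g h, ℓ (g * h) = ℓ g + ℓ h) (t : ZMod 3 → G)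
    (ht : ∀ g, ℓ (t (ℓ g)) = ℓ g) (f : α → G) (w : List α) : ℓ (xElt ℓ t f w) = 0 := by
  unfold xElt
  have h0 : ℓ (t 0) = 0 := by
    have := ht 1
    rw [level_one ℓ hmul] at this
    exact this
  rw [hmul, hmul, level_inv ℓ hmul, ht, h0]
  abel

theorem xElt_nil (ℓ : G → ZMod 3) (hmul : ∀ g h, ℓ (g * h) = ℓ g + ℓ h) (t : ZMod 3 → G)
    (f : α → G) : xElt ℓ t f [] = 1 := by
  unfold xElt
  simp [level_one ℓ hmul]

theorem xElt_snoc (ℓ : G → ZMod 3) (hmul : ∀ g h, ℓ (g * h) = ℓ g + ℓ h) (t : ZMod 3 → G)
    (f : α → G) (w : List α) (b : α) :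
    xElt ℓ t f (w ++ [b]) = xElt ℓ t f w * yElt ℓ t f (b, ℓ (w.map f).prod) := by
  have h : ∃ g, ℓ g = ℓ (w.map f).prod := ⟨_, rfl⟩
  unfold xElt yElt
  rw [if_pos h, List.map_append, List.prod_append, List.map_singleton, List.prod_singleton, hmul]
  group

open scoped IsMulCommutative in
theorem word_determined [Fintype α] [DecidableEq α] (ℓ : G → ZMod 3)
    (hmul : ∀ g h, ℓ (g * h) = ℓ g + ℓ h) (hker : ∀ g, ℓ g = 0 → g * g = 1) (f : α → G)
    (w w' : List α) (hl : ℓ (w.map f).prod = ℓ (w'.map f).prod)
    (hb : ∀ p : α × ZMod 3, (run (parStep (fun a => ℓ (f a)) p.1 p.2) (0, false) w).2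
        = (run (parStep (fun a => ℓ (f a)) p.1 p.2) (0, false) w').2) :
    (w.map f).prod = (w'.map f).prod := by
  classical
  have : IsMulCommutative (kerSub ℓ hmul) :=
    ⟨⟨fun a b => Subtype.ext (comm_of_level_zero ℓ hmul hker a.2 b.2)⟩⟩
  obtain ⟨t, ht⟩ : ∃ t : ZMod 3 → G, ∀ g, ℓ (t (ℓ g)) = ℓ g :=
    ⟨fun l => if h : ∃ g, ℓ g = l then h.choose else 1, fun g => by
      have h : ∃ g', ℓ g' = ℓ g := ⟨g, rfl⟩
      simp only [dif_pos h]
      exact h.choose_spec⟩
  have key : ∀ v : List α, (⟨xElt ℓ t f v, level_xElt ℓ hmul t ht f v⟩ : kerSub ℓ hmul)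
      = ∏ p : α × ZMod 3, (⟨yElt ℓ t f p, level_yElt ℓ hmul t ht f p⟩ : kerSub ℓ hmul) ^
          ((run (parStep (fun a => ℓ (f a)) p.1 p.2) (0, false) v).2).toNat := by
    intro v
    induction v using List.reverseRecOn with
    | nil =>
      have e : (⟨xElt ℓ t f [], level_xElt ℓ hmul t ht f []⟩ : kerSub ℓ hmul) = 1 :=
        Subtype.ext (xElt_nil ℓ hmul t f)
      rw [e]
      symm
      apply Finset.prod_eq_one
      intro p _
      simp
    | append_singleton v b ih =>
      have e1 : (⟨xElt ℓ t f (v ++ [b]), level_xElt ℓ hmul t ht f (v ++ [b])⟩ : kerSub ℓ hmul)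
          = ⟨xElt ℓ t f v, level_xElt ℓ hmul t ht f v⟩ *
            ⟨yElt ℓ t f (b, ℓ (v.map f).prod), level_yElt ℓ hmul t ht f _⟩ :=
        Subtype.ext (xElt_snoc ℓ hmul t f v b)
      have e2 : ∀ p : α × ZMod 3,
          (⟨yElt ℓ t f p, level_yElt ℓ hmul t ht f p⟩ : kerSub ℓ hmul) ^
            ((run (parStep (fun a => ℓ (f a)) p.1 p.2) (0, false) (v ++ [b])).2).toNat
          = (⟨yElt ℓ t f p, level_yElt ℓ hmul t ht f p⟩ : kerSub ℓ hmul) ^
            ((run (parStep (fun a => ℓ (f a)) p.1 p.2) (0, false) v).2).toNat *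
            (if p = (b, ℓ (v.map f).prod) then
              (⟨yElt ℓ t f p, level_yElt ℓ hmul t ht f p⟩ : kerSub ℓ hmul) else 1) := by
        intro p
        have hsq : (⟨yElt ℓ t f p, level_yElt ℓ hmul t ht f p⟩ : kerSub ℓ hmul) *
            ⟨yElt ℓ t f p, level_yElt ℓ hmul t ht f p⟩ = 1 :=
          Subtype.ext (hker _ (level_yElt ℓ hmul t ht f p))
        have hlev : (run (parStep (fun a => ℓ (f a)) p.1 p.2) (0, false) v).1
            = ℓ (v.map f).prod := by
          rw [par_fst, level_prod ℓ hmul f v 0, zero_add]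
        have hbit : (run (parStep (fun a => ℓ (f a)) p.1 p.2) (0, false) (v ++ [b])).2
            = xor (run (parStep (fun a => ℓ (f a)) p.1 p.2) (0, false) v).2
              (decide (b = p.1 ∧ ℓ (v.map f).prod = p.2)) := by
          rw [run_append, run_cons, run_nil, ← hlev]
          rfl
        rw [hbit]
        by_cases hp : p = (b, ℓ (v.map f).prod)
        · have hd : decide (b = p.1 ∧ ℓ (v.map f).prod = p.2) = true := by
            rw [hp]; simp
          rw [hd, if_pos hp]
          cases (run (parStep (fun a => ℓ (f a)) p.1 p.2) (0, false) v).2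
          · simp
          · simp [hsq]
        · have hd : decide (b = p.1 ∧ ℓ (v.map f).prod = p.2) = false := by
            rw [decide_eq_false_iff_not]
            rintro ⟨h1, h2⟩
            exact hp (Prod.ext h1.symm h2.symm)
          rw [hd, if_neg hp]
          simp
      rw [e1, ih, Finset.prod_congr rfl (fun p _ => e2 p), Finset.prod_mul_distrib,
        Finset.prod_ite_eq']
      simp
  have hx : (⟨xElt ℓ t f w, level_xElt ℓ hmul t ht f w⟩ : kerSub ℓ hmul)
      = ⟨xElt ℓ t f w', level_xElt ℓ hmul t ht f w'⟩ := by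
    rw [key w, key w']
    exact Finset.prod_congr rfl (fun p _ => by rw [hb p])
  have h2 : xElt ℓ t f w = xElt ℓ t f w' := congrArg Subtype.val hx
  unfold xElt at h2
  rw [hl] at h2
  exact mul_left_cancel (mul_right_cancel h2)

/-- The main statement in terms of a level function: if `ℓ : G → ZMod 3` is additive and
the elements of level zero square to one, then every language recognized by `G` has
generalized star height at most one. -/
theorem hasHeight_of_level [Fintype α] (ℓ : G → ZMod 3)
    (hmul : ∀ g h, ℓ (g * h) = ℓ g + ℓ h) (hker : ∀ g, ℓ g = 0 → g * g = 1) (f : α → G)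
    (S : Set G) : HasHeight 1 (langOf fun w : List α => (w.map f).prod ∈ S) := by
  classical
  let lv : α → ZMod 3 := fun a => ℓ (f a)
  let D : List α → ZMod 3 × (α × ZMod 3 → ZMod 3 × Bool) := fun w =>
    (run (levStep lv) 0 w, fun p => run (parStep lv p.1 p.2) (0, false) w)
  let T : Set (ZMod 3 × (α × ZMod 3 → ZMod 3 × Bool)) :=
    {d | ∃ w', D w' = d ∧ (w'.map f).prod ∈ S}
  have hD : ∀ d : ZMod 3 × (α × ZMod 3 → ZMod 3 × Bool),
      HasHeight 1 (langOf fun w : List α => D w = d) := by
    intro d
    refine ((lev_allH lv 0 d.1).inf (HasHeight.iInter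
      (fun p : α × ZMod 3 => pathLang (parStep lv p.1 p.2) (0, false) (d.2 p))
      (fun p => par_allH lv p.1 p.2 (0, false) (d.2 p)))).congr ?_
    intro w
    rw [Language.mem_inf, mem_langOf, mem_langOf, mem_pathLang]
    constructor
    · intro h
      rw [← h]
      exact ⟨rfl, fun p => rfl⟩
    · rintro ⟨h1, h2⟩
      exact Prod.ext h1 (funext fun p => h2 p)
  refine (HasHeight.biUnion (Finset.univ.filter (fun d => d ∈ T))
    (fun d => langOf fun w : List α => D w = d) (fun d _ => hD d)).congr ?_
  intro w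
  rw [mem_langOf, mem_langOf]
  constructor
  · intro h
    exact ⟨D w, by simp only [Finset.mem_filter, Finset.mem_univ, true_and]; exact ⟨w, rfl, h⟩, rfl⟩
  · rintro ⟨d, hd, hw⟩
    simp only [Finset.mem_filter, Finset.mem_univ, true_and] at hd
    obtain ⟨w', hw', hS⟩ := hd
    have hDD : D w = D w' := by rw [mem_langOf.mp hw, hw']
    have h1 : run (levStep lv) 0 w = run (levStep lv) 0 w' := congrArg Prod.fst hDD
    have h2 : ∀ p : α × ZMod 3, run (parStep lv p.1 p.2) (0, false) w
        = run (parStep lv p.1 p.2) (0, false) w' := fun p => congrFun (congrArg Prod.snd hDD) p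
    have e : (w.map f).prod = (w'.map f).prod := by
      apply word_determined ℓ hmul hker f w w'
      · have a1 := level_prod ℓ hmul f w 0
        have a2 := level_prod ℓ hmul f w' 0
        rw [zero_add] at a1 a2
        rw [← a1, ← a2]
        exact h1
      · intro p
        exact congrArg Prod.snd (h2 p)
    rw [e]
    exact hS

end Assembly

end Vale.Agent.Lib.P329
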