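import Vale.Agent.Lib.P329.Prime

/-!
# Counting the transitions of a counter-free automaton modulo `n`

For a finite aperiodic monoid `M`, a morphism given by `φ : α → M` and weights
`wt : M → α → H` in a finite commutative group, the twisted product
`wt 1 a₁ * wt (φ a₁) a₂ * wt (φ a₁ * φ a₂) a₃ * ⋯` of a word, together with the value of the
word in `M`, is an observation all of whose fibres have star height at most one.
-/

namespace Vale.Agent.Lib.P329

open Computability

section Modular

variable {M α : Type} [Monoid M]

/-- the Cayley automaton of `φ`: a letter multiplies the state on the right -/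
def mulStep (φ : α → M) : M → α → M := fun m a => m * φ a

theorem run_mulStep (φ : α → M) (w : List α) (m : M) :
    run (mulStep φ) m w = m * (w.map φ).prod := by
  induction w generalizing m with
  | nil => simp
  | cons a w ih =>
    rw [run_cons, ih, List.map_cons, List.prod_cons]
    show m * φ a * _ = _
    rw [mul_assoc]

theorem prod_wpow_monoid (φ : α → M) (w : List α) (t : ℕ) :
    ((wpow w t).map φ).prod = ((w.map φ).prod) ^ t := by
  induction t with
  | zero => simp [wpow]
  | succ t ih =>
    show ((w ++ wpow w t).map φ).prod = _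
    rw [List.map_append, List.prod_append, ih, pow_succ']

theorem pow_stable {x : M} {k : ℕ} (h : x ^ (k + 1) = x ^ k) (j : ℕ) (hj : k ≤ j) :
    x ^ (j + 1) = x ^ j := by
  obtain ⟨d, rfl⟩ := Nat.exists_eq_add_of_le hj
  rw [show k + d + 1 = (k + 1) + d by ring, pow_add, h, ← pow_add]

/-- the Cayley automaton of an aperiodic monoid is counter-free -/
theorem mulStep_counterFree (hap : ∀ x : M, ∃ k : ℕ, x ^ (k + 1) = x ^ k) (φ : α → M)
    (w : List α) (s : M) (i : ℕ) (hi : 0 < i) (h : run (mulStep φ) s (wpow w i) = s) :
    run (mulStep φ) s w = s := by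
  rw [run_mulStep] at h ⊢
  rw [prod_wpow_monoid] at h
  obtain ⟨k, hk⟩ := hap (w.map φ).prod
  have hall : ∀ n : ℕ, s * ((w.map φ).prod) ^ (i * n) = s := by
    intro n
    induction n with
    | zero => simp
    | succ n ih =>
      rw [Nat.mul_succ, pow_add, ← mul_assoc, ih, h]
  have hle : k ≤ i * (k + 1) := by nlinarith
  calc s * (w.map φ).prod = s * ((w.map φ).prod) ^ (i * (k + 1)) * (w.map φ).prod := by
        rw [hall]
    _ = s * ((w.map φ).prod) ^ (i * (k + 1) + 1) := by rw [mul_assoc, ← pow_succ]
    _ = s * ((w.map φ).prod) ^ (i * (k + 1)) := by rw [pow_stable hk _ hle]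
    _ = s := hall _

variable [DecidableEq M] [DecidableEq α]

/-- the single transition reading the letter `a₀` in the state `m₀` -/
def trMark (m₀ : M) (a₀ : α) : M → α → Bool := fun m a => decide (m = m₀) && decide (a = a₀)

theorem trMark_arrives (φ : α → M) (m₀ : M) (a₀ : α) (s : M) (a : α)
    (h : trMark m₀ a₀ s a = true) : mulStep φ s a = m₀ * φ a₀ := by
  unfold trMark at h
  simp only [Bool.and_eq_true, decide_eq_true_eq] at h
  rw [h.1, h.2]
  rfl

theorem trMark_pure (hap : ∀ x : M, ∃ k : ℕ, x ^ (k + 1) = x ^ k) (φ : α → M) (m₀ : M) (a₀ : α) :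
    Pure (mulStep φ) (trMark m₀ a₀) := by
  intro w s i hi hrun _
  exact mulStep_counterFree hap φ w s i hi hrun

/-- counting modulo `n` the occurrences of one transition of the Cayley automaton of an
aperiodic monoid: star height at most one -/
theorem hasHeight_trCount [Finite M] [Fintype α]
    (hap : ∀ x : M, ∃ k : ℕ, x ^ (k + 1) = x ^ k) (φ : α → M) (m₀ : M) (a₀ : α) (n : ℕ) [NeZero n]
    (c c' : M × ZMod n) :
    HasHeight 1 (pathLang (cntStep (mulStep φ) (trMark m₀ a₀) n) c c') :=
  hasHeight_cnt (mulStep φ) (trMark m₀ a₀) (m₀ * φ a₀) (trMark_arrives φ m₀ a₀)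
    (trMark_pure hap φ m₀ a₀) n c c'

/-- the twisted product of the weights along the run of a word from the state `s` -/
def twist {H : Type} [Monoid H] (φ : α → M) (wt : M → α → H) : M → List α → H
  | _, [] => 1
  | s, a :: w => wt s a * twist φ wt (s * φ a) w

theorem twist_eq_prod [Fintype M] [Fintype α] {H : Type} [CommMonoid H] (φ : α → M)
    (wt : M → α → H) : ∀ (w : List α) (s : M),
      twist φ wt s w = ∏ x : M × α, wt x.1 x.2 ^ dcount (mulStep φ) (trMark x.1 x.2) s w := by
  intro w
  induction w with
  | nil =>
    intro s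
    simp [twist, dcount]
  | cons a w ih =>
    intro s
    show wt s a * twist φ wt (s * φ a) w
      = ∏ x : M × α, wt x.1 x.2 ^ ((if trMark x.1 x.2 s a then 1 else 0)
          + dcount (mulStep φ) (trMark x.1 x.2) (mulStep φ s a) w)
    rw [ih (s * φ a)]
    simp only [pow_add]
    rw [Finset.prod_mul_distrib]
    congr 1
    rw [Fintype.prod_eq_single (s, a)]
    · simp [trMark]
    · intro x hx
      have : trMark x.1 x.2 s a = false := by
        unfold trMark
        by_contra hne
        simp only [Bool.not_eq_false, Bool.and_eq_true, decide_eq_true_eq] at hne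
        exact hx (Prod.ext hne.1.symm hne.2.symm)
      simp [this]

/-- the twisted product expressed through the prefixes of the word -/
theorem twist_eq_inits {H : Type} [Monoid H] (φ : α → M) (wt : M → α → H) :
    ∀ (w : List α) (s : M),
      ((w.inits.zip w).map (fun p => wt (s * (p.1.map φ).prod) p.2)).prod = twist φ wt s w := by
  intro w
  induction w with
  | nil => intro s; simp [twist]
  | cons a w ih =>
    intro s
    rw [List.inits_cons, List.zip_cons_cons, List.map_cons, List.prod_cons, List.zip_map_left,
      List.map_map]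
    show wt (s * ([].map φ).prod) a * _ = wt s a * twist φ wt (s * φ a) w
    rw [← ih (s * φ a)]
    simp [Function.comp_def, mul_assoc]

end Modular

/-- Every language recognized by the wreath product of a finite commutative group and a finite
aperiodic monoid has generalized star height at most one. -/
theorem hasHeight_abelian_wr_aperiodic {M : Type} [Monoid M] [Finite M]
    (hap : ∀ x : M, ∃ k : ℕ, x ^ (k + 1) = x ^ k) {H : Type} [CommGroup H] [Finite H]
    {α : Type} [Fintype α] (φ : α → M) (wt : M → α → H) (S : Set (M × H)) :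
    HasHeight 1 (langOf fun w : List α =>
      ((w.map φ).prod, ((w.inits.zip w).map (fun p => wt ((p.1.map φ).prod) p.2)).prod) ∈ S) := by
  classical
  haveI : Fintype M := Fintype.ofFinite M
  have hn : Nat.card H ≠ 0 := (Nat.card_pos).ne'
  haveI : NeZero (Nat.card H) := ⟨hn⟩
  let n := Nat.card H
  let O : List α → M × (M × α → M × ZMod n) := fun w =>
    (run (mulStep φ) 1 w, fun x => run (cntStep (mulStep φ) (trMark x.1 x.2) n) (1, 0) w)
  refine HasHeight.of_obs O ?_ _ ?_
  · intro v
    have hM : HasHeight 1 (pathLang (mulStep φ) 1 v.1) :=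
      (starFree_of_counterFree (mulStep φ) (mulStep_counterFree hap φ) 1 v.1).mono (Nat.zero_le 1)
    refine (hM.inf (HasHeight.iInter _ (fun x : M × α =>
      hasHeight_trCount hap φ x.1 x.2 n (1, 0) (v.2 x)))).congr ?_
    intro w
    simp only [mem_langOf, Language.mem_inf, mem_pathLang]
    constructor
    · intro h
      rw [← h]
      exact ⟨rfl, fun x => rfl⟩
    · rintro ⟨h1, h2⟩
      exact Prod.ext h1 (funext fun x => h2 x)
  · intro w w' hO hw
    have hw1 : ((w.map φ).prod,
        ((w.inits.zip w).map (fun p => wt ((p.1.map φ).prod) p.2)).prod) ∈ S := hw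
    show ((w'.map φ).prod,
        ((w'.inits.zip w').map (fun p => wt ((p.1.map φ).prod) p.2)).prod) ∈ S
    have hval : (w.map φ).prod = (w'.map φ).prod := by
      have h1 := congrArg (fun o => o.1) hO
      simp only [O, run_mulStep, one_mul] at h1
      exact h1
    have hcnt : ∀ x : M × α, ((dcount (mulStep φ) (trMark x.1 x.2) 1 w : ℕ) : ZMod n)
        = (dcount (mulStep φ) (trMark x.1 x.2) 1 w' : ℕ) := by
      intro x
      have h1 := congrArg (fun o => (o.2 x).2) hO
      simp only [O, run_cnt, zero_add] at h1
      exact h1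
    have htw : ∀ u : List α, ((u.inits.zip u).map (fun p => wt ((p.1.map φ).prod) p.2)).prod
        = twist φ wt 1 u := by
      intro u
      have := twist_eq_inits φ wt u 1
      simpa using this
    have hprod : twist φ wt 1 w = twist φ wt 1 w' := by
      rw [twist_eq_prod, twist_eq_prod]
      refine Finset.prod_congr rfl (fun x _ => ?_)
      have hmod := (ZMod.natCast_eq_natCast_iff _ _ _).mp (hcnt x)
      have hone : wt x.1 x.2 ^ n = 1 := pow_card_eq_one'
      rw [pow_eq_pow_mod _ hone, pow_eq_pow_mod (dcount (mulStep φ) (trMark x.1 x.2) 1 w') hone]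
      congr 1
    rw [htw w', ← hprod, ← htw w, ← hval]
    exact hw1

end Vale.Agent.Lib.P329
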