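import Vale.Agent.Lib.P329.Wreath

/-!
# Groups with a commutative normal subgroup of prime index
-/

namespace Vale.Agent.Lib.P329

open Computability

/-- a language saturated by an observation with finitely many values, each of whose fibres
has star height at most one, has star height at most one -/
theorem HasHeight.of_obs {α V : Type} [Fintype V] (obs : List α → V)
    (hfib : ∀ v, HasHeight 1 (langOf fun w => obs w = v)) (L : Language α)
    (hsat : ∀ w w', obs w = obs w' → w ∈ L → w' ∈ L) : HasHeight 1 L := by
  classical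
  refine (HasHeight.biUnion (Finset.univ.filter (fun v => ∃ w ∈ L, obs w = v))
    (fun v => langOf fun w => obs w = v) (fun v _ => hfib v)).congr ?_
  intro w
  rw [mem_langOf]
  constructor
  · intro h
    refine ⟨obs w, ?_, rfl⟩
    simp only [Finset.mem_filter, Finset.mem_univ, true_and]
    exact ⟨w, h, rfl⟩
  · rintro ⟨v, hv, hw⟩
    simp only [Finset.mem_filter, Finset.mem_univ, true_and] at hv
    obtain ⟨w', hw', e⟩ := hv
    have hw2 : obs w = v := hw
    exact hsat w' w (by rw [e, hw2]) hw'

section Unit

variable {α : Type} [DecidableEq α]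

/-- the automaton with one state -/
def unitStep : Unit → α → Unit := fun _ _ => ()

/-- the transitions reading the letter `a` -/
def unitMark (a : α) : Unit → α → Bool := fun _ b => decide (b = a)

theorem dcount_unit (a : α) (w : List α) : dcount unitStep (unitMark a) () w = w.count a := by
  induction w with
  | nil => rfl
  | cons b w ih =>
    show (if unitMark a () b then 1 else 0) + dcount unitStep (unitMark a) () w = _
    rw [ih, List.count_cons]
    unfold unitMark
    by_cases h : b = a <;> simp [h]
    omega

theorem unit_pure (a : α) : Pure (unitStep (α := α)) (unitMark a) := by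
  intro w s i _ _ _
  rfl

end Unit

section Determined

variable {H α : Type} [Group H] [Fintype H] [DecidableEq H] [DecidableEq α]

theorem count_determined (hgen : ∀ h : H, h ≠ 1 → ∀ g : H, ∃ t : ℕ, h ^ t = g)
    (lv : α → H) (a : α) (m : ℕ) (w w' : List α)
    (hU : ((w.count a : ℕ) : ZMod (Fintype.card H * m)) = (w'.count a : ℕ))
    (hAll : ∀ q, ((dcount (lvStep lv) (lvMark lv q (fun _ => true)) 1 w : ℕ) :
        ZMod (Fintype.card H * m)) = (dcount (lvStep lv) (lvMark lv q (fun _ => true)) 1 w' : ℕ))
    (hNa : ∀ q, ((dcount (lvStep lv) (lvMark lv q (naP lv a)) 1 w : ℕ) :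
        ZMod (Fintype.card H * m)) = (dcount (lvStep lv) (lvMark lv q (naP lv a)) 1 w' : ℕ))
    (hF : ∀ q, ((dcount (flStep lv a q) (flMark lv a q true) (1, false) w : ℕ) :
        ZMod (Fintype.card H * m))
        = (dcount (flStep lv a q) (flMark lv a q true) (1, false) w' : ℕ))
    (hL : ∀ q, ((dcount (flStep lv a q) (flMark lv a q false) (1, false) w : ℕ) :
        ZMod (Fintype.card H * m))
        = (dcount (flStep lv a q) (flMark lv a q false) (1, false) w' : ℕ))
    (hfl : ∀ q, (run (flStep lv a q) (1, false) w).2 = (run (flStep lv a q) (1, false) w').2)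
    (q : H) : levelCount lv a q 1 w ≡ levelCount lv a q 1 w' [MOD m] := by
  by_cases ha : lv a = 1
  · have e1 := congrArg (fun n : ℕ => (n : ZMod (Fintype.card H * m)))
      (all_eq_na_add lv a q ha w 1)
    have e2 := congrArg (fun n : ℕ => (n : ZMod (Fintype.card H * m)))
      (all_eq_na_add lv a q ha w' 1)
    simp only [Nat.cast_add] at e1 e2
    rw [hAll q, hNa q, e2] at e1
    have e3 : ((levelCount lv a q 1 w : ℕ) : ZMod (Fintype.card H * m))
        = (levelCount lv a q 1 w' : ℕ) := (add_left_cancel e1).symm
    exact ((ZMod.natCast_eq_natCast_iff _ _ _).mp e3).of_mul_left _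
  · let x : H → ZMod (Fintype.card H * m) := fun g =>
      ((levelCount lv a g 1 w : ℕ) : ZMod (Fintype.card H * m)) - (levelCount lv a g 1 w' : ℕ)
    have hstep : ∀ g, x (g * (lv a)⁻¹) = x g := by
      intro g
      have e1 := congrArg (fun n : ℕ => (n : ZMod (Fintype.card H * m)))
        (fl_identity lv a g w 1 false (fun _ => rfl))
      have e2 := congrArg (fun n : ℕ => (n : ZMod (Fintype.card H * m)))
        (fl_identity lv a g w' 1 false (fun _ => rfl))
      simp only [Nat.cast_add] at e1 e2
      rw [hF g, hL g, hfl g] at e1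
      show ((levelCount lv a (g * (lv a)⁻¹) 1 w : ℕ) : ZMod (Fintype.card H * m))
          - (levelCount lv a (g * (lv a)⁻¹) 1 w' : ℕ)
        = ((levelCount lv a g 1 w : ℕ) : ZMod (Fintype.card H * m)) - (levelCount lv a g 1 w' : ℕ)
      linear_combination e2 - e1
    have hpow : ∀ (t : ℕ) (g : H), x (g * ((lv a)⁻¹) ^ t) = x g := by
      intro t
      induction t with
      | zero => intro g; simp
      | succ t ih =>
        intro g
        rw [pow_succ, ← mul_assoc, hstep, ih]
    have hconst : ∀ g, x g = x q := by
      intro g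
      have hne : (lv a)⁻¹ ≠ 1 := by
        intro e
        exact ha (inv_eq_one.mp e)
      obtain ⟨t, ht⟩ := hgen _ hne (q⁻¹ * g)
      have := hpow t q
      rw [ht, mul_inv_cancel_left] at this
      exact this
    have hsum : ∑ g : H, x g = 0 := by
      show ∑ g : H, (((levelCount lv a g 1 w : ℕ) : ZMod (Fintype.card H * m))
        - (levelCount lv a g 1 w' : ℕ)) = 0
      rw [Finset.sum_sub_distrib, ← Nat.cast_sum, ← Nat.cast_sum, sum_levelCount,
        sum_levelCount, hU, sub_self]
    rw [Finset.sum_congr rfl (fun g _ => hconst g), Finset.sum_const, Finset.card_univ,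
      nsmul_eq_mul] at hsum
    have e3 : ((Fintype.card H * levelCount lv a q 1 w : ℕ) : ZMod (Fintype.card H * m))
        = (Fintype.card H * levelCount lv a q 1 w' : ℕ) := by
      push_cast
      have : (Fintype.card H : ZMod (Fintype.card H * m))
          * (((levelCount lv a q 1 w : ℕ) : ZMod (Fintype.card H * m))
            - (levelCount lv a q 1 w' : ℕ)) = 0 := hsum
      linear_combination this
    exact Nat.ModEq.mul_left_cancel' Fintype.card_ne_zero
      ((ZMod.natCast_eq_natCast_iff _ _ _).mp e3)

end Determined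

/-- Every language recognized by a finite group that has a commutative normal subgroup of
prime index has generalized star height at most one. -/
theorem hasHeight_of_abelian_prime_index {G : Type} [Group G] [Finite G] (N : Subgroup G)
    [N.Normal] (hN : ∀ a ∈ N, ∀ b ∈ N, a * b = b * a) (hp : N.index.Prime) {α : Type}
    [Fintype α] (f : α → G) (S : Set G) :
    HasHeight 1 (langOf fun w : List α => (w.map f).prod ∈ S) := by
  classical
  haveI : Fintype (G ⧸ N) := Fintype.ofFinite _
  have hcard : Nat.card (G ⧸ N) = N.index := (Subgroup.index_eq_card N).symm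
  haveI : Fact N.index.Prime := ⟨hp⟩
  have hgen : ∀ h : G ⧸ N, h ≠ 1 → ∀ g : G ⧸ N, ∃ t : ℕ, h ^ t = g := by
    intro h hh g
    exact (Submonoid.mem_powers_iff _ _).mp (mem_powers_of_prime_card hcard hh)
  have hM : Fintype.card (G ⧸ N) * Nat.card G ≠ 0 :=
    Nat.mul_ne_zero Fintype.card_ne_zero (Nat.card_pos).ne'
  haveI : NeZero (Fintype.card (G ⧸ N) * Nat.card G) := ⟨hM⟩
  let M := Fintype.card (G ⧸ N) * Nat.card G
  let lv : α → G ⧸ N := lvOf N f
  let O : List α → ((G ⧸ N) × ZMod M) × (α → (Unit × ZMod M) × ((G ⧸ N) →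
      (((G ⧸ N) × Bool) × ZMod M) × (((G ⧸ N) × Bool) × ZMod M) × ((G ⧸ N) × ZMod M)
        × ((G ⧸ N) × ZMod M))) := fun w =>
    (run (cntStep (lvStep lv) (lvMark lv 1 (fun _ => true)) M) (1, 0) w, fun a =>
      (run (cntStep unitStep (unitMark a) M) ((), 0) w, fun q =>
        (run (cntStep (flStep lv a q) (flMark lv a q true) M) ((1, false), 0) w,
         run (cntStep (flStep lv a q) (flMark lv a q false) M) ((1, false), 0) w,
         run (cntStep (lvStep lv) (lvMark lv q (fun _ => true)) M) (1, 0) w,
         run (cntStep (lvStep lv) (lvMark lv q (naP lv a)) M) (1, 0) w)))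
  have hAllH : ∀ (q : G ⧸ N) (c c' : (G ⧸ N) × ZMod M),
      HasHeight 1 (pathLang (cntStep (lvStep lv) (lvMark lv q (fun _ => true)) M) c c') :=
    fun q c c' => hasHeight_cnt (lvStep lv) (lvMark lv q (fun _ => true)) q
      (lvMark_arrives lv q _) (lv_pure lv q _ (fun b h => by simp at h) hgen) M c c'
  have hNaH : ∀ (a : α) (q : G ⧸ N) (c c' : (G ⧸ N) × ZMod M),
      HasHeight 1 (pathLang (cntStep (lvStep lv) (lvMark lv q (naP lv a)) M) c c') :=
    fun a q c c' => hasHeight_cnt (lvStep lv) (lvMark lv q (naP lv a)) q
      (lvMark_arrives lv q _) (lv_pure lv q _ (naP_spec lv a) hgen) M c c'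
  have hFlH : ∀ (a : α) (q : G ⧸ N) (β : Bool) (c c' : ((G ⧸ N) × Bool) × ZMod M),
      HasHeight 1 (pathLang (cntStep (flStep lv a q) (flMark lv a q β) M) c c') :=
    fun a q β c c' => hasHeight_cnt (flStep lv a q) (flMark lv a q β) (q, false)
      (flMark_arrives lv a q β) (fl_pure lv a q β hgen) M c c'
  have hUH : ∀ (a : α) (c c' : Unit × ZMod M),
      HasHeight 1 (pathLang (cntStep unitStep (unitMark a) M) c c') :=
    fun a c c' => hasHeight_cnt unitStep (unitMark a) () (fun _ _ _ => rfl) (unit_pure a) M c c'
  refine HasHeight.of_obs O ?_ _ ?_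
  · intro v
    refine ((hAllH 1 (1, 0) v.1).inf (HasHeight.iInter _ (fun a =>
      (hUH a ((), 0) (v.2 a).1).inf (HasHeight.iInter _ (fun q =>
        (hFlH a q true ((1, false), 0) ((v.2 a).2 q).1).inf
          ((hFlH a q false ((1, false), 0) ((v.2 a).2 q).2.1).inf
            ((hAllH q (1, 0) ((v.2 a).2 q).2.2.1).inf
              (hNaH a q (1, 0) ((v.2 a).2 q).2.2.2)))))))).congr ?_
    intro w
    simp only [mem_langOf, Language.mem_inf, mem_pathLang]
    constructor
    · intro h
      rw [← h]
      exact ⟨rfl, fun a => ⟨rfl, fun q => ⟨rfl, rfl, rfl, rfl⟩⟩⟩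
    · rintro ⟨h1, h2⟩
      refine Prod.ext h1 (funext fun a => Prod.ext (h2 a).1 (funext fun q => ?_))
      obtain ⟨e1, e2, e3, e4⟩ := (h2 a).2 q
      exact Prod.ext e1 (Prod.ext e2 (Prod.ext e3 e4))
  · intro w w' hO hw
    have hw1 : (w.map f).prod ∈ S := hw
    show (w'.map f).prod ∈ S
    have hlevel : (((w.map f).prod : G) : G ⧸ N) = (((w'.map f).prod : G) : G ⧸ N) := by
      have h1 := congrArg (fun o => o.1.1) hO
      simp only [O, run_cnt, run_lvStep, one_mul] at h1
      rw [← lvOf_prod N f w, ← lvOf_prod N f w']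
      exact h1
    have hcounts : ∀ (a : α) (q : G ⧸ N),
        levelCount lv a q 1 w ≡ levelCount lv a q 1 w' [MOD Nat.card G] := by
      intro a q
      apply count_determined hgen lv a (Nat.card G) w w'
      · have h1 := congrArg (fun o => ((o.2 a).1).2) hO
        simp only [O, run_cnt, zero_add, dcount_unit] at h1
        exact h1
      · intro q'
        have h1 := congrArg (fun o => (((o.2 a).2 q').2.2.1).2) hO
        simp only [O, run_cnt, zero_add] at h1
        exact h1
      · intro q'
        have h1 := congrArg (fun o => (((o.2 a).2 q').2.2.2).2) hO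
        simp only [O, run_cnt, zero_add] at h1
        exact h1
      · intro q'
        have h1 := congrArg (fun o => (((o.2 a).2 q').1).2) hO
        simp only [O, run_cnt, zero_add] at h1
        exact h1
      · intro q'
        have h1 := congrArg (fun o => (((o.2 a).2 q').2.1).2) hO
        simp only [O, run_cnt, zero_add] at h1
        exact h1
      · intro q'
        have h1 := congrArg (fun o => ((((o.2 a).2 q').1).1).2) hO
        simp only [O, run_cnt] at h1
        exact h1
    rw [← word_determined_gen N hN f w w' hlevel hcounts]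
    exact hw1

end Vale.Agent.Lib.P329
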