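import Vale.Agent.Lib.P329.Cascade

/-!
# Star-free conditions on runs labelled by group values or by abelian counters
-/

namespace Vale.Agent.Lib.P329

open Computability

section Counters

variable {M H α : Type} [Monoid M] [Monoid H]

/-- the automaton recording the value in `M` and the twisted weight in `H` -/
def whStep (φ : α → M) (wt : M → α → H) : M × H → α → M × H :=
  fun c a => (c.1 * φ a, c.2 * wt c.1 a)

theorem run_whStep [DecidableEq M] [DecidableEq α] (φ : α → M) (wt : M → α → H) :
    ∀ (w : List α) (m : M) (h : H),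
      run (whStep φ wt) (m, h) w = (m * (w.map φ).prod, h * twist φ wt m w) := by
  intro w
  induction w with
  | nil => intro m h; simp [twist]
  | cons a w ih =>
    intro m h
    rw [run_cons]
    show run (whStep φ wt) (m * φ a, h * wt m a) w = _
    rw [ih, List.map_cons, List.prod_cons]
    show _ = (m * (φ a * _), h * (wt m a * twist φ wt (m * φ a) w))
    rw [mul_assoc, mul_assoc]

theorem twist_shift [DecidableEq M] [DecidableEq α] (φ : α → M) (wt : M → α → H) (m : M) :
    ∀ (w : List α) (x : M), twist φ (fun y => wt (m * y)) x w = twist φ wt (m * x) w := by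
  intro w
  induction w with
  | nil => intro x; rfl
  | cons a w ih =>
    intro x
    show wt (m * x) a * twist φ (fun y => wt (m * y)) (x * φ a) w
      = wt (m * x) a * twist φ wt (m * x * φ a) w
    rw [ih, mul_assoc]

end Counters

/-- the automaton of values and abelian weights over an aperiodic monoid: all its languages
have star height at most one -/
theorem whStep_allH {M : Type} [Monoid M] [Finite M]
    (hap : ∀ x : M, ∃ k : ℕ, x ^ (k + 1) = x ^ k) {H : Type} [CommGroup H] [Finite H]
    {α : Type} [Fintype α] (φ : α → M) (wt : M → α → H) : AllH (whStep φ wt) := by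
  classical
  rintro ⟨m, h⟩ ⟨m', h'⟩
  refine (hasHeight_abelian_wr_aperiodic hap φ (fun y => wt (m * y))
    {c | (m * c.1, h * c.2) = (m', h')}).congr ?_
  intro w
  rw [mem_pathLang, run_whStep, mem_langOf]
  have e := twist_eq_inits φ (fun y => wt (m * y)) w 1
  simp only [one_mul] at e
  rw [e, twist_shift, mul_one]
  rfl

/-- the Cayley automaton of a group with a commutative normal subgroup of prime index: all its
languages have star height at most one -/
theorem mulStep_allH_of_abelian_prime_index {G : Type} [Group G] [Finite G] (N : Subgroup G)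
    [N.Normal] (hN : ∀ a ∈ N, ∀ b ∈ N, a * b = b * a) (hp : N.index.Prime) {α : Type}
    [Fintype α] (f : α → G) : AllH (mulStep f) := by
  intro g g'
  refine (hasHeight_of_abelian_prime_index N hN hp f {x | g * x = g'}).congr ?_
  intro w
  rw [mem_pathLang, run_mulStep, mem_langOf]
  rfl

/-- Star-free conditions on the word labelled by the values of its prefixes in an aperiodic
monoid and by their twisted weights in a commutative group: star height at most one. -/
theorem hasHeight_starFree_over_counters {M : Type} [Monoid M] [Finite M]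
    (hap : ∀ x : M, ∃ k : ℕ, x ^ (k + 1) = x ^ k) {H : Type} [CommGroup H] [Finite H]
    {α : Type} [Fintype α] (φ : α → M) (wt : M → α → H) (K : GRE ((M × H) × α))
    (hK : K.height = 0) :
    HasHeight 1 (langOf fun w : List α =>
      (w.inits.zip w).map (fun p => (((p.1.map φ).prod,
        ((p.1.inits.zip p.1).map (fun r => wt ((r.1.map φ).prod) r.2)).prod), p.2)) ∈ K.lang) := by
  classical
  haveI : Fintype M := Fintype.ofFinite M
  haveI : Fintype H := Fintype.ofFinite H
  refine (hasHeight_dec_expr (whStep φ wt) (whStep_allH hap φ wt) K hK (1, 1)).congr ?_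
  intro w
  rw [mem_langOf, mem_langOf, dec_eq_inits]
  have hfun : (fun p : List α × α => (run (whStep φ wt) (1, 1) p.1, p.2))
      = (fun p : List α × α => (((p.1.map φ).prod,
        ((p.1.inits.zip p.1).map (fun r => wt ((r.1.map φ).prod) r.2)).prod), p.2)) := by
    funext p
    rw [run_whStep, one_mul, one_mul]
    have e := twist_eq_inits φ wt p.1 1
    simp only [one_mul] at e
    rw [e]
  rw [hfun]

/-- Star-free conditions on the word labelled by the values of its prefixes in a finite group
with a commutative normal subgroup of prime index: star height at most one. -/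
theorem hasHeight_starFree_over_group {G : Type} [Group G] [Finite G] (N : Subgroup G)
    [N.Normal] (hN : ∀ a ∈ N, ∀ b ∈ N, a * b = b * a) (hp : N.index.Prime) {α : Type}
    [Fintype α] (f : α → G) (K : GRE (G × α)) (hK : K.height = 0) :
    HasHeight 1 (langOf fun w : List α =>
      (w.inits.zip w).map (fun p => ((p.1.map f).prod, p.2)) ∈ K.lang) := by
  classical
  haveI : Fintype G := Fintype.ofFinite G
  refine (hasHeight_dec_expr (mulStep f) (mulStep_allH_of_abelian_prime_index N hN hp f) K hK
    1).congr ?_
  intro w
  rw [mem_langOf, mem_langOf, dec_eq_inits]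
  have hfun : (fun p : List α × α => (run (mulStep f) 1 p.1, p.2))
      = (fun p : List α × α => ((p.1.map f).prod, p.2)) := by
    funext p
    rw [run_mulStep, one_mul]
  rw [hfun]

end Vale.Agent.Lib.P329

namespace Vale.Agent.Lib.P329

open Computability

/-- the product of two automata -/
def prodStep {Q₁ Q₂ α : Type} (s₁ : Q₁ → α → Q₁) (s₂ : Q₂ → α → Q₂) : Q₁ × Q₂ → α → Q₁ × Q₂ :=
  fun c a => (s₁ c.1 a, s₂ c.2 a)

theorem run_prodStep {Q₁ Q₂ α : Type} (s₁ : Q₁ → α → Q₁) (s₂ : Q₂ → α → Q₂) (w : List α)
    (c : Q₁ × Q₂) : run (prodStep s₁ s₂) c w = (run s₁ c.1 w, run s₂ c.2 w) :=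
  Prod.ext (run_map (prodStep s₁ s₂) s₁ Prod.fst (fun _ _ => rfl) w c)
    (run_map (prodStep s₁ s₂) s₂ Prod.snd (fun _ _ => rfl) w c)

theorem prodStep_allH {Q₁ Q₂ α : Type} (s₁ : Q₁ → α → Q₁) (s₂ : Q₂ → α → Q₂) (h₁ : AllH s₁)
    (h₂ : AllH s₂) : AllH (prodStep s₁ s₂) :=
  AllH.two (prodStep s₁ s₂) s₁ s₂ Prod.fst Prod.snd (fun _ _ => rfl) (fun _ _ => rfl)
    (fun _ _ e1 e2 => Prod.ext e1 e2) h₁ h₂

/-- Star-free conditions on the word labelled by the values of its prefixes in a finite group
with a commutative normal subgroup of prime index, in a finite aperiodic monoid, and by their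
twisted weights in a finite commutative group: star height at most one. -/
theorem hasHeight_starFree_over_labels {G : Type} [Group G] [Finite G] (N : Subgroup G)
    [N.Normal] (hN : ∀ a ∈ N, ∀ b ∈ N, a * b = b * a) (hp : N.index.Prime)
    {M : Type} [Monoid M] [Finite M] (hap : ∀ x : M, ∃ k : ℕ, x ^ (k + 1) = x ^ k)
    {H : Type} [CommGroup H] [Finite H] {α : Type} [Fintype α] (f : α → G) (φ : α → M)
    (wt : M → α → H) (K : GRE ((G × M × H) × α)) (hK : K.height = 0) :
    HasHeight 1 (langOf fun w : List α =>
      (w.inits.zip w).map (fun p => (((p.1.map f).prod, (p.1.map φ).prod,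
        ((p.1.inits.zip p.1).map (fun r => wt ((r.1.map φ).prod) r.2)).prod), p.2)) ∈ K.lang) := by
  classical
  haveI : Fintype G := Fintype.ofFinite G
  haveI : Fintype M := Fintype.ofFinite M
  haveI : Fintype H := Fintype.ofFinite H
  refine (hasHeight_dec_expr (prodStep (mulStep f) (whStep φ wt))
    (prodStep_allH _ _ (mulStep_allH_of_abelian_prime_index N hN hp f) (whStep_allH hap φ wt))
    K hK (1, (1, 1))).congr ?_
  intro w
  rw [mem_langOf, mem_langOf, dec_eq_inits]
  have hfun : (fun p : List α × α => (run (prodStep (mulStep f) (whStep φ wt)) (1, (1, 1)) p.1, p.2))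
      = (fun p : List α × α => (((p.1.map f).prod, (p.1.map φ).prod,
        ((p.1.inits.zip p.1).map (fun r => wt ((r.1.map φ).prod) r.2)).prod), p.2)) := by
    funext p
    rw [run_prodStep, run_mulStep, run_whStep, one_mul, one_mul, one_mul]
    have e := twist_eq_inits φ wt p.1 1
    simp only [one_mul] at e
    rw [e]
  rw [hfun]

end Vale.Agent.Lib.P329
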