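import Vale.Agent.Lib.P329.Closure

/-!
# Some star-free languages: letter-set stars and stars of marked blocks
-/

namespace Vale.Agent.Lib.P329

open Computability

variable {α : Type}

theorem cons_mem_letter_mul {a x : α} {w : List α} {L : Language α} :
    x :: w ∈ ({[a]} : Language α) * L ↔ x = a ∧ w ∈ L := by
  rw [Language.mem_mul]
  constructor
  · rintro ⟨s, hs, t, ht, h⟩
    rw [mem_singleton_lang] at hs
    subst hs
    simp only [List.cons_append, List.nil_append, List.cons.injEq] at h
    obtain ⟨rfl, rfl⟩ := h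
    exact ⟨rfl, ht⟩
  · rintro ⟨rfl, hw⟩
    exact ⟨[x], rfl, w, hw, rfl⟩

theorem nil_notMem_letter_mul {a : α} {L : Language α} :
    ([] : List α) ∉ ({[a]} : Language α) * L := by
  rw [Language.mem_mul]
  rintro ⟨s, hs, t, ht, h⟩
  rw [mem_singleton_lang] at hs
  subst hs
  simp at h

/-- words all of whose letters lie in `A` -/
def onlyLang (A : Set α) : Language α := langOf fun w => ∀ x ∈ w, x ∈ A

theorem mem_onlyLang {A : Set α} {w : List α} : w ∈ onlyLang A ↔ ∀ x ∈ w, x ∈ A := Iff.rfl

theorem hasHeight_onlyLang [Fintype α] (A : Set α) (n : ℕ) : HasHeight n (onlyLang A) := by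
  classical
  refine (hasHeight_erasedLang (β := Unit) (fun a => if a ∈ A then none else some ()) n).congr ?_
  intro w
  rw [mem_onlyLang, mem_erasedLang]
  constructor
  · intro h a ha
    simp [h a ha]
  · intro h a ha
    by_contra hA
    have := h a ha
    simp [hA] at this

theorem onlyLang_singleton_unfold (a : α) :
    onlyLang {a} = 1 + ({[a]} : Language α) * onlyLang {a} := by
  ext w
  rw [Language.mem_add]
  cases w with
  | nil => simp [mem_onlyLang]
  | cons x w =>
    rw [cons_mem_letter_mul]
    simp [mem_onlyLang]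

theorem onlyLang_pair_unfold (a b : α) :
    onlyLang {a, b} = 1 + (({[a]} : Language α) + {[b]}) * onlyLang {a, b} := by
  ext w
  rw [Language.mem_add, add_mul, Language.mem_add]
  cases w with
  | nil => simp [mem_onlyLang]
  | cons x w =>
    rw [cons_mem_letter_mul, cons_mem_letter_mul]
    simp only [mem_onlyLang, List.mem_cons, forall_eq_or_imp, Set.mem_insert_iff,
      Set.mem_singleton_iff, Language.mem_one, reduceCtorEq, false_or]
    tauto

/-- words without the letter `b` -/
def freeLang (b : α) : Language α := langOf fun w => b ∉ w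

theorem mem_freeLang {b : α} {w : List α} : w ∈ freeLang b ↔ b ∉ w := Iff.rfl

theorem hasHeight_freeLang (b : α) (n : ℕ) : HasHeight n (freeLang b) := by
  refine (((HasHeight.top (n := n)).mul (HasHeight.letter b)).mul HasHeight.top).compl.congr ?_
  intro w
  rw [mem_compl_lang, mem_freeLang]
  constructor
  · intro h hw
    obtain ⟨xy, hxy, z, -, rfl⟩ := Language.mem_mul.mp hw
    obtain ⟨x, -, y, hy, rfl⟩ := Language.mem_mul.mp hxy
    rw [mem_singleton_lang] at hy
    subst hy
    exact h (by simp)
  · intro h hb
    obtain ⟨s, t, rfl⟩ := List.append_of_mem hb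
    apply h
    have h1 : s ++ [b] ∈ (⊤ : Language α) * ({[b]} : Language α) :=
      Language.append_mem_mul mem_top_lang rfl
    have h2 := Language.append_mem_mul h1 (mem_top_lang : t ∈ (⊤ : Language α))
    simpa using h2

/-- the empty word and the words ending with `b` -/
def endLang (b : α) : Language α := 1 + ⊤ * {[b]}

theorem mem_endLang {b : α} {w : List α} : w ∈ endLang b ↔ w = [] ∨ ∃ v, w = v ++ [b] := by
  unfold endLang
  rw [Language.mem_add, Language.mem_one, Language.mem_mul]
  constructor
  · rintro (h | ⟨v, -, s, hs, rfl⟩)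
    · exact Or.inl h
    · rw [mem_singleton_lang] at hs
      subst hs
      exact Or.inr ⟨v, rfl⟩
  · rintro (h | ⟨v, rfl⟩)
    · exact Or.inl h
    · exact Or.inr ⟨v, mem_top_lang, [b], rfl, rfl⟩

theorem hasHeight_endLang (b : α) (n : ℕ) : HasHeight n (endLang b) :=
  HasHeight.one.add (HasHeight.top.mul (HasHeight.letter b))

/-- the words having a block that violates membership in `(Y b)*` -/
def badLang (b : α) (Y : Language α) : Language α :=
  endLang b * (freeLang b ⊓ Yᶜ) * {[b]} * ⊤

theorem mem_badLang {b : α} {Y : Language α} {w : List α} :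
    w ∈ badLang b Y ↔ ∃ p z t, p ∈ endLang b ∧ b ∉ z ∧ z ∉ Y ∧ w = p ++ (z ++ b :: t) := by
  unfold badLang
  constructor
  · intro h
    obtain ⟨pzb, h1, t, -, rfl⟩ := Language.mem_mul.mp h
    obtain ⟨pz, h2, s, hs, rfl⟩ := Language.mem_mul.mp h1
    obtain ⟨p, hp, z, hz, rfl⟩ := Language.mem_mul.mp h2
    rw [mem_singleton_lang] at hs
    subst hs
    rw [Language.mem_inf] at hz
    exact ⟨p, z, t, hp, hz.1, hz.2, by simp⟩
  · rintro ⟨p, z, t, hp, hz, hzY, rfl⟩
    have h2 : p ++ z ∈ endLang b * (freeLang b ⊓ Yᶜ) :=
      Language.append_mem_mul hp (Language.mem_inf.mpr ⟨hz, hzY⟩)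
    have h1 : p ++ z ++ [b] ∈ endLang b * (freeLang b ⊓ Yᶜ) * ({[b]} : Language α) :=
      Language.append_mem_mul h2 rfl
    have h0 := Language.append_mem_mul h1 (mem_top_lang : t ∈ (⊤ : Language α))
    simpa using h0

theorem split_first {b : α} {y r p s : List α} (hy : b ∉ y) (h : y ++ b :: r = p ++ b :: s) :
    (p = y ∧ r = s) ∨ ∃ q, p = y ++ b :: q ∧ r = q ++ b :: s := by
  rcases List.append_eq_append_iff.mp h with ⟨a', rfl, h2⟩ | ⟨c', rfl, h2⟩
  · cases a' with
    | nil =>
      left
      simp only [List.nil_append, List.cons.injEq, true_and] at h2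
      exact ⟨by simp, h2⟩
    | cons b' q =>
      right
      simp only [List.cons_append, List.cons.injEq] at h2
      obtain ⟨rfl, rfl⟩ := h2
      exact ⟨q, rfl, rfl⟩
  · cases c' with
    | nil =>
      left
      simp only [List.nil_append, List.cons.injEq, true_and] at h2
      exact ⟨by simp, h2.symm⟩
    | cons b' q =>
      simp only [List.cons_append, List.cons.injEq] at h2
      obtain ⟨rfl, -⟩ := h2
      exact absurd (by simp) hy

theorem exists_first_split {b : α} : ∀ {w : List α}, b ∈ w → ∃ y t, w = y ++ b :: t ∧ b ∉ y := by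
  classical
  intro w
  induction w with
  | nil => intro h; simp at h
  | cons x w ih =>
    intro h
    by_cases hx : x = b
    · subst hx
      exact ⟨[], w, rfl, by simp⟩
    · have hw : b ∈ w := by
        rcases List.mem_cons.mp h with h | h
        · exact absurd h.symm hx
        · exact h
      obtain ⟨y, t, rfl, hy⟩ := ih hw
      refine ⟨x :: y, t, rfl, ?_⟩
      intro hb
      rcases List.mem_cons.mp hb with h | h
      · exact hx h.symm
      · exact hy h

theorem marker_star (b : α) (Y : Language α) (hb : ∀ y ∈ Y, b ∉ y) :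
    KStar.kstar (Y * ({[b]} : Language α)) = endLang b ⊓ (badLang b Y)ᶜ := by
  ext w
  rw [Language.mem_inf, mem_compl_lang]
  constructor
  · intro h
    obtain ⟨S, rfl, hS⟩ := Language.mem_kstar.mp h
    clear h
    induction S with
    | nil =>
      refine ⟨mem_endLang.mpr (Or.inl rfl), ?_⟩
      intro hbad
      obtain ⟨p, z, t, -, -, -, h⟩ := mem_badLang.mp hbad
      simp at h
    | cons s S ih =>
      obtain ⟨ihE, ihB⟩ := ih (fun y hy => hS y (by simp [hy]))
      obtain ⟨y, hyY, s', hs', rfl⟩ := Language.mem_mul.mp (hS s (by simp))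
      rw [mem_singleton_lang] at hs'
      subst hs'
      have hyb : b ∉ y := hb y hyY
      have hw : ((y ++ [b]) :: S).flatten = y ++ b :: S.flatten := by simp
      rw [hw]
      constructor
      · rcases mem_endLang.mp ihE with h0 | ⟨v, hv⟩
        · rw [h0]
          exact mem_endLang.mpr (Or.inr ⟨y, rfl⟩)
        · rw [hv]
          exact mem_endLang.mpr (Or.inr ⟨y ++ b :: v, by simp⟩)
      · intro hbad
        obtain ⟨p, z, t, hp, hz, hzY, h⟩ := mem_badLang.mp hbad
        rcases mem_endLang.mp hp with rfl | ⟨v, rfl⟩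
        · rw [List.nil_append] at h
          rcases split_first hyb h with ⟨rfl, -⟩ | ⟨q, rfl, -⟩
          · exact hzY hyY
          · exact hz (by simp)
        · have h' : y ++ b :: S.flatten = v ++ b :: (z ++ b :: t) := by
            rw [h]; simp
          rcases split_first hyb h' with ⟨rfl, h2⟩ | ⟨q, rfl, h2⟩
          · apply ihB
            exact mem_badLang.mpr ⟨[], z, t, mem_endLang.mpr (Or.inl rfl), hz, hzY, by simpa using h2⟩
          · apply ihB
            exact mem_badLang.mpr ⟨q ++ [b], z, t, mem_endLang.mpr (Or.inr ⟨q, rfl⟩), hz, hzY,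
              by rw [h2]; simp⟩
  · rintro ⟨hE, hB⟩
    induction' hn : w.length using Nat.strong_induction_on with n ih generalizing w
    rcases mem_endLang.mp hE with rfl | ⟨v, hv⟩
    · exact Language.nil_mem_kstar _
    · have hbw : b ∈ w := by rw [hv]; simp
      obtain ⟨y, t, hw, hyb⟩ := exists_first_split hbw
      have hyY : y ∈ Y := by
        by_contra hyY
        exact hB (mem_badLang.mpr ⟨[], y, t, mem_endLang.mpr (Or.inl rfl), hyb, hyY, by simpa using hw⟩)
      have htE : t ∈ endLang b := by
        rcases List.eq_nil_or_concat t with rfl | ⟨t', c, rfl⟩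
        · exact mem_endLang.mpr (Or.inl rfl)
        · have h1 : v ++ [b] = (y ++ b :: t') ++ [c] := by
            rw [← hv, hw]; simp
          have h2 := List.append_inj' h1 rfl
          have h3 : b = c := by simpa using h2.2
          subst h3
          exact mem_endLang.mpr (Or.inr ⟨t', by simp⟩)
      have htB : t ∉ badLang b Y := by
        intro htbad
        obtain ⟨p, z, t'', hp, hz, hzY, h⟩ := mem_badLang.mp htbad
        apply hB
        refine mem_badLang.mpr ⟨y ++ b :: p, z, t'', ?_, hz, hzY, by rw [hw, h]; simp⟩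
        rcases mem_endLang.mp hp with rfl | ⟨v', rfl⟩
        · exact mem_endLang.mpr (Or.inr ⟨y, rfl⟩)
        · exact mem_endLang.mpr (Or.inr ⟨y ++ b :: v', by simp⟩)
      have hlen : t.length < n := by
        rw [← hn, hw]; simp; omega
      have ht := ih t.length hlen t htE htB rfl
      have hyb' : y ++ [b] ∈ Y * ({[b]} : Language α) := Language.append_mem_mul hyY rfl
      have := Language.append_mem_mul hyb' ht
      have hle : Y * ({[b]} : Language α) * KStar.kstar (Y * ({[b]} : Language α))
          ≤ KStar.kstar (Y * ({[b]} : Language α)) := mul_kstar_le_kstar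
      have e : y ++ b :: t = (y ++ [b]) ++ t := by simp
      rw [hw, e]
      exact hle this

theorem hasHeight_marker_star {n : ℕ} (b : α) (Y : Language α) (hY : HasHeight n Y)
    (hb : ∀ y ∈ Y, b ∉ y) : HasHeight n (KStar.kstar (Y * ({[b]} : Language α))) := by
  rw [marker_star b Y hb]
  refine (hasHeight_endLang b n).inf ?_
  unfold badLang
  exact ((((hasHeight_endLang b n).mul ((hasHeight_freeLang b n).inf hY.compl)).mul
    (HasHeight.letter b)).mul HasHeight.top).compl

end Vale.Agent.Lib.P329
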