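import Vale.Agent.Lib.P329.Generator

/-!
# Counting scattered subwords of length at most three modulo an integer

The number of occurrences of a word `u` of length at most three as a scattered subword of `w`,
taken modulo `n`, is determined by finitely many observations of `w`, each of which is
recognized with star height one: the numbers of occurrences of the letters and the sums, over
the occurrences of a letter `y`, of the first two powers of the number of letters of a set `S`
(not containing `y`) read before the occurrence.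
-/

namespace Vale.Agent.Lib.P329

open Computability

section Triv

variable {H β : Type} [Group H] [Fintype H] [DecidableEq H] [Fintype β] [DecidableEq β]

/-- when every letter has level one or a fixed generator: the number of occurrences, at a
given level, of a letter of level one, modulo `m`, is recognized with star height one -/
theorem hasHeight_levelCount_triv (lv : β → H) (g : H) (hlv : ∀ b, lv b = 1 ∨ lv b = g)
    (hg : ∀ h : H, ∃ d : ℕ, g ^ d = h) (a : β) (ha : lv a = 1) (q : H) (m : ℕ) [NeZero m]
    (r : ZMod m) :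
    HasHeight 1 (langOf fun w : List β => ((levelCount lv a q 1 w : ℕ) : ZMod m) = r) := by
  let O : List β → ZMod m × ZMod m := fun w =>
    (((dcount (lvStep lv) (lvMark lv q (fun _ => true)) 1 w : ℕ) : ZMod m),
     ((dcount (lvStep lv) (lvMark lv q (naP lv a)) 1 w : ℕ) : ZMod m))
  refine HasHeight.of_obs O ?_ _ ?_
  · intro v
    refine ((hasHeight_arrivals_gen lv g hlv hg q (fun _ => true)
      (fun b hb => by simp at hb) m v.1).inf
      (hasHeight_arrivals_gen lv g hlv hg q (naP lv a) (naP_spec lv a) m v.2)).congr ?_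
    intro w
    simp only [mem_langOf, Language.mem_inf]
    constructor
    · intro h
      rw [← h]
      exact ⟨rfl, rfl⟩
    · rintro ⟨e1, e2⟩
      exact Prod.ext e1 e2
  · intro w w' hO hw
    have hw1 : ((levelCount lv a q 1 w : ℕ) : ZMod m) = r := hw
    show ((levelCount lv a q 1 w' : ℕ) : ZMod m) = r
    have e1 := congrArg (fun n : ℕ => (n : ZMod m)) (all_eq_na_add lv a q ha w 1)
    have e2 := congrArg (fun n : ℕ => (n : ZMod m)) (all_eq_na_add lv a q ha w' 1)
    simp only [Nat.cast_add] at e1 e2
    have h1 : ((dcount (lvStep lv) (lvMark lv q (fun _ => true)) 1 w : ℕ) : ZMod m)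
        = (dcount (lvStep lv) (lvMark lv q (fun _ => true)) 1 w' : ℕ) := congrArg Prod.fst hO
    have h2 : ((dcount (lvStep lv) (lvMark lv q (naP lv a)) 1 w : ℕ) : ZMod m)
        = (dcount (lvStep lv) (lvMark lv q (naP lv a)) 1 w' : ℕ) := congrArg Prod.snd hO
    rw [h1, h2, e2] at e1
    rw [← hw1]
    exact add_left_cancel e1

end Triv

section Sums

variable {α : Type} [DecidableEq α]

/-- the level function counting, modulo `N`, the letters satisfying `S` -/
def slv (S : α → Bool) (N : ℕ) : α → Multiplicative (ZMod N) :=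
  fun c => if S c then Multiplicative.ofAdd (1 : ZMod N) else 1

theorem slv_prod (S : α → Bool) (N : ℕ) (w : List α) :
    (w.map (slv S N)).prod = Multiplicative.ofAdd ((w.countP S : ℕ) : ZMod N) := by
  induction w with
  | nil => simp
  | cons c w ih =>
    rw [List.map_cons, List.prod_cons, ih, List.countP_cons]
    unfold slv
    by_cases h : S c
    · simp only [h, if_true]
      rw [← ofAdd_add]
      congr 1
      push_cast
      ring
    · simp [h]

theorem slv_cases (S : α → Bool) (N : ℕ) (c : α) :
    slv S N c = 1 ∨ slv S N c = Multiplicative.ofAdd (1 : ZMod N) := by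
  unfold slv
  by_cases h : S c
  · right; simp [h]
  · left; simp [h]

theorem slv_gen (N : ℕ) [NeZero N] (h : Multiplicative (ZMod N)) :
    ∃ d : ℕ, (Multiplicative.ofAdd (1 : ZMod N)) ^ d = h := by
  refine ⟨(Multiplicative.toAdd h).val, ?_⟩
  rw [← ofAdd_nsmul, nsmul_eq_mul, mul_one, ZMod.natCast_zmod_val]
  rfl

/-- the sum, over the occurrences of the letter `b`, of the values of `g` at the number of
letters satisfying `S` read before the occurrence, this number starting at `k` -/
def wsum (S : α → Bool) (b : α) (g : ℕ → ℕ) : ℕ → List α → ℕ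
  | _, [] => 0
  | k, c :: w => (if c = b then g k else 0) + wsum S b g (k + if S c then 1 else 0) w

theorem wsum_snoc (S : α → Bool) (b : α) (g : ℕ → ℕ) (w : List α) (c : α) :
    ∀ k : ℕ, wsum S b g k (w ++ [c])
      = wsum S b g k w + (if c = b then g (k + w.countP S) else 0) := by
  induction w with
  | nil => intro k; simp [wsum]
  | cons e w ih =>
    intro k
    show (if e = b then g k else 0) + wsum S b g (k + if S e then 1 else 0) (w ++ [c]) = _
    rw [ih, List.countP_cons]
    have e1 : k + (if S e = true then 1 else 0) + w.countP S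
        = k + (w.countP S + if S e = true then 1 else 0) := by omega
    rw [e1]
    show _ = (if e = b then g k else 0) + wsum S b g (k + if S e then 1 else 0) w + _
    ring

/-- the weighted sum is a combination of the numbers of occurrences at the levels -/
theorem wsum_eq_levelCount (S : α → Bool) (b : α) (g : ℕ → ℕ) (N m : ℕ) [NeZero N]
    (hper : ∀ i : ℕ, ((g (i % N) : ℕ) : ZMod m) = ((g i : ℕ) : ZMod m)) (w : List α) :
    ((wsum S b g 0 w : ℕ) : ZMod m)
      = ∑ q : ZMod N, ((g q.val : ℕ) : ZMod m) *
          ((levelCount (slv S N) b (Multiplicative.ofAdd q) 1 w : ℕ) : ZMod m) := by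
  induction w using List.reverseRecOn with
  | nil => simp [wsum, levelCount, dcount]
  | append_singleton w c ih =>
    rw [wsum_snoc, Nat.cast_add, ih]
    simp only [levelCount_snoc, Nat.cast_add, mul_add, Finset.sum_add_distrib]
    congr 1
    rw [slv_prod, one_mul, zero_add]
    by_cases hc : c = b
    · simp only [hc, if_true, and_true]
      have e : ∀ q : ZMod N, (Multiplicative.ofAdd ((w.countP S : ℕ) : ZMod N)
          = Multiplicative.ofAdd q) ↔ q = ((w.countP S : ℕ) : ZMod N) := by
        intro q
        constructor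
        · intro h; exact (Multiplicative.ofAdd.injective h).symm
        · intro h; rw [h]
      simp only [e, Nat.cast_ite, Nat.cast_one, Nat.cast_zero, mul_ite, mul_one, mul_zero,
        Finset.sum_ite_eq', Finset.mem_univ, if_true]
      rw [ZMod.val_natCast, hper]
    · simp [hc]

variable [Fintype α]

theorem hasHeight_wsum (S : α → Bool) (b : α) (hb : S b = false) (g : ℕ → ℕ) (N m : ℕ)
    [NeZero N] [NeZero m]
    (hper : ∀ i : ℕ, ((g (i % N) : ℕ) : ZMod m) = ((g i : ℕ) : ZMod m)) (r : ZMod m) :
    HasHeight 1 (langOf fun w : List α => ((wsum S b g 0 w : ℕ) : ZMod m) = r) := by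
  let O : List α → (ZMod N → ZMod m) := fun w q =>
    ((levelCount (slv S N) b (Multiplicative.ofAdd q) 1 w : ℕ) : ZMod m)
  have hb1 : slv S N b = 1 := by
    unfold slv
    simp [hb]
  refine HasHeight.of_obs O ?_ _ ?_
  · intro v
    refine (HasHeight.iInter _ (fun q : ZMod N =>
      hasHeight_levelCount_triv (slv S N) (Multiplicative.ofAdd (1 : ZMod N)) (slv_cases S N)
        (slv_gen N) b hb1 (Multiplicative.ofAdd q) m (v q))).congr ?_
    intro w
    simp only [mem_langOf]
    constructor
    · intro h
      rw [← h]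
      exact fun q => rfl
    · intro h
      funext q
      exact h q
  · intro w w' hO hw
    have hw1 : ((wsum S b g 0 w : ℕ) : ZMod m) = r := hw
    show ((wsum S b g 0 w' : ℕ) : ZMod m) = r
    rw [← hw1, wsum_eq_levelCount S b g N m hper w, wsum_eq_levelCount S b g N m hper w']
    exact Finset.sum_congr rfl (fun q _ => congrArg (fun t => _ * t) (congrFun hO q).symm)

/-- the number of letters satisfying `S`, modulo `N` -/
theorem hasHeight_countP (S : α → Bool) (N : ℕ) [NeZero N] (r : ZMod N) :
    HasHeight 1 (langOf fun w : List α => ((w.countP S : ℕ) : ZMod N) = r) := by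
  refine (hasHeight_level_gen (slv S N) (Multiplicative.ofAdd (1 : ZMod N)) (slv_cases S N)
    (slv_gen N) (Multiplicative.ofAdd r)).congr ?_
  intro w
  rw [mem_langOf, mem_langOf, slv_prod]
  constructor
  · intro h; rw [h]
  · intro h; exact Multiplicative.ofAdd.injective h

end Sums

section Subwords

variable {α : Type} [DecidableEq α]

/-- the number of occurrences of `u` as a scattered subword of `w` -/
def sc (u w : List α) : ℕ := List.count u (List.sublists w)

theorem count_map_snoc_self (v : List α) (d : α) (L : List (List α)) :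
    List.count (v ++ [d]) (L.map (fun x => x ++ [d])) = List.count v L :=
  List.count_map_of_injective L (fun x => x ++ [d]) (List.append_left_injective [d]) v

theorem count_map_snoc_ne (v : List α) (e d : α) (h : e ≠ d) (L : List (List α)) :
    List.count (v ++ [e]) (L.map (fun x => x ++ [d])) = 0 := by
  apply List.count_eq_zero_of_not_mem
  intro hm
  obtain ⟨x, -, hx⟩ := List.mem_map.mp hm
  have h2 := congrArg List.getLast? hx
  simp only [List.getLast?_append, List.getLast?_singleton, Option.some_or] at h2
  exact h (Option.some.inj h2).symm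

theorem count_nil_map_snoc (d : α) (L : List (List α)) :
    List.count [] (L.map (fun x => x ++ [d])) = 0 := by
  apply List.count_eq_zero_of_not_mem
  intro hm
  obtain ⟨x, -, hx⟩ := List.mem_map.mp hm
  simp at hx

theorem sc_nil (w : List α) : sc [] w = 1 := by
  induction w using List.reverseRecOn with
  | nil => simp [sc]
  | append_singleton w d ih =>
    unfold sc at ih ⊢
    rw [List.sublists_concat, List.count_append, ih, count_nil_map_snoc]

theorem sc_snoc (v : List α) (e : α) (w : List α) (d : α) :
    sc (v ++ [e]) (w ++ [d]) = sc (v ++ [e]) w + (if e = d then sc v w else 0) := by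
  unfold sc
  rw [List.sublists_concat, List.count_append]
  by_cases h : e = d
  · subst h
    rw [if_pos rfl, count_map_snoc_self]
  · rw [if_neg h, count_map_snoc_ne v e d h]

theorem sc_empty (v : List α) (e : α) : sc (v ++ [e]) [] = 0 := by
  unfold sc
  simp

theorem sc1_snoc (x : α) (w : List α) (d : α) :
    sc [x] (w ++ [d]) = sc [x] w + (if x = d then 1 else 0) := by
  have h := sc_snoc [] x w d
  rw [sc_nil] at h
  exact h

theorem sc2_snoc (x y : α) (w : List α) (d : α) :
    sc [x, y] (w ++ [d]) = sc [x, y] w + (if y = d then sc [x] w else 0) :=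
  sc_snoc [x] y w d

theorem sc3_snoc (x y z : α) (w : List α) (d : α) :
    sc [x, y, z] (w ++ [d]) = sc [x, y, z] w + (if z = d then sc [x, y] w else 0) :=
  sc_snoc [x, y] z w d

theorem count_snoc' (x : α) (w : List α) (d : α) :
    (w ++ [d]).count x = w.count x + (if x = d then 1 else 0) := by
  rw [List.count_append, List.count_singleton]
  by_cases h : x = d
  · simp [h]
  · have h' : ¬ d = x := fun e => h e.symm
    simp [h, h']

/-- the occurrences of a one-letter word -/
theorem sc_one (x : α) (w : List α) : sc [x] w = w.count x := by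
  induction w using List.reverseRecOn with
  | nil => exact sc_empty [] x
  | append_singleton w d ih => rw [sc1_snoc, count_snoc', ih]

/-- the letters equal to `x` or `z`, and different from `y` -/
def sel (x z y : α) : α → Bool := fun c => (decide (c = x) || decide (c = z)) && !decide (c = y)

theorem sel_self (x z y : α) : sel x z y y = false := by
  unfold sel
  simp

theorem countP_sel_one (x y : α) (h : x ≠ y) (w : List α) :
    w.countP (sel x x y) = w.count x := by
  induction w with
  | nil => rfl
  | cons c w ih =>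
    rw [List.countP_cons, List.count_cons, ih]
    congr 1
    unfold sel
    by_cases h1 : c = x
    · subst h1
      simp [h]
    · simp [h1]

theorem countP_sel_two (x z y : α) (hxy : x ≠ y) (hzy : z ≠ y) (hxz : x ≠ z) (w : List α) :
    w.countP (sel x z y) = w.count x + w.count z := by
  induction w with
  | nil => rfl
  | cons c w ih =>
    rw [List.countP_cons, List.count_cons, List.count_cons, ih]
    have e : (if sel x z y c = true then 1 else 0)
        = (if (c == x) = true then 1 else 0) + (if (c == z) = true then 1 else 0) := by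
      unfold sel
      by_cases h1 : c = x
      · subst h1
        simp [hxy, hxz]
      · by_cases h2 : c = z
        · subst h2
          simp [hzy, h1]
        · simp [h1, h2]
    rw [e]
    ring

theorem wsum_snoc0 (S : α → Bool) (b : α) (g : ℕ → ℕ) (w : List α) (c : α) :
    wsum S b g 0 (w ++ [c]) = wsum S b g 0 w + (if c = b then g (w.countP S) else 0) := by
  rw [wsum_snoc, zero_add]

/-- a two-letter word with distinct letters -/
theorem sc_two_ne (x y : α) (h : x ≠ y) (w : List α) :
    sc [x, y] w = wsum (sel x x y) y (fun i => i) 0 w := by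
  induction w using List.reverseRecOn with
  | nil => exact sc_empty [x] y
  | append_singleton w d ih =>
    rw [sc2_snoc, wsum_snoc0, ih, sc_one, countP_sel_one x y h]
    by_cases h1 : y = d
    · subst h1
      simp
    · have h2 : ¬ d = y := fun e => h1 e.symm
      simp [h1, h2]

/-- a two-letter word with equal letters -/
theorem sc_two_eq (x : α) (w : List α) :
    2 * sc [x, x] w + w.count x = w.count x ^ 2 := by
  induction w using List.reverseRecOn with
  | nil =>
    have h : sc [x, x] ([] : List α) = 0 := sc_empty [x] x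
    rw [h]
    rfl
  | append_singleton w d ih =>
    rw [sc2_snoc, count_snoc', sc_one]
    by_cases h1 : x = d
    · simp only [h1, if_true]
      rw [h1] at ih
      nlinarith [ih]
    · simp only [h1, if_false, add_zero]
      exact ih

/-- three distinct letters -/
theorem sc_three_distinct (x y z : α) (hxy : x ≠ y) (hyz : y ≠ z) (hxz : x ≠ z) (w : List α) :
    2 * sc [x, y, z] w + wsum (sel x z y) y (fun i => i ^ 2) 0 w
      = 2 * w.count z * wsum (sel x x y) y (fun i => i) 0 w
        + wsum (sel x x y) y (fun i => i ^ 2) 0 w + wsum (sel z z y) y (fun i => i ^ 2) 0 w := by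
  induction w using List.reverseRecOn with
  | nil =>
    have h : sc [x, y, z] ([] : List α) = 0 := sc_empty [x, y] z
    rw [h]
    rfl
  | append_singleton w d ih =>
    rw [sc3_snoc, wsum_snoc0, wsum_snoc0, wsum_snoc0, wsum_snoc0, count_snoc',
      sc_two_ne x y hxy, countP_sel_two x z y hxy (fun e => hyz e.symm) hxz,
      countP_sel_one x y hxy, countP_sel_one z y (fun e => hyz e.symm)]
    by_cases h1 : d = y
    · subst h1
      have hz : ¬ z = d := fun e => hyz e.symm
      simp only [hz, eq_self_iff_true, if_true, if_false, add_zero]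
      nlinarith [ih]
    · by_cases h2 : z = d
      · subst h2
        simp only [h1, eq_self_iff_true, if_true, if_false, add_zero]
        nlinarith [ih]
      · simp only [h1, h2, if_false, add_zero]
        exact ih

/-- the pattern `x x z` -/
theorem sc_three_xxz (x z : α) (hxz : x ≠ z) (w : List α) :
    2 * sc [x, x, z] w + wsum (sel x x z) z (fun i => i) 0 w
      = wsum (sel x x z) z (fun i => i ^ 2) 0 w := by
  induction w using List.reverseRecOn with
  | nil =>
    have h : sc [x, x, z] ([] : List α) = 0 := sc_empty [x, x] z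
    rw [h]
    rfl
  | append_singleton w d ih =>
    rw [sc3_snoc, wsum_snoc0, wsum_snoc0, countP_sel_one x z hxz]
    have h3 := sc_two_eq x w
    by_cases h1 : z = d
    · subst h1
      simp only [eq_self_iff_true, if_true]
      nlinarith [ih, h3]
    · have h2 : ¬ d = z := fun e => h1 e.symm
      simp only [h1, h2, if_false, add_zero]
      exact ih

/-- the pattern `x y x` -/
theorem sc_three_xyx (x y : α) (hxy : x ≠ y) (w : List α) :
    sc [x, y, x] w + wsum (sel x x y) y (fun i => i ^ 2) 0 w
      = w.count x * wsum (sel x x y) y (fun i => i) 0 w := by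
  induction w using List.reverseRecOn with
  | nil =>
    have h : sc [x, y, x] ([] : List α) = 0 := sc_empty [x, y] x
    rw [h]
    rfl
  | append_singleton w d ih =>
    rw [sc3_snoc, wsum_snoc0, wsum_snoc0, count_snoc', sc_two_ne x y hxy,
      countP_sel_one x y hxy]
    by_cases h1 : d = y
    · subst h1
      have hx : ¬ x = d := hxy
      simp only [hx, eq_self_iff_true, if_true, if_false, add_zero]
      nlinarith [ih]
    · by_cases h2 : x = d
      · subst h2
        simp only [h1, eq_self_iff_true, if_true, if_false, add_zero]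
        nlinarith [ih]
      · simp only [h1, h2, if_false, add_zero]
        exact ih

/-- the pattern `x x x` -/
theorem sc_three_xxx (x : α) (w : List α) :
    6 * sc [x, x, x] w + 3 * w.count x ^ 2 = w.count x ^ 3 + 2 * w.count x := by
  induction w using List.reverseRecOn with
  | nil =>
    have h : sc [x, x, x] ([] : List α) = 0 := sc_empty [x, x] x
    rw [h]
    rfl
  | append_singleton w d ih =>
    rw [sc3_snoc, count_snoc']
    have h3 := sc_two_eq x w
    by_cases h1 : x = d
    · simp only [h1, if_true]
      rw [h1] at ih h3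
      nlinarith [ih, h3]
    · simp only [h1, if_false, add_zero]
      exact ih

/-- reversing both words -/
theorem sc_reverse (u w : List α) : sc u w.reverse = sc u.reverse w := by
  unfold sc
  rw [List.sublists_reverse]
  have h := List.count_map_of_injective (List.sublists' w) List.reverse List.reverse_injective
    u.reverse
  rw [List.reverse_reverse] at h
  rw [h]
  exact ((List.sublists_perm_sublists' w).count_eq _).symm

end Subwords

section Observations

variable {α : Type} [DecidableEq α]

/-- the observations: the numbers of occurrences of the letters and the weighted sums, all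
modulo `M` -/
def obsAll (M : ℕ) (w : List α) : (α → ZMod M) × (α × α × α → ZMod M × ZMod M) :=
  (fun x => ((w.count x : ℕ) : ZMod M),
   fun t => (((wsum (sel t.1 t.2.1 t.2.2) t.2.2 (fun i => i) 0 w : ℕ) : ZMod M),
             ((wsum (sel t.1 t.2.1 t.2.2) t.2.2 (fun i => i ^ 2) 0 w : ℕ) : ZMod M)))

theorem obs_count {M : ℕ} {w w' : List α} (h : obsAll M w = obsAll M w') (x : α) :
    ((w.count x : ℕ) : ZMod M) = ((w'.count x : ℕ) : ZMod M) :=
  congrFun (congrArg Prod.fst h) x

theorem obs_lin {M : ℕ} {w w' : List α} (h : obsAll M w = obsAll M w') (x z y : α) :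
    ((wsum (sel x z y) y (fun i => i) 0 w : ℕ) : ZMod M)
      = ((wsum (sel x z y) y (fun i => i) 0 w' : ℕ) : ZMod M) :=
  congrArg Prod.fst (congrFun (congrArg Prod.snd h) (x, z, y))

theorem obs_sq {M : ℕ} {w w' : List α} (h : obsAll M w = obsAll M w') (x z y : α) :
    ((wsum (sel x z y) y (fun i => i ^ 2) 0 w : ℕ) : ZMod M)
      = ((wsum (sel x z y) y (fun i => i ^ 2) 0 w' : ℕ) : ZMod M) :=
  congrArg Prod.snd (congrFun (congrArg Prod.snd h) (x, z, y))

theorem countP_decide_eq (x : α) (w : List α) :
    w.countP (fun c => decide (c = x)) = w.count x := by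
  induction w with
  | nil => rfl
  | cons c w ih =>
    rw [List.countP_cons, List.count_cons, ih]
    by_cases h : c = x <;> simp [h]

variable [Fintype α]

/-- a language saturated by the observations has star height at most one -/
theorem hasHeight_of_obsAll (M : ℕ) [NeZero M] (L : Language α)
    (hsat : ∀ w w', obsAll M w = obsAll M w' → w ∈ L → w' ∈ L) : HasHeight 1 L := by
  refine HasHeight.of_obs (obsAll M) ?_ L hsat
  intro v
  have h1 : ∀ x : α, HasHeight 1 (langOf fun w : List α => ((w.count x : ℕ) : ZMod M) = v.1 x) := by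
    intro x
    refine (hasHeight_countP (fun c => decide (c = x)) M (v.1 x)).congr ?_
    intro w
    rw [mem_langOf, mem_langOf, countP_decide_eq]
  have hper1 : ∀ i : ℕ, ((((fun i : ℕ => i) (i % M) : ℕ)) : ZMod M)
      = ((((fun i : ℕ => i) i : ℕ)) : ZMod M) := by
    intro i
    exact ZMod.natCast_mod i M
  have hper2 : ∀ i : ℕ, ((((fun i : ℕ => i ^ 2) (i % M) : ℕ)) : ZMod M)
      = ((((fun i : ℕ => i ^ 2) i : ℕ)) : ZMod M) := by
    intro i
    show (((i % M) ^ 2 : ℕ) : ZMod M) = ((i ^ 2 : ℕ) : ZMod M)
    rw [Nat.cast_pow, Nat.cast_pow, ZMod.natCast_mod]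
  have h2 : ∀ t : α × α × α, HasHeight 1 (langOf fun w : List α =>
      ((wsum (sel t.1 t.2.1 t.2.2) t.2.2 (fun i => i) 0 w : ℕ) : ZMod M) = (v.2 t).1) :=
    fun t => hasHeight_wsum _ _ (sel_self _ _ _) _ M M hper1 _
  have h3 : ∀ t : α × α × α, HasHeight 1 (langOf fun w : List α =>
      ((wsum (sel t.1 t.2.1 t.2.2) t.2.2 (fun i => i ^ 2) 0 w : ℕ) : ZMod M) = (v.2 t).2) :=
    fun t => hasHeight_wsum _ _ (sel_self _ _ _) _ M M hper2 _
  refine ((HasHeight.iInter _ h1).inf (HasHeight.iInter _ (fun t => (h2 t).inf (h3 t)))).congr ?_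
  intro w
  simp only [mem_langOf, Language.mem_inf]
  constructor
  · intro h
    rw [← h]
    exact ⟨fun x => rfl, fun t => ⟨rfl, rfl⟩⟩
  · rintro ⟨e1, e2⟩
    refine Prod.ext (funext e1) (funext fun t => Prod.ext (e2 t).1 (e2 t).2)

end Observations

section Determined

variable {α : Type} [DecidableEq α]

theorem modEq_of_cast_mul (k n c c' : ℕ) (hk : k ≠ 0) (j : ℕ)
    (h : ((k * c : ℕ) : ZMod (k * j * n)) = ((k * c' : ℕ) : ZMod (k * j * n))) :
    c ≡ c' [MOD n] := by
  have h1 : k * c ≡ k * c' [MOD k * (j * n)] := by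
    rw [← mul_assoc]
    exact (ZMod.natCast_eq_natCast_iff _ _ _).mp h
  exact (Nat.ModEq.mul_left_cancel' hk h1).of_mul_left j

variable {n : ℕ} {w w' : List α}

theorem det_one (h : obsAll (6 * n) w = obsAll (6 * n) w') (x : α) :
    sc [x] w ≡ sc [x] w' [MOD n] := by
  rw [sc_one, sc_one]
  have h1 := (ZMod.natCast_eq_natCast_iff _ _ _).mp (obs_count h x)
  exact h1.of_mul_left 6

theorem det_two_ne (h : obsAll (6 * n) w = obsAll (6 * n) w') (x y : α) (hxy : x ≠ y) :
    sc [x, y] w ≡ sc [x, y] w' [MOD n] := by
  rw [sc_two_ne x y hxy, sc_two_ne x y hxy]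
  have h1 := (ZMod.natCast_eq_natCast_iff _ _ _).mp (obs_lin h x x y)
  exact h1.of_mul_left 6

theorem det_two_eq (h : obsAll (6 * n) w = obsAll (6 * n) w') (x : α) :
    sc [x, x] w ≡ sc [x, x] w' [MOD n] := by
  have i1 := congrArg (fun k : ℕ => (k : ZMod (2 * 3 * n))) (sc_two_eq x w)
  have i2 := congrArg (fun k : ℕ => (k : ZMod (2 * 3 * n))) (sc_two_eq x w')
  have hc : ((w.count x : ℕ) : ZMod (2 * 3 * n)) = ((w'.count x : ℕ) : ZMod (2 * 3 * n)) :=
    obs_count h x
  simp only [Nat.cast_add, Nat.cast_mul, Nat.cast_pow, Nat.cast_ofNat] at i1 i2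
  rw [hc] at i1
  refine modEq_of_cast_mul 2 n _ _ two_ne_zero 3 ?_
  push_cast
  linear_combination i1 - i2

theorem det_distinct (h : obsAll (6 * n) w = obsAll (6 * n) w') (x y z : α) (hxy : x ≠ y)
    (hyz : y ≠ z) (hxz : x ≠ z) : sc [x, y, z] w ≡ sc [x, y, z] w' [MOD n] := by
  have i1 := congrArg (fun k : ℕ => (k : ZMod (2 * 3 * n))) (sc_three_distinct x y z hxy hyz hxz w)
  have i2 := congrArg (fun k : ℕ => (k : ZMod (2 * 3 * n))) (sc_three_distinct x y z hxy hyz hxz w')
  have hc : ((w.count z : ℕ) : ZMod (2 * 3 * n)) = ((w'.count z : ℕ) : ZMod (2 * 3 * n)) :=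
    obs_count h z
  have hP : ((wsum (sel x x y) y (fun i => i) 0 w : ℕ) : ZMod (2 * 3 * n))
      = ((wsum (sel x x y) y (fun i => i) 0 w' : ℕ) : ZMod (2 * 3 * n)) := obs_lin h x x y
  have hQ : ((wsum (sel x z y) y (fun i => i ^ 2) 0 w : ℕ) : ZMod (2 * 3 * n))
      = ((wsum (sel x z y) y (fun i => i ^ 2) 0 w' : ℕ) : ZMod (2 * 3 * n)) := obs_sq h x z y
  have hQx : ((wsum (sel x x y) y (fun i => i ^ 2) 0 w : ℕ) : ZMod (2 * 3 * n))
      = ((wsum (sel x x y) y (fun i => i ^ 2) 0 w' : ℕ) : ZMod (2 * 3 * n)) := obs_sq h x x y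
  have hQz : ((wsum (sel z z y) y (fun i => i ^ 2) 0 w : ℕ) : ZMod (2 * 3 * n))
      = ((wsum (sel z z y) y (fun i => i ^ 2) 0 w' : ℕ) : ZMod (2 * 3 * n)) := obs_sq h z z y
  simp only [Nat.cast_add, Nat.cast_mul, Nat.cast_ofNat] at i1 i2
  rw [hc, hP, hQ, hQx, hQz] at i1
  refine modEq_of_cast_mul 2 n _ _ two_ne_zero 3 ?_
  push_cast
  linear_combination i1 - i2

theorem det_xxz (h : obsAll (6 * n) w = obsAll (6 * n) w') (x z : α) (hxz : x ≠ z) :
    sc [x, x, z] w ≡ sc [x, x, z] w' [MOD n] := by
  have i1 := congrArg (fun k : ℕ => (k : ZMod (2 * 3 * n))) (sc_three_xxz x z hxz w)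
  have i2 := congrArg (fun k : ℕ => (k : ZMod (2 * 3 * n))) (sc_three_xxz x z hxz w')
  have hP : ((wsum (sel x x z) z (fun i => i) 0 w : ℕ) : ZMod (2 * 3 * n))
      = ((wsum (sel x x z) z (fun i => i) 0 w' : ℕ) : ZMod (2 * 3 * n)) := obs_lin h x x z
  have hQ : ((wsum (sel x x z) z (fun i => i ^ 2) 0 w : ℕ) : ZMod (2 * 3 * n))
      = ((wsum (sel x x z) z (fun i => i ^ 2) 0 w' : ℕ) : ZMod (2 * 3 * n)) := obs_sq h x x z
  simp only [Nat.cast_add, Nat.cast_mul, Nat.cast_ofNat] at i1 i2
  rw [hP, hQ] at i1
  refine modEq_of_cast_mul 2 n _ _ two_ne_zero 3 ?_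
  push_cast
  linear_combination i1 - i2

theorem det_xyx (h : obsAll (6 * n) w = obsAll (6 * n) w') (x y : α) (hxy : x ≠ y) :
    sc [x, y, x] w ≡ sc [x, y, x] w' [MOD n] := by
  have i1 := congrArg (fun k : ℕ => (k : ZMod (6 * n))) (sc_three_xyx x y hxy w)
  have i2 := congrArg (fun k : ℕ => (k : ZMod (6 * n))) (sc_three_xyx x y hxy w')
  have hc : ((w.count x : ℕ) : ZMod (6 * n)) = ((w'.count x : ℕ) : ZMod (6 * n)) :=
    obs_count h x
  have hP : ((wsum (sel x x y) y (fun i => i) 0 w : ℕ) : ZMod (6 * n))
      = ((wsum (sel x x y) y (fun i => i) 0 w' : ℕ) : ZMod (6 * n)) := obs_lin h x x y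
  have hQ : ((wsum (sel x x y) y (fun i => i ^ 2) 0 w : ℕ) : ZMod (6 * n))
      = ((wsum (sel x x y) y (fun i => i ^ 2) 0 w' : ℕ) : ZMod (6 * n)) := obs_sq h x x y
  simp only [Nat.cast_add, Nat.cast_mul] at i1 i2
  rw [hc, hP, hQ] at i1
  have e : ((sc [x, y, x] w : ℕ) : ZMod (6 * n)) = ((sc [x, y, x] w' : ℕ) : ZMod (6 * n)) := by
    linear_combination i1 - i2
  exact ((ZMod.natCast_eq_natCast_iff _ _ _).mp e).of_mul_left 6

theorem det_xxx (h : obsAll (6 * n) w = obsAll (6 * n) w') (x : α) :
    sc [x, x, x] w ≡ sc [x, x, x] w' [MOD n] := by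
  have i1 := congrArg (fun k : ℕ => (k : ZMod (6 * 1 * n))) (sc_three_xxx x w)
  have i2 := congrArg (fun k : ℕ => (k : ZMod (6 * 1 * n))) (sc_three_xxx x w')
  have hc : ((w.count x : ℕ) : ZMod (6 * 1 * n)) = ((w'.count x : ℕ) : ZMod (6 * 1 * n)) := by
    have := obs_count h x
    rw [mul_one]
    exact this
  simp only [Nat.cast_add, Nat.cast_mul, Nat.cast_pow, Nat.cast_ofNat] at i1 i2
  rw [hc] at i1
  refine modEq_of_cast_mul 6 n _ _ (by norm_num) 1 ?_
  push_cast
  linear_combination i1 - i2

end Determined

section Main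

variable {α : Type} [DecidableEq α] [Fintype α]

theorem hasHeight_sc_of_det (u : List α) (n : ℕ) [NeZero n] (r : ZMod n)
    (hdet : ∀ w w' : List α, obsAll (6 * n) w = obsAll (6 * n) w' → sc u w ≡ sc u w' [MOD n]) :
    HasHeight 1 (langOf fun w : List α => ((sc u w : ℕ) : ZMod n) = r) := by
  haveI : NeZero (6 * n) := ⟨Nat.mul_ne_zero (by norm_num) (NeZero.ne n)⟩
  refine hasHeight_of_obsAll (6 * n) _ ?_
  intro w w' hO hw
  have hw1 : ((sc u w : ℕ) : ZMod n) = r := hw
  show ((sc u w' : ℕ) : ZMod n) = r
  rw [← hw1]
  exact ((ZMod.natCast_eq_natCast_iff _ _ _).mpr (hdet w w' hO)).symm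

/-- the number of occurrences of a word of length at most three as a scattered subword,
modulo `n`, is recognized with star height one -/
theorem hasHeight_sc (u : List α) (hu : u.length ≤ 3) (n : ℕ) [NeZero n] (r : ZMod n) :
    HasHeight 1 (langOf fun w : List α => ((sc u w : ℕ) : ZMod n) = r) := by
  match u, hu with
  | [], _ => exact hasHeight_sc_of_det [] n r (fun w w' _ => by rw [sc_nil, sc_nil])
  | [x], _ => exact hasHeight_sc_of_det [x] n r (fun w w' h => det_one h x)
  | [x, y], _ =>
    by_cases hxy : x = y
    · subst hxy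
      exact hasHeight_sc_of_det _ n r (fun w w' h => det_two_eq h x)
    · exact hasHeight_sc_of_det _ n r (fun w w' h => det_two_ne h x y hxy)
  | [x, y, z], _ =>
    by_cases hxy : x = y
    · subst hxy
      by_cases hxz : x = z
      · subst hxz
        exact hasHeight_sc_of_det _ n r (fun w w' h => det_xxx h x)
      · exact hasHeight_sc_of_det _ n r (fun w w' h => det_xxz h x z hxz)
    · by_cases hyz : y = z
      · subst hyz
        have h1 := hasHeight_sc_of_det [y, y, x] n r
          (fun w w' h => det_xxz h y x (fun e => hxy e.symm))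
        refine (hasHeight_reverse h1).congr ?_
        intro w
        rw [Language.mem_reverse, mem_langOf, mem_langOf, sc_reverse]
        rfl
      · by_cases hxz : x = z
        · subst hxz
          exact hasHeight_sc_of_det _ n r (fun w w' h => det_xyx h x y hxy)
        · exact hasHeight_sc_of_det _ n r (fun w w' h => det_distinct h x y z hxy hyz hxz)
  | _ :: _ :: _ :: _ :: _, h =>
    simp only [List.length_cons] at h
    omega

/-- the same statement with remainders of natural numbers -/
theorem hasHeight_sc_mod (u : List α) (hu : u.length ≤ 3) (n : ℕ) (hn : 0 < n) (r : ℕ) :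
    HasHeight 1 (langOf fun w : List α => (List.count u (List.sublists w)) % n = r) := by
  haveI : NeZero n := ⟨hn.ne'⟩
  by_cases hr : r < n
  · refine (hasHeight_sc u hu n (r : ZMod n)).congr ?_
    intro w
    rw [mem_langOf, mem_langOf, ZMod.natCast_eq_natCast_iff', Nat.mod_eq_of_lt hr]
    rfl
  · refine (HasHeight.zero (n := 1)).congr ?_
    intro w
    rw [mem_langOf]
    constructor
    · intro h
      exact absurd (h ▸ Nat.mod_lt _ hn) hr
    · intro h
      exact absurd h (Language.notMem_zero w)

end Main

section RingForm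

variable {α : Type} [DecidableEq α] [Fintype α] {R : Type} [Ring R]

/-- the part of degree one of the product of the elements `1 + x a` along a word -/
def tOne (x : α → R) (w : List α) : R := ∑ a, (sc [a] w : R) * x a

/-- the part of degree two -/
def tTwo (x : α → R) (w : List α) : R := ∑ a, ∑ b, (sc [a, b] w : R) * (x a * x b)

/-- the part of degree three -/
def tThree (x : α → R) (w : List α) : R :=
  ∑ a, ∑ b, ∑ c, (sc [a, b, c] w : R) * (x a * x b * x c)

theorem tOne_nil (x : α → R) : tOne x [] = 0 := by
  unfold tOne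
  apply Finset.sum_eq_zero
  intro a _
  rw [show sc [a] ([] : List α) = 0 from sc_empty [] a]
  simp

theorem tTwo_nil (x : α → R) : tTwo x [] = 0 := by
  unfold tTwo
  apply Finset.sum_eq_zero
  intro a _
  apply Finset.sum_eq_zero
  intro b _
  rw [show sc [a, b] ([] : List α) = 0 from sc_empty [a] b]
  simp

theorem tThree_nil (x : α → R) : tThree x [] = 0 := by
  unfold tThree
  apply Finset.sum_eq_zero
  intro a _
  apply Finset.sum_eq_zero
  intro b _
  apply Finset.sum_eq_zero
  intro c _
  rw [show sc [a, b, c] ([] : List α) = 0 from sc_empty [a, b] c]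
  simp

theorem tOne_snoc (x : α → R) (w : List α) (d : α) : tOne x (w ++ [d]) = tOne x w + x d := by
  unfold tOne
  simp only [sc1_snoc, Nat.cast_add, add_mul, Finset.sum_add_distrib]
  congr 1
  simp only [Nat.cast_ite, Nat.cast_one, Nat.cast_zero, ite_mul, one_mul, zero_mul,
    Finset.sum_ite_eq', Finset.mem_univ, if_true]

theorem tTwo_snoc (x : α → R) (w : List α) (d : α) :
    tTwo x (w ++ [d]) = tTwo x w + tOne x w * x d := by
  unfold tTwo tOne
  simp only [sc2_snoc, Nat.cast_add, add_mul, Finset.sum_add_distrib]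
  congr 1
  rw [Finset.sum_mul]
  refine Finset.sum_congr rfl (fun a _ => ?_)
  simp only [Nat.cast_ite, Nat.cast_zero, ite_mul, zero_mul,
    Finset.sum_ite_eq', Finset.mem_univ, if_true]
  rw [mul_assoc]

theorem tThree_snoc (x : α → R) (w : List α) (d : α) :
    tThree x (w ++ [d]) = tThree x w + tTwo x w * x d := by
  unfold tThree tTwo
  simp only [sc3_snoc, Nat.cast_add, add_mul, Finset.sum_add_distrib]
  congr 1
  rw [Finset.sum_mul]
  refine Finset.sum_congr rfl (fun a _ => ?_)
  rw [Finset.sum_mul]
  refine Finset.sum_congr rfl (fun b _ => ?_)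
  simp only [Nat.cast_ite, Nat.cast_zero, ite_mul, zero_mul,
    Finset.sum_ite_eq', Finset.mem_univ, if_true]
  simp only [mul_assoc]

theorem tThree_mul (x : α → R) (hx : ∀ a b c d, x a * x b * x c * x d = 0) (w : List α)
    (d : α) : tThree x w * x d = 0 := by
  unfold tThree
  rw [Finset.sum_mul]
  apply Finset.sum_eq_zero
  intro a _
  rw [Finset.sum_mul]
  apply Finset.sum_eq_zero
  intro b _
  rw [Finset.sum_mul]
  apply Finset.sum_eq_zero
  intro c _
  rw [mul_assoc, hx, mul_zero]

/-- the product of the elements `1 + x a` along a word, when the products of four of the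
`x a` vanish -/
theorem prod_one_add (x : α → R) (hx : ∀ a b c d, x a * x b * x c * x d = 0) (w : List α) :
    (w.map (fun a => 1 + x a)).prod = 1 + tOne x w + tTwo x w + tThree x w := by
  induction w using List.reverseRecOn with
  | nil => simp [tOne_nil, tTwo_nil, tThree_nil]
  | append_singleton w d ih =>
    rw [List.map_append, List.prod_append, ih, List.map_singleton, List.prod_singleton,
      tOne_snoc, tTwo_snoc, tThree_snoc]
    have h3 := tThree_mul x hx w d
    rw [mul_add, mul_one, add_mul, add_mul, add_mul, one_mul, h3]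
    abel

theorem cast_eq_of_modEq (M : ℕ) (hM : (M : R) = 0) (k k' : ℕ) (h : k ≡ k' [MOD M]) :
    (k : R) = (k' : R) := by
  have e : ∀ j : ℕ, (j : R) = ((j % M : ℕ) : R) := by
    intro j
    conv_lhs => rw [← Nat.mod_add_div j M]
    rw [Nat.cast_add, Nat.cast_mul, hM, zero_mul, add_zero]
  rw [e k, e k']
  exact congrArg _ h

/-- Every language recognized through the elements `1 + x a` of a finite ring in which the
products of four of the elements `x a` vanish has star height at most one. -/
theorem hasHeight_ring_nilpotent [Finite R] (x : α → R)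
    (hx : ∀ a b c d, x a * x b * x c * x d = 0) (S : Set R) :
    HasHeight 1 (langOf fun w : List α => (w.map (fun a => 1 + x a)).prod ∈ S) := by
  classical
  haveI : Fintype R := Fintype.ofFinite R
  have hMne : Fintype.card R ≠ 0 := Fintype.card_ne_zero
  haveI : NeZero (Fintype.card R) := ⟨hMne⟩
  have hM : ((Fintype.card R : ℕ) : R) = 0 := Nat.cast_card_eq_zero R
  let O : List α → (α → ZMod (Fintype.card R)) × (α × α → ZMod (Fintype.card R))
      × (α × α × α → ZMod (Fintype.card R)) := fun w =>
    (fun a => ((sc [a] w : ℕ) : ZMod (Fintype.card R)),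
     fun p => ((sc [p.1, p.2] w : ℕ) : ZMod (Fintype.card R)),
     fun t => ((sc [t.1, t.2.1, t.2.2] w : ℕ) : ZMod (Fintype.card R)))
  refine HasHeight.of_obs O ?_ _ ?_
  · intro v
    refine ((HasHeight.iInter _ (fun a : α =>
        hasHeight_sc [a] (by simp) (Fintype.card R) (v.1 a))).inf
      ((HasHeight.iInter _ (fun p : α × α =>
        hasHeight_sc [p.1, p.2] (by simp) (Fintype.card R) (v.2.1 p))).inf
      (HasHeight.iInter _ (fun t : α × α × α =>
        hasHeight_sc [t.1, t.2.1, t.2.2] (by simp) (Fintype.card R) (v.2.2 t))))).congr ?_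
    intro w
    simp only [mem_langOf, Language.mem_inf]
    constructor
    · intro h
      rw [← h]
      exact ⟨fun a => rfl, fun p => rfl, fun t => rfl⟩
    · rintro ⟨e1, e2, e3⟩
      exact Prod.ext (funext e1) (Prod.ext (funext e2) (funext e3))
  · intro w w' hO hw
    have hw1 : (w.map (fun a => 1 + x a)).prod ∈ S := hw
    show (w'.map (fun a => 1 + x a)).prod ∈ S
    have c1 : ∀ a : α, ((sc [a] w : ℕ) : R) = ((sc [a] w' : ℕ) : R) := fun a =>
      cast_eq_of_modEq _ hM _ _
        ((ZMod.natCast_eq_natCast_iff _ _ _).mp (congrFun (congrArg Prod.fst hO) a))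
    have c2 : ∀ a b : α, ((sc [a, b] w : ℕ) : R) = ((sc [a, b] w' : ℕ) : R) := fun a b =>
      cast_eq_of_modEq _ hM _ _
        ((ZMod.natCast_eq_natCast_iff _ _ _).mp
          (congrFun (congrArg (fun o => o.2.1) hO) (a, b)))
    have c3 : ∀ a b c : α, ((sc [a, b, c] w : ℕ) : R) = ((sc [a, b, c] w' : ℕ) : R) :=
      fun a b c => cast_eq_of_modEq _ hM _ _
        ((ZMod.natCast_eq_natCast_iff _ _ _).mp
          (congrFun (congrArg (fun o => o.2.2) hO) (a, b, c)))
    have e1 : tOne x w = tOne x w' :=
      Finset.sum_congr rfl (fun a _ => by rw [c1 a])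
    have e2 : tTwo x w = tTwo x w' :=
      Finset.sum_congr rfl (fun a _ => Finset.sum_congr rfl (fun b _ => by rw [c2 a b]))
    have e3 : tThree x w = tThree x w' :=
      Finset.sum_congr rfl (fun a _ => Finset.sum_congr rfl (fun b _ =>
        Finset.sum_congr rfl (fun c _ => by rw [c3 a b c])))
    rw [prod_one_add x hx w, e1, e2, e3, ← prod_one_add x hx w'] at hw1
    exact hw1

end RingForm

end Vale.Agent.Lib.P329
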