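import Vale.Agent.Lib.P329.Modular

/-!
# Two-sided counting over an aperiodic monoid

For a finite aperiodic monoid `M` and a morphism given by `φ : α → M`, the positions of a word
are classified by the value of the prefix before them, their letter and the value of the suffix
after them.  The number of positions of a given class, modulo `n`, is an observation whose
fibres have star height at most one: the positions of the class cut the word into a first
block, blocks between consecutive positions of the class and a last block; the three sets of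
blocks are star-free.
-/

namespace Vale.Agent.Lib.P329

open Computability

section Values

variable {M α : Type} [Monoid M]

/-- the value of a word -/
def mval (φ : α → M) (w : List α) : M := (w.map φ).prod

theorem mval_nil (φ : α → M) : mval φ [] = 1 := rfl

theorem mval_cons (φ : α → M) (b : α) (v : List α) : mval φ (b :: v) = φ b * mval φ v := by
  unfold mval
  simp

theorem mval_append (φ : α → M) (x y : List α) : mval φ (x ++ y) = mval φ x * mval φ y := by
  unfold mval
  simp

theorem mem_mul_letter_mul (K₁ K₂ : Language α) (a : α) (w : List α) :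
    w ∈ K₁ * {[a]} * K₂ ↔ ∃ u v, w = u ++ a :: v ∧ u ∈ K₁ ∧ v ∈ K₂ := by
  constructor
  · intro h
    obtain ⟨x, hx, v, hv, rfl⟩ := Language.mem_mul.mp h
    obtain ⟨u, hu, y, hy, rfl⟩ := Language.mem_mul.mp hx
    rw [mem_singleton_lang] at hy
    subst hy
    exact ⟨u, v, by simp, hu, hv⟩
  · rintro ⟨u, v, rfl, hu, hv⟩
    exact Language.mem_mul.mpr
      ⟨u ++ [a], Language.mem_mul.mpr ⟨u, hu, [a], rfl, rfl⟩, v, hv, by simp⟩

end Values

section TwoSided

variable {M α : Type} [Monoid M] [DecidableEq M] [DecidableEq α]
  (φ : α → M) (m : M) (a : α) (m' : M)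

/-- the number of positions of a word, read in the left context `s` and the right context `c`,
that carry the letter `a`, with left value `m` and right value `m'` -/
def bcount (c : M) : M → List α → ℕ
  | _, [] => 0
  | s, b :: v =>
    (if s = m ∧ b = a ∧ mval φ v * c = m' then 1 else 0) + bcount c (s * φ b) v

theorem bcount_nil (c s : M) : bcount φ m a m' c s [] = 0 := rfl

theorem bcount_cons (c s : M) (b : α) (v : List α) :
    bcount φ m a m' c s (b :: v)
      = (if s = m ∧ b = a ∧ mval φ v * c = m' then 1 else 0)
        + bcount φ m a m' c (s * φ b) v := rfl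

theorem bcount_append (c : M) : ∀ (x y : List α) (s : M),
    bcount φ m a m' c s (x ++ y)
      = bcount φ m a m' (mval φ y * c) s x + bcount φ m a m' c (s * mval φ x) y := by
  intro x
  induction x with
  | nil =>
    intro y s
    rw [List.nil_append, bcount_nil, zero_add, mval_nil, mul_one]
  | cons b x ih =>
    intro y s
    rw [List.cons_append, bcount_cons, bcount_cons, ih y (s * φ b)]
    simp only [mval_append, mval_cons, mul_assoc, add_assoc]

theorem bcount_split (c s : M) (u v : List α) :
    bcount φ m a m' c s (u ++ a :: v)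
      = bcount φ m a m' (φ a * (mval φ v * c)) s u
        + (if s * mval φ u = m ∧ mval φ v * c = m' then 1 else 0)
        + bcount φ m a m' c (s * mval φ u * φ a) v := by
  rw [bcount_append, bcount_cons, mval_cons]
  simp only [mul_assoc, add_assoc, true_and]

/-- the first position of the class -/
theorem bcount_first (c : M) : ∀ (w : List α) (s : M) (r : ℕ),
    bcount φ m a m' c s w = r + 1 →
    ∃ u v, w = u ++ a :: v ∧ s * mval φ u = m ∧ mval φ v * c = m'
      ∧ bcount φ m a m' (φ a * m') s u = 0 ∧ bcount φ m a m' c (m * φ a) v = r := by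
  intro w
  induction w with
  | nil =>
    intro s r h
    rw [bcount_nil] at h
    omega
  | cons b w ih =>
    intro s r h
    rw [bcount_cons] at h
    by_cases hmark : s = m ∧ b = a ∧ mval φ w * c = m'
    · obtain ⟨h1, h2, h3⟩ := hmark
      rw [if_pos ⟨h1, h2, h3⟩] at h
      have h' : bcount φ m a m' c (m * φ a) w = r := by
        have h4 := h
        rw [h1, h2] at h4
        omega
      exact ⟨[], w, by rw [h2]; rfl, by rw [mval_nil, mul_one, h1], h3, rfl, h'⟩
    · rw [if_neg hmark, zero_add] at h
      obtain ⟨u, v, hw, hu, hv, hz, hr⟩ := ih (s * φ b) r h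
      refine ⟨b :: u, v, by rw [hw]; rfl, by rw [mval_cons, ← mul_assoc, hu], hv, ?_, hr⟩
      rw [bcount_cons, hz, add_zero, if_neg]
      rintro ⟨h1, h2, h3⟩
      apply hmark
      refine ⟨h1, h2, ?_⟩
      rw [hw, mval_append, mval_cons, mul_assoc, mul_assoc, hv]
      exact h3

theorem bcount_eq_zero_iff (c s : M) (w : List α) :
    bcount φ m a m' c s w = 0
      ↔ ¬ ∃ u v, w = u ++ a :: v ∧ s * mval φ u = m ∧ mval φ v * c = m' := by
  constructor
  · rintro h ⟨u, v, rfl, hu, hv⟩
    rw [bcount_split, if_pos ⟨hu, hv⟩] at h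
    omega
  · intro h
    by_contra hne
    obtain ⟨r, hr⟩ := Nat.exists_eq_succ_of_ne_zero hne
    obtain ⟨u, v, hw, hu, hv, -, -⟩ := bcount_first φ m a m' c w s r hr
    exact h ⟨u, v, hw, hu, hv⟩

/-- the words without a position of the class -/
def zeroLang (c s : M) : Language α := langOf fun w => bcount φ m a m' c s w = 0

/-- the blocks before the first position of the class -/
def preLang (s : M) : Language α :=
  langOf fun u => s * mval φ u = m ∧ bcount φ m a m' (φ a * m') s u = 0

/-- the blocks after the last position of the class -/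
def sufLang (c : M) : Language α :=
  langOf fun v => mval φ v * c = m' ∧ bcount φ m a m' c (m * φ a) v = 0

/-- the blocks from a position of the class to the next one -/
def midLang : Language α :=
  (preLang φ m a m' (m * φ a) * {[a]}) ⊓ langOf fun g => mval φ g * m' = m'

theorem mem_midLang (g : List α) :
    g ∈ midLang φ m a m' ↔ ∃ u, g = u ++ [a] ∧ m * φ a * mval φ u = m
      ∧ bcount φ m a m' (φ a * m') (m * φ a) u = 0 ∧ mval φ g * m' = m' := by
  unfold midLang
  rw [Language.mem_inf, Language.mem_mul]
  constructor
  · rintro ⟨⟨u, hu, y, hy, rfl⟩, hg⟩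
    rw [mem_singleton_lang] at hy
    subst hy
    exact ⟨u, rfl, hu.1, hu.2, hg⟩
  · rintro ⟨u, rfl, h1, h2, hg⟩
    exact ⟨⟨u, ⟨h1, h2⟩, [a], rfl, rfl⟩, hg⟩

/-- the words after a position of the class that contain `r` further positions of the class -/
theorem tail_lang (c : M) : ∀ (r : ℕ) (v : List α),
    (mval φ v * c = m' ∧ bcount φ m a m' c (m * φ a) v = r)
      ↔ v ∈ midLang φ m a m' ^ r * sufLang φ m a m' c := by
  intro r
  induction r with
  | zero =>
    intro v
    rw [pow_zero, one_mul]
    rfl
  | succ r ih =>
    intro v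
    rw [pow_succ', mul_assoc, Language.mem_mul]
    constructor
    · rintro ⟨hv, hc⟩
      obtain ⟨u, v₂, rfl, hu, hv₂, hz, hr⟩ := bcount_first φ m a m' c v (m * φ a) r hc
      refine ⟨u ++ [a], (mem_midLang φ m a m' _).mpr ⟨u, rfl, hu, hz, ?_⟩, v₂,
        (ih v₂).mp ⟨hv₂, hr⟩, by simp⟩
      calc mval φ (u ++ [a]) * m' = mval φ (u ++ a :: v₂) * c := by
            rw [← hv₂]
            simp only [mval_append, mval_cons, mval_nil, mul_one, mul_assoc]
        _ = m' := hv
    · rintro ⟨g, hg, v₂, hv₂, rfl⟩
      obtain ⟨u, rfl, hu, hz, hgm⟩ := (mem_midLang φ m a m' g).mp hg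
      obtain ⟨hv₂m, hv₂c⟩ := (ih v₂).mpr hv₂
      constructor
      · rw [mval_append, mul_assoc, hv₂m, hgm]
      · rw [List.append_assoc, List.singleton_append, bcount_split, hv₂m, hz,
          if_pos ⟨hu, rfl⟩, hu, hv₂c]
        omega

/-- the words with `r + 1` positions of the class -/
theorem count_lang (c s : M) (r : ℕ) (w : List α) :
    bcount φ m a m' c s w = r + 1
      ↔ w ∈ preLang φ m a m' s * {[a]}
          * (midLang φ m a m' ^ r * sufLang φ m a m' c) := by
  rw [mem_mul_letter_mul]
  constructor
  · intro h
    obtain ⟨u, v, hw, hu, hv, hz, hr⟩ := bcount_first φ m a m' c w s r h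
    exact ⟨u, v, hw, ⟨hu, hz⟩, (tail_lang φ m a m' c r v).mp ⟨hv, hr⟩⟩
  · rintro ⟨u, v, rfl, ⟨hu, hz⟩, hv⟩
    obtain ⟨hvm, hvc⟩ := (tail_lang φ m a m' c r v).mpr hv
    rw [bcount_split, hvm, hz, if_pos ⟨hu, rfl⟩, hu, hvc]
    omega

end TwoSided

theorem HasHeight.pow {α : Type} {n : ℕ} {L : Language α} (h : HasHeight n L) :
    ∀ k : ℕ, HasHeight n (L ^ k)
  | 0 => by
    rw [pow_zero]
    exact HasHeight.one
  | k + 1 => by
    rw [pow_succ]
    exact (HasHeight.pow h k).mul h

section Heights

variable {M α : Type} [Monoid M] [DecidableEq M] [DecidableEq α] [Finite M] [Fintype α]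
  (hap : ∀ x : M, ∃ k : ℕ, x ^ (k + 1) = x ^ k) (φ : α → M) (m : M) (a : α) (m' : M)

include hap

omit [DecidableEq M] [DecidableEq α] in
theorem starFree_mval_pred (P : M → Prop) :
    HasHeight 0 (langOf fun w : List α => P (mval φ w)) := by
  classical
  haveI : Fintype M := Fintype.ofFinite M
  refine (HasHeight.biUnion (Finset.univ.filter P)
    (fun x => langOf fun w : List α => (w.map φ).prod = x)
    (fun x _ => starFree_of_aperiodic hap φ x)).congr ?_
  intro w
  simp [mval]

theorem hasHeight_zeroLang (c s : M) : HasHeight 0 (zeroLang φ m a m' c s) := by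
  refine (((starFree_mval_pred hap φ (fun x => s * x = m)).mul (HasHeight.letter a)).mul
    (starFree_mval_pred hap φ (fun x => x * c = m'))).compl.congr ?_
  intro w
  rw [mem_compl_lang, mem_mul_letter_mul]
  exact bcount_eq_zero_iff φ m a m' c s w

theorem hasHeight_preLang (s : M) : HasHeight 0 (preLang φ m a m' s) :=
  ((starFree_mval_pred hap φ (fun x => s * x = m)).inf
    (hasHeight_zeroLang hap φ m a m' (φ a * m') s)).congr (fun _ => Iff.rfl)

theorem hasHeight_sufLang (c : M) : HasHeight 0 (sufLang φ m a m' c) :=
  ((starFree_mval_pred hap φ (fun x => x * c = m')).inf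
    (hasHeight_zeroLang hap φ m a m' c (m * φ a))).congr (fun _ => Iff.rfl)

theorem hasHeight_midLang : HasHeight 0 (midLang φ m a m') :=
  ((hasHeight_preLang hap φ m a m' (m * φ a)).mul (HasHeight.letter a)).inf
    (starFree_mval_pred hap φ (fun x => x * m' = m'))

/-- counting modulo `n` the positions with a given letter, a given value of the prefix before
them and a given value of the suffix after them: star height at most one -/
theorem hasHeight_bcount (c s : M) (n : ℕ) [NeZero n] (r : ZMod n) :
    HasHeight 1 (langOf fun w : List α => ((bcount φ m a m' c s w : ℕ) : ZMod n) = r) := by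
  have hZ : HasHeight 1 (if r = 0 then zeroLang φ m a m' c s else 0) := by
    split_ifs
    · exact (hasHeight_zeroLang hap φ m a m' c s).mono (Nat.zero_le 1)
    · exact HasHeight.zero
  have hD := hasHeight_midLang hap φ m a m'
  have hmain : HasHeight 1 (preLang φ m a m' s * {[a]}
      * ((KStar.kstar (midLang φ m a m' ^ n) * midLang φ m a m' ^ (r - 1).val)
        * sufLang φ m a m' c)) :=
    (((hasHeight_preLang hap φ m a m' s).mono (Nat.zero_le 1)).mul (HasHeight.letter a)).mul
      ((((hD.pow n).star).mul ((hD.pow _).mono (Nat.zero_le 1))).mul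
        ((hasHeight_sufLang hap φ m a m' c).mono (Nat.zero_le 1)))
  refine (hZ.add hmain).congr ?_
  intro w
  rw [mem_langOf, Language.mem_add]
  constructor
  · intro h
    rcases Nat.eq_zero_or_pos (bcount φ m a m' c s w) with h0 | hpos
    · left
      have hr : r = 0 := by
        rw [← h, h0]
        simp
      rw [if_pos hr]
      exact h0
    · right
      obtain ⟨k, hk⟩ := Nat.exists_eq_succ_of_ne_zero hpos.ne'
      have hw := (count_lang φ m a m' c s k w).mp hk
      have hk1 : ((k : ℕ) : ZMod n) = r - 1 := by
        rw [hk] at h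
        rw [← h]
        push_cast
        ring
      have hk2 : k % n = (r - 1).val := by
        rw [← hk1, ZMod.val_natCast]
      have hk3 : k = n * (k / n) + (r - 1).val := by
        rw [← hk2]
        exact (Nat.div_add_mod k n).symm
      rw [mem_mul_letter_mul] at hw ⊢
      obtain ⟨u, v, rfl, hu, hv⟩ := hw
      refine ⟨u, v, rfl, hu, ?_⟩
      obtain ⟨x, hx, y, hy, rfl⟩ := Language.mem_mul.mp hv
      refine Language.mem_mul.mpr ⟨x, ?_, y, hy, rfl⟩
      rw [hk3, pow_add, pow_mul] at hx
      obtain ⟨x1, hx1, x2, hx2, rfl⟩ := Language.mem_mul.mp hx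
      exact Language.mem_mul.mpr ⟨x1, (pow_le_kstar : (midLang φ m a m' ^ n) ^ (k / n)
        ≤ KStar.kstar (midLang φ m a m' ^ n)) hx1, x2, hx2, rfl⟩
  · rintro (h | h)
    · split_ifs at h with hr
      · have h0 : bcount φ m a m' c s w = 0 := h
        rw [h0, hr]
        simp
      · exact (Language.notMem_zero w h).elim
    · rw [mem_mul_letter_mul] at h
      obtain ⟨u, v, rfl, hu, hv⟩ := h
      obtain ⟨xy, hxy, z, hz, rfl⟩ := Language.mem_mul.mp hv
      obtain ⟨x, hx, y, hy, rfl⟩ := Language.mem_mul.mp hxy
      rw [Language.kstar_eq_iSup_pow, Language.mem_iSup] at hx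
      obtain ⟨q, hq⟩ := hx
      have hxy' : x ++ y ∈ midLang φ m a m' ^ (n * q + (r - 1).val) := by
        rw [pow_add, pow_mul]
        exact Language.mem_mul.mpr ⟨x, hq, y, hy, rfl⟩
      have hcount : bcount φ m a m' c s (u ++ a :: ((x ++ y) ++ z))
          = n * q + (r - 1).val + 1 :=
        (count_lang φ m a m' c s _ _).mpr ((mem_mul_letter_mul _ _ _ _).mpr
          ⟨u, _, rfl, hu, Language.mem_mul.mpr ⟨x ++ y, hxy', z, hz, rfl⟩⟩)
      rw [hcount]
      push_cast
      rw [ZMod.natCast_self, zero_mul, zero_add, ZMod.natCast_zmod_val, sub_add_cancel]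

end Heights

section Twist

variable {M α : Type} [Monoid M] [DecidableEq M] [DecidableEq α]

/-- the product of the weights of the positions of a word read in the left context `s` and
the right context `c` -/
def btwist {H : Type} [Monoid H] (φ : α → M) (wt : M → α → M → H) (c : M) : M → List α → H
  | _, [] => 1
  | s, b :: v => wt s b (mval φ v * c) * btwist φ wt c (s * φ b) v

theorem btwist_eq_prod [Fintype M] [Fintype α] {H : Type} [CommMonoid H] (φ : α → M)
    (wt : M → α → M → H) (c : M) : ∀ (w : List α) (s : M),
      btwist φ wt c s w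
        = ∏ t : M × α × M, wt t.1 t.2.1 t.2.2 ^ bcount φ t.1 t.2.1 t.2.2 c s w := by
  intro w
  induction w with
  | nil =>
    intro s
    simp [btwist, bcount_nil]
  | cons b w ih =>
    intro s
    show wt s b (mval φ w * c) * btwist φ wt c (s * φ b) w = _
    rw [ih (s * φ b)]
    simp only [bcount_cons, pow_add]
    rw [Finset.prod_mul_distrib]
    congr 1
    rw [Fintype.prod_eq_single (s, b, mval φ w * c)]
    · simp
    · intro t ht
      rw [if_neg, pow_zero]
      rintro ⟨h1, h2, h3⟩
      exact ht (Prod.ext h1.symm (Prod.ext h2.symm h3.symm))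

omit [DecidableEq M] [DecidableEq α] in
/-- the product of the weights expressed through the positions of the word -/
theorem btwist_eq_finRange {H : Type} [Monoid H] (φ : α → M) (wt : M → α → M → H) (c : M) :
    ∀ (w : List α) (s : M),
      ((List.finRange w.length).map (fun i =>
        wt (s * mval φ (w.take i.val)) (w.get i) (mval φ (w.drop (i.val + 1)) * c))).prod
        = btwist φ wt c s w := by
  intro w
  induction w with
  | nil =>
    intro s
    simp [btwist]
  | cons b w ih =>
    intro s
    show ((List.finRange (w.length + 1)).map (fun i : Fin (w.length + 1) =>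
        wt (s * mval φ ((b :: w).take i.val)) ((b :: w).get i)
          (mval φ ((b :: w).drop (i.val + 1)) * c))).prod
      = wt s b (mval φ w * c) * btwist φ wt c (s * φ b) w
    rw [List.finRange_succ, List.map_cons, List.prod_cons, List.map_map, ← ih (s * φ b)]
    congr 1
    · simp [mval_nil]
    · congr 1
      apply List.map_congr_left
      intro i _
      simp [mval_cons, mul_assoc]

end Twist

/-- Every language recognized by the block product (two-sided semidirect product) of a finite
commutative group and a finite aperiodic monoid has generalized star height at most one. -/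
theorem hasHeight_abelian_block_aperiodic {M : Type} [Monoid M] [Finite M]
    (hap : ∀ x : M, ∃ k : ℕ, x ^ (k + 1) = x ^ k) {H : Type} [CommGroup H] [Finite H]
    {α : Type} [Fintype α] (φ : α → M) (wt : M → α → M → H) (S : Set (M × H)) :
    HasHeight 1 (langOf fun w : List α =>
      ((w.map φ).prod,
        ((List.finRange w.length).map (fun i =>
          wt ((w.take i.val).map φ).prod (w.get i) ((w.drop (i.val + 1)).map φ).prod)).prod)
        ∈ S) := by
  classical
  haveI : Fintype M := Fintype.ofFinite M
  have hn : Nat.card H ≠ 0 := (Nat.card_pos).ne'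
  haveI : NeZero (Nat.card H) := ⟨hn⟩
  let n := Nat.card H
  let O : List α → M × (M × α × M → ZMod n) := fun w =>
    (mval φ w, fun t => ((bcount φ t.1 t.2.1 t.2.2 1 1 w : ℕ) : ZMod n))
  refine HasHeight.of_obs O ?_ _ ?_
  · intro v
    have hM : HasHeight 1 (langOf fun w : List α => (w.map φ).prod = v.1) :=
      (starFree_of_aperiodic hap φ v.1).mono (Nat.zero_le 1)
    refine (hM.inf (HasHeight.iInter _ (fun t : M × α × M =>
      hasHeight_bcount hap φ t.1 t.2.1 t.2.2 1 1 n (v.2 t)))).congr ?_
    intro w
    simp only [mem_langOf, Language.mem_inf]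
    constructor
    · intro h
      rw [← h]
      exact ⟨rfl, fun t => rfl⟩
    · rintro ⟨h1, h2⟩
      exact Prod.ext h1 (funext fun t => h2 t)
  · intro w w' hO hw
    have hw1 : ((w.map φ).prod,
        ((List.finRange w.length).map (fun i =>
          wt ((w.take i.val).map φ).prod (w.get i) ((w.drop (i.val + 1)).map φ).prod)).prod)
        ∈ S := hw
    show ((w'.map φ).prod,
        ((List.finRange w'.length).map (fun i =>
          wt ((w'.take i.val).map φ).prod (w'.get i) ((w'.drop (i.val + 1)).map φ).prod)).prod)
        ∈ S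
    have hval : (w.map φ).prod = (w'.map φ).prod := congrArg Prod.fst hO
    have hcnt : ∀ t : M × α × M, ((bcount φ t.1 t.2.1 t.2.2 1 1 w : ℕ) : ZMod n)
        = (bcount φ t.1 t.2.1 t.2.2 1 1 w' : ℕ) := fun t => congrFun (congrArg Prod.snd hO) t
    have htw : ∀ u : List α, ((List.finRange u.length).map (fun i =>
        wt ((u.take i.val).map φ).prod (u.get i) ((u.drop (i.val + 1)).map φ).prod)).prod
        = btwist φ wt 1 1 u := by
      intro u
      have h1 := btwist_eq_finRange φ wt 1 u 1
      simp only [one_mul, mul_one] at h1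
      exact h1
    have hprod : btwist φ wt 1 1 w = btwist φ wt 1 1 w' := by
      rw [btwist_eq_prod, btwist_eq_prod]
      refine Finset.prod_congr rfl (fun t _ => ?_)
      have hmod := (ZMod.natCast_eq_natCast_iff _ _ _).mp (hcnt t)
      have hone : wt t.1 t.2.1 t.2.2 ^ n = 1 := pow_card_eq_one'
      rw [pow_eq_pow_mod _ hone, pow_eq_pow_mod (bcount φ t.1 t.2.1 t.2.2 1 1 w') hone]
      congr 1
    rw [htw w', ← hprod, ← htw w, ← hval]
    exact hw1

end Vale.Agent.Lib.P329
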