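import Vale.Agent.Lib.P329.LevelCounts

/-!
# Words in a group with a commutative normal subgroup: the product of a word is determined by
its class modulo the subgroup and by the numbers of occurrences of each letter at each level
-/

namespace Vale.Agent.Lib.P329

variable {G : Type} [Group G] {α : Type}

section

variable (N : Subgroup G) [N.Normal]

/-- the level of a letter: its class modulo `N` -/
def lvOf (f : α → G) : α → G ⧸ N := fun a => (f a : G ⧸ N)

theorem lvOf_prod (f : α → G) (w : List α) :
    (w.map (lvOf N f)).prod = (((w.map f).prod : G) : G ⧸ N) := by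
  induction w with
  | nil => rfl
  | cons a w ih =>
    rw [List.map_cons, List.prod_cons, ih, List.map_cons, List.prod_cons, QuotientGroup.mk_mul]
    rfl

/-- the element of `N` contributed by the letter `p.1` read at level `p.2` -/
noncomputable def yEl (f : α → G) (p : α × G ⧸ N) : G :=
  p.2.out * f p.1 * (p.2 * (f p.1 : G ⧸ N)).out⁻¹

/-- the product of a word, corrected to an element of `N` -/
noncomputable def xEl (f : α → G) (w : List α) : G :=
  (1 : G ⧸ N).out * (w.map f).prod * (((w.map f).prod : G) : G ⧸ N).out⁻¹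

theorem yEl_mem (f : α → G) (p : α × G ⧸ N) : yEl N f p ∈ N := by
  rw [← QuotientGroup.eq_one_iff]
  unfold yEl
  simp [QuotientGroup.out_eq']

theorem xEl_mem (f : α → G) (w : List α) : xEl N f w ∈ N := by
  rw [← QuotientGroup.eq_one_iff]
  unfold xEl
  simp [QuotientGroup.out_eq']

theorem xEl_nil (f : α → G) : xEl N f [] = 1 := by
  unfold xEl
  simp

theorem xEl_snoc (f : α → G) (w : List α) (b : α) :
    xEl N f (w ++ [b]) = xEl N f w * yEl N f (b, (((w.map f).prod : G) : G ⧸ N)) := by
  unfold xEl yEl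
  rw [List.map_append, List.prod_append, List.map_singleton, List.prod_singleton,
    QuotientGroup.mk_mul]
  group

open scoped IsMulCommutative in
theorem word_determined_gen [Finite G] [Fintype α] [DecidableEq α] [DecidableEq (G ⧸ N)]
    (hN : ∀ a ∈ N, ∀ b ∈ N, a * b = b * a) (f : α → G) (w w' : List α)
    (hl : (((w.map f).prod : G) : G ⧸ N) = (((w'.map f).prod : G) : G ⧸ N))
    (hc : ∀ (a : α) (q : G ⧸ N),
      levelCount (lvOf N f) a q 1 w ≡ levelCount (lvOf N f) a q 1 w' [MOD Nat.card G]) :
    (w.map f).prod = (w'.map f).prod := by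
  classical
  have : IsMulCommutative N := ⟨⟨fun a b => Subtype.ext (hN a.1 a.2 b.1 b.2)⟩⟩
  haveI : Fintype (G ⧸ N) := Fintype.ofFinite _
  have key : ∀ v : List α, (⟨xEl N f v, xEl_mem N f v⟩ : N)
      = ∏ p : α × G ⧸ N, (⟨yEl N f p, yEl_mem N f p⟩ : N) ^
          levelCount (lvOf N f) p.1 p.2 1 v := by
    intro v
    induction v using List.reverseRecOn with
    | nil =>
      have e : (⟨xEl N f [], xEl_mem N f []⟩ : N) = 1 := Subtype.ext (xEl_nil N f)
      rw [e]
      symm
      apply Finset.prod_eq_one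
      intro p _
      simp [levelCount, dcount]
    | append_singleton v b ih =>
      have e1 : (⟨xEl N f (v ++ [b]), xEl_mem N f (v ++ [b])⟩ : N)
          = ⟨xEl N f v, xEl_mem N f v⟩ *
            ⟨yEl N f (b, (((v.map f).prod : G) : G ⧸ N)), yEl_mem N f _⟩ :=
        Subtype.ext (xEl_snoc N f v b)
      have e2 : ∀ p : α × G ⧸ N,
          (⟨yEl N f p, yEl_mem N f p⟩ : N) ^ levelCount (lvOf N f) p.1 p.2 1 (v ++ [b])
          = (⟨yEl N f p, yEl_mem N f p⟩ : N) ^ levelCount (lvOf N f) p.1 p.2 1 v *
            (if p = (b, (((v.map f).prod : G) : G ⧸ N)) then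
              (⟨yEl N f p, yEl_mem N f p⟩ : N) else 1) := by
        intro p
        rw [levelCount_snoc, lvOf_prod, one_mul, pow_add]
        by_cases hp : p = (b, (((v.map f).prod : G) : G ⧸ N))
        · have hcond : (((v.map f).prod : G) : G ⧸ N) = p.2 ∧ b = p.1 := by
            rw [hp]; exact ⟨rfl, rfl⟩
          rw [if_pos hcond, if_pos hp, pow_one]
        · have hcond : ¬ ((((v.map f).prod : G) : G ⧸ N) = p.2 ∧ b = p.1) := by
            rintro ⟨h1, h2⟩
            exact hp (Prod.ext h2.symm h1.symm)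
          rw [if_neg hcond, if_neg hp, pow_zero]
      rw [e1, ih, Finset.prod_congr rfl (fun p _ => e2 p), Finset.prod_mul_distrib,
        Finset.prod_ite_eq']
      simp
  have hpow : ∀ p : α × G ⧸ N,
      (⟨yEl N f p, yEl_mem N f p⟩ : N) ^ levelCount (lvOf N f) p.1 p.2 1 w
        = (⟨yEl N f p, yEl_mem N f p⟩ : N) ^ levelCount (lvOf N f) p.1 p.2 1 w' := by
    intro p
    have h1 : (⟨yEl N f p, yEl_mem N f p⟩ : N) ^ Nat.card G = 1 :=
      Subtype.ext (by simpa using (pow_card_eq_one' (G := G) (x := yEl N f p)))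
    rw [pow_eq_pow_mod _ h1, pow_eq_pow_mod (levelCount (lvOf N f) p.1 p.2 1 w') h1]
    congr 1
    exact hc p.1 p.2
  have hx : (⟨xEl N f w, xEl_mem N f w⟩ : N) = ⟨xEl N f w', xEl_mem N f w'⟩ := by
    rw [key w, key w']
    exact Finset.prod_congr rfl (fun p _ => hpow p)
  have h2 : xEl N f w = xEl N f w' := congrArg Subtype.val hx
  unfold xEl at h2
  rw [hl] at h2
  exact mul_left_cancel (mul_right_cancel h2)

end

end Vale.Agent.Lib.P329
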